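import Vale.Agent.P210.M.EmbB

/-! P210 M/Arc: the speed along an arc (helper names end with _Arc). `spd_cont`: at `t₀` put `e = chartAt (γ t₀)`, `β = e ∘ γ` is `ContDiffAt ℝ 1` near `t₀` (`contMDiffAt_iff_contDiffAt`, `contMDiffOn_chart`), `γ = e.symm ∘ β` near `t`, so `mfderiv γ t 1 = mfderiv e.symm (β t) (deriv β t)` and by `qf_coef`
`spd g γ t = √(qf (coef g (γ t₀) (β t)) (deriv β t) (deriv β t))` near `t₀` (tangent spaces are `E n` by definition: state an auxiliary lemma for `x = e.symm y` and use `subst`). `deriv_iota`: `mfderiv_comp`, `mfderiv_eq_fderiv`, `fderiv_deriv`. -/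

namespace Vale.Agent.P210

open Set Filter Topology Metric MeasureTheory
open scoped ENNReal Manifold ContDiff

noncomputable section

variable {n N : ℕ} {M : Type} [TopologicalSpace M] [ChartedSpace (E n) M]
  [IsManifold (𝓡 n) ∞ M]

theorem aux_Arc (g : Form n M) (c : M) {x : M} {y u : E n} (hx : x = (chartAt (E n) c).symm y)
    (w : TangentSpace (𝓡 n) x)
    (hw : w = mfderiv (𝓡 n) (𝓡 n) (chartAt (E n) c).symm y u) :
    g x w w = qf (coef g c y) u u := by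
  subst hx
  subst hw
  exact (qf_coef g c y u).symm

theorem beta_Arc {γ : ℝ → M} (hγ : ContMDiff 𝓘(ℝ, ℝ) (𝓡 n) 1 γ) (c : M) {t : ℝ}
    (ht : γ t ∈ (chartAt (E n) c).source) : ContDiffAt ℝ 1 (chartAt (E n) c ∘ γ) t := by
  have h1 : ContMDiffAt (𝓡 n) (𝓡 n) 1 (chartAt (E n) c) (γ t) :=
    (contMDiffOn_chart (I := 𝓡 n) (n := 1)).contMDiffAt
      ((chartAt (E n) c).open_source.mem_nhds ht)
  exact contMDiffAt_iff_contDiffAt.1 (h1.comp t (hγ t))

theorem vel_Arc {γ : ℝ → M} (hγ : ContMDiff 𝓘(ℝ, ℝ) (𝓡 n) 1 γ) (c : M) {t : ℝ}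
    (ht : γ t ∈ (chartAt (E n) c).source) :
    mfderiv 𝓘(ℝ, ℝ) (𝓡 n) γ t (1 : ℝ) =
      mfderiv (𝓡 n) (𝓡 n) (chartAt (E n) c).symm (chartAt (E n) c (γ t))
        (deriv (chartAt (E n) c ∘ γ) t) := by
  have h1 : ∀ᶠ s in 𝓝 t, γ s ∈ (chartAt (E n) c).source :=
    hγ.continuous.continuousAt.eventually ((chartAt (E n) c).open_source.mem_nhds ht)
  have ev : γ =ᶠ[𝓝 t] (chartAt (E n) c).symm ∘ (chartAt (E n) c ∘ γ) := by
    filter_upwards [h1] with s hs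
    exact ((chartAt (E n) c).left_inv hs).symm
  have h2 : MDifferentiableAt (𝓡 n) (𝓡 n) (chartAt (E n) c).symm ((chartAt (E n) c ∘ γ) t) :=
    (mdifferentiable_chart (I := 𝓡 n) c).mdifferentiableAt_symm ((chartAt (E n) c).map_source ht)
  have h3 : MDifferentiableAt 𝓘(ℝ, ℝ) (𝓡 n) (chartAt (E n) c ∘ γ) t :=
    mdifferentiableAt_iff_differentiableAt.2 ((beta_Arc hγ c ht).differentiableAt one_ne_zero)
  rw [ev.mfderiv_eq, mfderiv_comp t h2 h3, mfderiv_eq_fderiv]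
  rfl

theorem spd_cont {g : Form n M} (hg : IsRiem g) {γ : ℝ → M} (hγ : ContMDiff 𝓘(ℝ, ℝ) (𝓡 n) 1 γ) :
    Continuous (spd g γ) := by
  refine continuous_iff_continuousAt.2 fun t₀ => ?_
  have h0 : γ t₀ ∈ (chartAt (E n) (γ t₀)).source := mem_chart_source _ _
  have hβ := beta_Arc hγ (γ t₀) h0
  have h1 : ∀ᶠ t in 𝓝 t₀, γ t ∈ (chartAt (E n) (γ t₀)).source :=
    hγ.continuous.continuousAt.eventually ((chartAt (E n) (γ t₀)).open_source.mem_nhds h0)
  have ev : (fun t => √(qf (coef g (γ t₀) ((chartAt (E n) (γ t₀) ∘ γ) t))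
      (deriv (chartAt (E n) (γ t₀) ∘ γ) t : E n)
      (deriv (chartAt (E n) (γ t₀) ∘ γ) t : E n))) =ᶠ[𝓝 t₀]
      spd g γ := by
    filter_upwards [h1] with t ht
    rw [spd, aux_Arc g (γ t₀) ((chartAt (E n) (γ t₀)).left_inv ht).symm _ (vel_Arc hγ (γ t₀) ht)]
    rfl
  refine ContinuousAt.congr (ContinuousAt.sqrt ?_) ev
  have hd : ContinuousAt (deriv (chartAt (E n) (γ t₀) ∘ γ)) t₀ :=
    (hβ.continuousAt_fderiv one_ne_zero).clm_apply (continuousAt_const (y := (1 : ℝ)))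
  have hd' : ∀ i, ContinuousAt (fun t => deriv (chartAt (E n) (γ t₀) ∘ γ) t i) t₀ := fun i =>
    (EuclideanSpace.proj (𝕜 := ℝ) i).continuous.continuousAt.comp hd
  have hc : ∀ i j, ContinuousAt (fun t => coef g (γ t₀) ((chartAt (E n) (γ t₀) ∘ γ) t) i j) t₀ :=
    fun i j => ContinuousAt.comp (f := chartAt (E n) (γ t₀) ∘ γ)
      (g := fun y => coef g (γ t₀) y i j) ((hg.smooth (γ t₀) i j).continuousOn.continuousAt
        ((chartAt (E n) (γ t₀)).open_target.mem_nhds (mem_chart_target _ _))) hβ.continuousAt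
  unfold qf
  exact tendsto_finsetSum _ fun i _ => tendsto_finsetSum _ fun j _ =>
    ((hc i j).mul (hd' i)).mul (hd' j)

theorem spd_cmul (f : M → ℝ) (g : Form n M) (γ : ℝ → M) (t : ℝ) :
    spd (cmul f g) γ t = Real.exp (f (γ t)) * spd g γ t := by
  have e : Real.exp (2 * f (γ t)) = Real.exp (f (γ t)) ^ 2 := by
    rw [← Real.exp_nat_mul]
    norm_num
  simp only [spd, cmul, _root_.smul_apply, smul_eq_mul]
  rw [e, Real.sqrt_mul (sq_nonneg _), Real.sqrt_sq (Real.exp_pos _).le]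

theorem deriv_iota {ι : M → E N} (hι : ContMDiff (𝓡 n) (𝓡 N) ∞ ι) {γ : ℝ → M}
    (hγ : ContMDiff 𝓘(ℝ, ℝ) (𝓡 n) 1 γ) : ContDiff ℝ 1 (fun t => ι (γ t)) ∧ ∀ t,
      deriv (fun t => ι (γ t)) t =
        mfderiv (𝓡 n) (𝓡 N) ι (γ t) (mfderiv 𝓘(ℝ, ℝ) (𝓡 n) γ t (1 : ℝ)) := by
  have h1 : ContMDiff (𝓡 n) (𝓡 N) 1 ι := hι.of_le (by exact_mod_cast le_top)
  refine ⟨contMDiff_iff_contDiff.1 (h1.comp hγ), fun t => ?_⟩
  have h2 := mfderiv_comp t (h1.mdifferentiableAt one_ne_zero (x := γ t))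
    (hγ.mdifferentiableAt one_ne_zero)
  rw [mfderiv_eq_fderiv] at h2
  exact congrArg (fun T : ℝ →L[ℝ] E N => T 1) h2

theorem coef_cmul (f : M → ℝ) (g : Form n M) (c : M) :
    coef (cmul f g) c = cm (fun y => f ((chartAt (E n) c).symm y)) (coef g c) := by
  funext y
  ext i j
  simp only [coef, cm, cmul, _root_.smul_apply, Matrix.smul_apply]

end

end Vale.Agent.P210
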