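import Vale.Agent.P210.Stmt

/-! P210 M/St: the definitions used in the statement on manifolds. Tangent vectors at `x` are
written, as in Mathlib, in the preferred chart at `x`. FROZEN. -/

namespace Vale.Agent.P210.Mf

open Set Filter Topology
open scoped ENNReal Manifold ContDiff

noncomputable section

section

variable (F : Type) [NormedAddCommGroup F] [NormedSpace ℝ F] {M : Type} [TopologicalSpace M]
  [ChartedSpace F M]

/-- The differential at `y` of the inverse of the chart at `c`. -/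
def dch (c : M) (y v : F) : F := mfderiv 𝓘(ℝ, F) 𝓘(ℝ, F) (chartAt F c).symm y v

/-- The velocity of a curve. -/
def vel (γ : ℝ → M) (t : ℝ) : F := mfderiv 𝓘(ℝ, ℝ) 𝓘(ℝ, F) γ t (1 : ℝ)

/-- `C^1` curves. -/
def C1 (γ : ℝ → M) : Prop := ContMDiff 𝓘(ℝ, ℝ) 𝓘(ℝ, F) 1 γ

/-- Smooth functions on `Ω`. -/
def SmoothOn (Ω : Set M) (f : M → ℝ) : Prop := ContMDiffOn 𝓘(ℝ, F) 𝓘(ℝ, ℝ) ∞ f Ω

end

variable {n : ℕ} {M : Type} [TopologicalSpace M] [ChartedSpace (E n) M]

/-- The bilinear form of a matrix. -/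
def bil (a : Matrix (Fin n) (Fin n) ℝ) (v w : E n) : ℝ := ∑ i, ∑ j, a i j * v i * w j

/-- The coefficients `g_{ij}` in the chart at `c` of the field `x ↦ bil (g x)` of bilinear forms
on the tangent spaces. -/
def coef (g : M → Matrix (Fin n) (Fin n) ℝ) (c : M) (y : E n) : Matrix (Fin n) (Fin n) ℝ :=
  fun i j => bil (g ((chartAt (E n) c).symm y)) (dch (E n) c y (EuclideanSpace.single i 1))
    (dch (E n) c y (EuclideanSpace.single j 1))

/-- Smooth Riemannian metrics. -/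
structure IsRiem (g : M → Matrix (Fin n) (Fin n) ℝ) : Prop where
  symm : ∀ x, (g x).IsSymm
  pos : ∀ x v, v ≠ 0 → 0 < bil (g x) v v
  smooth : ∀ c i j, ContDiffOn ℝ ∞ (fun y => coef g c y i j) (chartAt (E n) c).target

/-- The conformal multiple `e^{2f} g`. -/
def cmul (f : M → ℝ) (g : M → Matrix (Fin n) (Fin n) ℝ) (x : M) : Matrix (Fin n) (Fin n) ℝ :=
  Real.exp (2 * f x) • g x

/-- The scalar curvature is at least one on `Ω`, computed in every chart. -/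
def ScalGe (Ω : Set M) (g : M → Matrix (Fin n) (Fin n) ℝ) : Prop :=
  ∀ c : M, ∀ y ∈ (chartAt (E n) c).target, (chartAt (E n) c).symm y ∈ Ω → 1 ≤ scal (coef g c) y

/-- There is a piecewise `C^1` curve in `Ω` from `x` to `y` of length `a`. -/
inductive Path (Ω : Set M) (g : M → Matrix (Fin n) (Fin n) ℝ) : M → M → ℝ → Prop
  | arc (γ : ℝ → M) : C1 (E n) γ → MapsTo γ (Icc 0 1) Ω →
      Path Ω g (γ 0) (γ 1) (∫ t in (0 : ℝ)..1, √(bil (g (γ t)) (vel (E n) γ t) (vel (E n) γ t)))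
  | trans {x y z : M} {a b : ℝ} : Path Ω g x y a → Path Ω g y z b → Path Ω g x z (a + b)

/-- The Riemannian distance of `(Ω, g)`. -/
def mdist (Ω : Set M) (g : M → Matrix (Fin n) (Fin n) ℝ) (x y : M) : ℝ≥0∞ :=
  ⨅ (a : ℝ) (_ : Path Ω g x y a), ENNReal.ofReal a

/-- Every Cauchy sequence for `ρ` in `Ω` converges in `Ω`. -/
def Cplt (Ω : Set M) (ρ : M → M → ℝ≥0∞) : Prop :=
  ∀ u : ℕ → M, (∀ i, u i ∈ Ω) →
    (∀ ε : ℝ≥0∞, 0 < ε → ∃ N, ∀ i ≥ N, ∀ j ≥ N, ρ (u i) (u j) < ε) →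
      ∃ p ∈ Ω, Tendsto (fun i => ρ (u i) p) atTop (𝓝 0)

/-- There is a map from `Ω` to a simplicial complex of dimension at most `d`, with continuous
barycentric coordinates, locally involving finitely many vertices, whose fibres have diameter at
most `C` for the distance `ρ`. -/
def Width (Ω : Set M) (ρ : M → M → ℝ≥0∞) (d : ℕ) (C : ℝ) : Prop :=
  ∃ (V : Type) (K : PreAbstractSimplicialComplex V) (φ : M → V → ℝ),
    (∀ s ∈ K.faces, s.card ≤ d + 1) ∧ MapsTo φ Ω (realization K) ∧ ContinuousOn φ Ω ∧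
    (∀ x ∈ Ω, ∃ t : Finset V, ∀ᶠ y in 𝓝[Ω] x, ∀ v, v ∉ t → φ y v = 0) ∧
    ∀ x ∈ Ω, ∀ y ∈ Ω, φ x = φ y → ρ x y ≤ ENNReal.ofReal C

end

end Vale.Agent.P210.Mf
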