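import Vale.Agent.P210.M.Main
import Vale.Agent.P210.M.St

/-! P210 M/Bridge: from matrices to bilinear maps (owner helper28). -/

namespace Vale.Agent.P210

open Set Filter Topology
open scoped ContDiff Manifold

noncomputable section

variable {n : ℕ} {M : Type} [TopologicalSpace M] [ChartedSpace (E n) M]

/-- The continuous bilinear map of a matrix. -/
def toCL (a : Matrix (Fin n) (Fin n) ℝ) : E n →L[ℝ] E n →L[ℝ] ℝ :=
  ∑ i, ∑ j, a i j • (EuclideanSpace.proj i : E n →L[ℝ] ℝ).smulRight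
    (EuclideanSpace.proj j : E n →L[ℝ] ℝ)

theorem toCL_apply (a : Matrix (Fin n) (Fin n) ℝ) (v w : E n) : toCL a v w = Mf.bil a v w := by
  simp [toCL, Mf.bil, mul_assoc]

/-- The field of bilinear maps. -/
def toForm (g : M → Matrix (Fin n) (Fin n) ℝ) : Form n M := fun x => toCL (g x)

theorem toForm_apply (g : M → Matrix (Fin n) (Fin n) ℝ) (x : M) (v w : E n) :
    toForm g x v w = Mf.bil (g x) v w := toCL_apply _ _ _

theorem bil_smul (c : ℝ) (a : Matrix (Fin n) (Fin n) ℝ) (v w : E n) :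
    Mf.bil (c • a) v w = c * Mf.bil a v w := by
  simp only [Mf.bil, Finset.mul_sum, Matrix.smul_apply, smul_eq_mul, mul_assoc]

theorem cmul_apply (f : M → ℝ) (g : M → Matrix (Fin n) (Fin n) ℝ) (x : M) (v w : E n) :
    cmul f (toForm g) x v w = Mf.bil (Mf.cmul f g x) v w := by
  rw [Mf.cmul, bil_smul, ← toForm_apply]
  rfl

theorem path_iff {Ω : Set M} {g : M → Matrix (Fin n) (Fin n) ℝ} {G : Form n M}
    (h : ∀ x (v w : E n), G x v w = Mf.bil (g x) v w) {x y : M} {a : ℝ} :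
    Path Ω G x y a ↔ Mf.Path Ω g x y a := by
  have e : ∀ γ : ℝ → M, (fun t => √(G (γ t) (mfderiv 𝓘(ℝ, ℝ) (𝓡 n) γ t (1 : ℝ))
      (mfderiv 𝓘(ℝ, ℝ) (𝓡 n) γ t (1 : ℝ)))) =
      fun t => √(Mf.bil (g (γ t)) (Mf.vel (E n) γ t) (Mf.vel (E n) γ t)) := fun γ =>
    funext fun t => congrArg _ (h _ _ _)
  constructor
  · intro k
    induction k with
    | arc γ h1 h2 =>
      rw [e]
      exact Mf.Path.arc γ h1 h2
    | trans _ _ h1 h2 => exact h1.trans h2
  · intro k
    induction k with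
    | arc γ h1 h2 =>
      rw [← e]
      exact Path.arc γ h1 h2
    | trans _ _ h1 h2 => exact h1.trans h2

theorem coef_eq {g : M → Matrix (Fin n) (Fin n) ℝ} {G : Form n M}
    (h : ∀ x (v w : E n), G x v w = Mf.bil (g x) v w) : coef G = Mf.coef g := by
  funext c y i j
  exact h _ _ _

theorem main4 (n : ℕ) (hn : 3 ≤ n) (M : Type) [TopologicalSpace M] [ChartedSpace (E n) M]
    [IsManifold (𝓡 n) ∞ M] [T2Space M] [CompactSpace M] [ConnectedSpace M]
    (g : M → Matrix (Fin n) (Fin n) ℝ) (hg : Mf.IsRiem g) : ∃ C : ℝ, ∀ (Ω : Set M) (f : M → ℝ),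
      IsOpen Ω → IsConnected Ω → Mf.SmoothOn (E n) Ω f →
      Mf.Cplt Ω (Mf.mdist Ω (Mf.cmul f g)) → Mf.ScalGe Ω (Mf.cmul f g) →
      Mf.Width Ω (Mf.mdist Ω (Mf.cmul f g)) (n - 2) C := by
  have hG : IsRiem (toForm g) := by
    refine ⟨fun x v w => ?_, fun x v hv => ?_, ?_⟩
    · refine (toForm_apply g x v w).trans (Eq.trans ?_ (toForm_apply g x w v).symm)
      unfold Mf.bil
      rw [Finset.sum_comm]
      refine Finset.sum_congr rfl fun i _ => Finset.sum_congr rfl fun j _ => ?_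
      rw [(hg.symm x).apply i j]
      ring
    · exact (hg.pos x v hv).trans_eq (toForm_apply g x v v).symm
    · rw [coef_eq (toForm_apply g)]
      exact hg.smooth
  obtain ⟨C, hC⟩ := main3 n hn M (toForm g) hG
  refine ⟨C, fun Ω f h1 h2 h3 h4 h5 => ?_⟩
  have e : mdist Ω (cmul f (toForm g)) = Mf.mdist Ω (Mf.cmul f g) := by
    funext x y
    simp only [mdist, Mf.mdist, path_iff (cmul_apply f g)]
  have h6 := hC Ω f h1 h2 h3 (by rw [e]; exact h4) (by
    unfold ScalGe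
    rw [coef_eq (cmul_apply f g)]
    exact h5)
  rw [e] at h6
  exact h6

end

end Vale.Agent.P210
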