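import Vale.Agent.P210.M.Defs
import Vale.Agent.P210.Met

/-! P210 M/Met: port of P210/Met.lean to a relatively open `Ω ⊆ X` (helper names end with _MMet). `Joined.mem/symm/le`, `dd_tri`, `dd_symm`, `dd_mem`, `dd_self`, `WW_ne` hold as they are.
`dd_seg2`: the arc `t ↦ Φ (y + t • (y' - y))` is `C^1`, its derivative has norm at most `K ‖y' - y‖` (`Patch.nD`, the ball is convex). `dd_loc2`: patch at `x`, `z = Φ (P z)` near `x` in `X`, `Φ` maps a small ball around `P x` into `Ω ∩ {w < w x + ε / K ^ 2}`, `Patch.mapP`.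
`dd_meas2`: `{dd < c}` is contained in `X` and relatively open (`isOpen_induced_iff`, or `mem_nhdsWithin` and a union of open sets). `dd_fin2`: `IsPreconnected.induction₂` or `isPreconnected_iff_subset_of_disjoint`. -/

namespace Vale.Agent.P210

open Set Filter Topology Metric MeasureTheory
open scoped ENNReal

noncomputable section

variable {N n : ℕ} {X Ω : Set (E N)} {w : E N → ℝ} {K s : ℝ} {x y p : E N}
  {P : E N →L[ℝ] E n} {Φ : E n → E N}

theorem Joined.nonneg2 (hD : Dom2 X Ω w) {a : ℝ} (h : Joined Ω (sp w) x y a) : 0 ≤ a := by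
  induction h with
  | arc γ _ hm =>
    exact intervalIntegral.integral_nonneg zero_le_one fun t ht =>
      mul_nonneg (hD.pos _ (hm ht)).le (norm_nonneg _)
  | trans _ _ h1 h2 => exact add_nonneg h1 h2

theorem WW_meas2 (hX : IsCompact X) (hD : Dom2 X Ω w) : Measurable (WW Ω w) := by
  classical
  unfold WW
  rw [← piecewise_eq_indicator]
  exact (ENNReal.continuous_ofReal.comp_continuousOn hD.cont).measurable_piecewise
    continuousOn_const (hD.meas hX)

theorem dd_seg2 (hD : Dom2 X Ω w) (hK : 0 ≤ K) (hP : Patch n X K s p P Φ) {u u' : E n}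
    (hu : u ∈ ball (P p) (K * s)) (hu' : u' ∈ ball (P p) (K * s))
    (h : ∀ t ∈ Icc (0 : ℝ) 1, Φ (u + t • (u' - u)) ∈ Ω) :
    dd Ω w (Φ u) (Φ u') ≤ ENNReal.ofReal K * seg (fun z => WW Ω w (Φ z)) u u' := by
  have hd : ∀ t : ℝ, deriv (fun t : ℝ => Φ (u + t • (u' - u))) t =
      fderiv ℝ Φ (u + t • (u' - u)) (u' - u) := fun t => by
    have h1 : HasDerivAt (fun t : ℝ => u + t • (u' - u)) (u' - u) t := by
      simpa using ((hasDerivAt_id t).smul_const (u' - u)).const_add u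
    exact ((hP.sm.differentiable one_ne_zero _).hasFDerivAt.comp_hasDerivAt t h1).deriv
  have h1 := (Joined.arc (Ω := Ω) (σ := sp w) (fun t : ℝ => Φ (u + t • (u' - u)))
    (hP.sm.comp (contDiff_const.add (contDiff_id.smul contDiff_const))) h).le
  simp only [hd, zero_smul, add_zero, one_smul, add_sub_cancel] at h1
  rw [intervalIntegral.integral_of_le zero_le_one, ← integral_Icc_eq_integral_Ioc] at h1
  refine h1.trans ((Real.ofReal_le_enorm _).trans ((enorm_integral_le_lintegral_enorm _).trans ?_))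
  rw [seg, ← lintegral_const_mul' _ _ ENNReal.ofReal_ne_top]
  refine setLIntegral_mono' measurableSet_Icc fun t ht => ?_
  have h2 : u + t • (u' - u) ∈ ball (P p) (K * s) := (convex_ball _ _).add_smul_sub_mem hu hu' ht
  have h3 : ‖fderiv ℝ Φ (u + t • (u' - u)) (u' - u)‖ ≤ K * ‖u' - u‖ :=
    (ContinuousLinearMap.le_opNorm _ _).trans
      (mul_le_mul_of_nonneg_right (hP.nD _ h2) (norm_nonneg _))
  simp only [sp, WW]
  rw [indicator_of_mem (h t ht), enorm_mul, enorm_norm,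
    Real.enorm_eq_ofReal (hD.pos _ (h t ht)).le, mul_left_comm, ← ofReal_norm, ← ofReal_norm,
    ← ENNReal.ofReal_mul hK]
  exact mul_le_mul_right (ENNReal.ofReal_le_ofReal h3) _

theorem dd_loc2 (hX : Emb n X K s) (hD : Dom2 X Ω w) (hx : x ∈ Ω) {ε : ℝ} (hε : 0 < ε) :
    ∀ᶠ y in 𝓝[X] x, dd Ω w x y ≤ ENNReal.ofReal ((K ^ 2 * w x + ε) * dist y x) := by
  obtain ⟨P, Φ, hP⟩ := hX.patch x (hD.sub hx)
  have hK : 0 < K := lt_of_lt_of_le one_pos hX.K1
  have hs := hX.s0
  have hKs : 0 < K * s := mul_pos hK hs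
  have h0 : Φ (P x) = x := hP.right x (hD.sub hx) (by rwa [dist_self])
  have hε' : 0 < ε / K ^ 2 := by positivity
  have h1 : ∀ᶠ z in 𝓝[X] x, w z < w x + ε / K ^ 2 ∧ z ∈ Ω := by
    have h2 : ContinuousWithinAt w X x := (hD.cont x hx).mono_of_mem_nhdsWithin (hD.nhds hx)
    exact (h2.eventually (gt_mem_nhds (by linarith))).and (hD.nhds hx)
  have h3 : Tendsto Φ (𝓝 (P x)) (𝓝[X] x) := by
    refine tendsto_nhdsWithin_iff.2 ⟨?_, ?_⟩
    · have h4 := hP.sm.continuous.tendsto (P x)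
      rwa [h0] at h4
    · filter_upwards [ball_mem_nhds (P x) hKs] with z hz
      exact hP.mem z hz
  obtain ⟨r, hr, hb⟩ := Metric.eventually_nhds_iff_ball.1
    ((h3.eventually h1).and (ball_mem_nhds (P x) hKs))
  have h5 : ∀ᶠ z in 𝓝 x, P z ∈ ball (P x) r :=
    P.continuous.continuousAt.eventually (ball_mem_nhds (P x) hr)
  filter_upwards [mem_nhdsWithin_of_mem_nhds h5, mem_nhdsWithin_of_mem_nhds (ball_mem_nhds x hs),
    self_mem_nhdsWithin] with y hy1 hy2 hy3
  have hy1' : P y ∈ ball (P x) r := hy1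
  have h2 : ∀ t ∈ Icc (0 : ℝ) 1, P x + t • (P y - P x) ∈ ball (P x) r := fun t ht =>
    (convex_ball (P x) r).add_smul_sub_mem (mem_ball_self hr) hy1' ht
  have h6 := dd_seg2 hD hK.le hP (mem_ball_self hKs) (hb _ hy1').2
    fun t ht => (hb _ (h2 t ht)).1.2
  rw [h0, hP.right y hy3 hy2] at h6
  have h4 : 0 ≤ w x + ε / K ^ 2 := by linarith [hD.pos x hx]
  have h7 : seg (fun z => WW Ω w (Φ z)) (P x) (P y) ≤
      ENNReal.ofReal ((w x + ε / K ^ 2) * dist (P y) (P x)) := by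
    refine (setLIntegral_mono'
      (g := fun _ => ENNReal.ofReal ((w x + ε / K ^ 2) * dist (P y) (P x)))
      measurableSet_Icc fun t ht => ?_).trans (by simp)
    have h8 := (hb _ (h2 t ht)).1
    simp only [WW]
    rw [indicator_of_mem h8.2, ENNReal.ofReal_mul h4, dist_eq_norm, ofReal_norm]
    exact mul_le_mul_left (ENNReal.ofReal_le_ofReal h8.1.le) _
  refine h6.trans ((mul_le_mul_right h7 _).trans ?_)
  rw [← ENNReal.ofReal_mul hK.le]
  refine ENNReal.ofReal_le_ofReal ?_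
  calc K * ((w x + ε / K ^ 2) * dist (P y) (P x)) ≤ K * ((w x + ε / K ^ 2) * (K * dist y x)) :=
        mul_le_mul_of_nonneg_left (mul_le_mul_of_nonneg_left (hP.mapP y x) h4) hK.le
    _ = _ := by field_simp

theorem dd_open2 (hX : Emb n X K s) (hD : Dom2 X Ω w) {c : ℝ≥0∞} (h : dd Ω w x y < c) :
    ∀ᶠ z in 𝓝[X] y, dd Ω w x z < c := by
  have h1 : Continuous fun z : E N =>
      dd Ω w x y + ENNReal.ofReal ((K ^ 2 * w y + 1) * dist z y) :=
    continuous_const.add (ENNReal.continuous_ofReal.comp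
      (continuous_const.mul (continuous_id.dist continuous_const)))
  have h2 : dd Ω w x y + ENNReal.ofReal ((K ^ 2 * w y + 1) * dist y y) < c := by simpa using h
  filter_upwards [mem_nhdsWithin_of_mem_nhds (h1.continuousAt.eventually (gt_mem_nhds h2)),
    dd_loc2 hX hD (dd_mem (ne_top_of_lt h)).2 one_pos] with z h3 h4
  exact ((dd_tri x y z).trans (add_le_add_right h4 _)).trans_lt h3

theorem dd_meas2 (hX : Emb n X K s) (hD : Dom2 X Ω w) (x : E N) : Measurable (dd Ω w x) := by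
  refine measurable_of_Iio fun c => ?_
  have h1 : ∀ y ∈ dd Ω w x ⁻¹' Iio c, ∃ u, IsOpen u ∧ y ∈ u ∧ u ∩ X ⊆ dd Ω w x ⁻¹' Iio c :=
    fun y hy => mem_nhdsWithin.1 (dd_open2 hX hD hy)
  choose! u hu1 hu2 hu3 using h1
  have h2 : dd Ω w x ⁻¹' Iio c = (⋃ y ∈ dd Ω w x ⁻¹' Iio c, u y) ∩ X := by
    refine Subset.antisymm (fun y hy => ⟨mem_iUnion₂.2 ⟨y, hy, hu2 y hy⟩, ?_⟩) ?_
    · exact hD.sub (dd_mem (ne_top_of_lt (show dd Ω w x y < c from hy))).2
    · rintro z ⟨hz1, hz2⟩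
      obtain ⟨y, hy, hz⟩ := mem_iUnion₂.1 hz1
      exact hu3 y hy ⟨hz, hz2⟩
  rw [h2]
  exact (isOpen_biUnion hu1).measurableSet.inter hX.cpt.measurableSet

theorem dd_fin2 (hX : Emb n X K s) (hD : Dom2 X Ω w) (hc : IsPreconnected Ω) (hx : x ∈ Ω)
    (hy : y ∈ Ω) : dd Ω w x y ≠ ∞ := by
  refine ne_top_of_lt (b := ∞) (hc.induction₂ (fun a b => dd Ω w a b < ∞) (fun z hz => ?_)
    (fun a b c _ _ _ h1 h2 => ?_) (fun a b _ _ h1 => ?_) hx hy)
  · refine nhdsWithin_mono z hD.sub (dd_open2 hX hD ?_)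
    rw [dd_self hz]
    exact ENNReal.zero_lt_top
  · exact (dd_tri a b c).trans_lt (ENNReal.add_lt_top.2 ⟨h1, h2⟩)
  · rw [dd_symm]
    exact h1

end

end Vale.Agent.P210
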