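import Vale.Agent.P210.M.Cost
import Vale.Agent.P210.M.Met

/-! P210 M/ChainA: the telescoping bound (helper names end with _ChainA). Model: `step_Chain`, `one_Chain` in P210/Chain.lean. `step2`: from `PI`, `(∫ S F) ν S' ≤ b ν S' ν S + Q r ^ (n + 1) m`, and `Q r ^ (n + 1) m ≤ e ν S ν S'` by `Lo`; cancel `ν S'` (nonzero by `Lo`, finite by `Up`).
`one2`: `s i = sc M i`, `step2` with `p = x`, `r = a = s i`, `a' = s (i + 1) = s i / M`; `Q s i ≤ s (i - 1)`, so by `lam2_ge` `m = s (i - 1) ^ n / s (i - 1) * lam2 (s (i - 1))`, `e = Q ^ 3 M ^ (2 n) lam2 (s (i - 1)) x` works. For large `j` the average over `ball x (s j)` is at most `1` (`hF`, `ν` lives on `X`);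
descend from `j` to `k`: the sum of `lam2 (s (i - 1))` over `k ≤ i < j` is `H x (j - 1) - H x (k - 1) ≤ B + 2 ^ n A` (`lam2_le`, `Tail`). -/

namespace Vale.Agent.P210

open Set Filter Topology Metric MeasureTheory
open scoped ENNReal

noncomputable section

variable {N n : ℕ} {ν : Measure (E N)} {X : Set (E N)} {W F : E N → ℝ≥0∞} {Q s : ℝ}

theorem step2 (hQ : 1 ≤ Q) (hU : Up ν n Q) (hLo : Lo ν n X Q s) (h : PI ν n X W F Q s)
    {p q q' : E N} (hp : p ∈ X) (hq : q ∈ X) (hq' : q' ∈ X) {a a' r m b e : ℝ} (ha : 0 < a)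
    (ha' : 0 < a') (hr : 0 < r) (hs : r ≤ s) (h1 : a ≤ s) (h2 : a' ≤ s) (hm : 0 ≤ m) (hb : 0 ≤ b)
    (hS : ball q a ⊆ ball p r) (hS' : ball q' a' ⊆ ball p r)
    (hW : ∫⁻ y in ball p (Q * r), W y ∂ν ≤ ENNReal.ofReal m)
    (hF : ∫⁻ y in ball q' a', F y ∂ν ≤ ENNReal.ofReal b * ν (ball q' a'))
    (he : Q ^ 3 * r * r ^ n * m ≤ e * (a ^ n * a' ^ n)) :
    ∫⁻ y in ball q a, F y ∂ν ≤ ENNReal.ofReal (b + e) * ν (ball q a) := by
  have hQ0 : 0 < Q := by linarith
  have he0 : 0 ≤ e := by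
    have h3 : 0 ≤ e * (a ^ n * a' ^ n) := le_trans (by positivity) he
    exact nonneg_of_mul_nonneg_left h3 (by positivity)
  have l1 := hLo q hq a ha h1
  have l2 := hLo q' hq' a' ha' h2
  have n0 : ν (ball q' a') ≠ 0 :=
    (lt_of_lt_of_le (ENNReal.ofReal_pos.2 (by positivity)) l2).ne'
  have n1 : ν (ball q' a') ≠ ∞ := ne_top_of_le_ne_top ENNReal.ofReal_ne_top (hU q' a' ha')
  refine (ENNReal.mul_le_mul_iff_left n0 n1).1 ((h p hp r hr hs _ _ hS hS').trans ?_)
  have k1 : ENNReal.ofReal (Q * r * r ^ n) * ∫⁻ y in ball p (Q * r), W y ∂ν ≤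
      ENNReal.ofReal e * ν (ball q a) * ν (ball q' a') := by
    refine (mul_le_mul_right hW _).trans (le_trans ?_ (mul_le_mul' (mul_le_mul_right l1 _) l2))
    rw [← ENNReal.ofReal_mul (by positivity), ← ENNReal.ofReal_mul he0,
      ← ENNReal.ofReal_mul (by positivity)]
    refine ENNReal.ofReal_le_ofReal ?_
    have e1 : e * (a ^ n / Q) * (a' ^ n / Q) = e * (a ^ n * a' ^ n) / Q ^ 2 := by
      field_simp
    rw [e1, le_div_iff₀ (by positivity)]
    calc Q * r * r ^ n * m * Q ^ 2 = Q ^ 3 * r * r ^ n * m := by ring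
      _ ≤ _ := he
  refine (add_le_add (mul_le_mul_left hF _) k1).trans (le_of_eq ?_)
  rw [ENNReal.ofReal_add hb he0]
  ring

theorem one2 (hQ : 1 ≤ Q) (hU : Up ν n Q) (hLo : Lo ν n X Q s) (h : PI ν n X W F Q s)
    (hν : ∀ᵐ y ∂ν, y ∈ X) (hW : Measurable W) (hW' : ∀ y, W y ≠ ∞) {M A : ℝ} (hM : 2 ≤ M)
    (hQM : Q ≤ M) (hA : 0 ≤ A) (hL : L1b2 ν n W A) {H : E N → ℤ → ℝ}
    (hH : ∀ x k, H x (k + 1) = H x k + lam2 ν n W (sc M k) x) {x : E N} (hx : x ∈ X)
    (hF : ∀ᶠ y in 𝓝[X] x, F y ≤ 1) {k : ℤ} (hk : sc M k ≤ s) {B : ℝ} (hT : Tail H x k B) :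
    ∫⁻ y in ball x (sc M k), F y ∂ν ≤
      ENNReal.ofReal (1 + Q ^ 3 * M ^ (2 * n) * (B + 2 ^ n * A)) * ν (ball x (sc M k)) := by
  have hM0 : 0 < M := by linarith
  have hQ0 : 0 < Q := by linarith
  obtain ⟨c, hc⟩ : ∃ c, c = Q ^ 3 * M ^ (2 * n) := ⟨_, rfl⟩
  have hc0 : 0 ≤ c := by rw [hc]; positivity
  rw [← hc]
  have hH' : ∀ i : ℤ, H x i = H x (i - 1) + lam2 ν n W (sc M (i - 1)) x := fun i => by
    rw [← hH, sub_add_cancel]
  have key : ∀ (d : ℕ) (b : ℝ), 0 ≤ b →
      ∫⁻ y in ball x (sc M (k + d)), F y ∂ν ≤ ENNReal.ofReal b * ν (ball x (sc M (k + d))) →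
      ∫⁻ y in ball x (sc M k), F y ∂ν ≤
        ENNReal.ofReal (b + c * (H x (k + d - 1) - H x (k - 1))) * ν (ball x (sc M k)) := by
    intro d
    induction d with
    | zero => intro b _ h; simpa using h
    | succ d ih =>
      intro b hb h0
      have hs := sc_pos hM0 (k + d)
      have hs' := sc_pos hM0 (k + d - 1)
      have hl := lam2_nonneg (ν := ν) (n := n) (W := W) hs' x
      have e1 : k + ((d + 1 : ℕ) : ℤ) = k + d + 1 := by push_cast; ring
      have e2 : sc M (k + d - 1) = sc M (k + d) * M := by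
        have := sc_succ hM0 (k + d - 1)
        rw [sub_add_cancel] at this
        rw [this]; field_simp
      have hle : sc M (k + d) ≤ s := (sc_anti (by linarith) (by omega)).trans hk
      have hle' : sc M (k + d + 1) ≤ sc M (k + d) := sc_anti (by linarith) (by omega)
      rw [e1] at h0 ⊢
      have h1 := step2 (e := c * lam2 ν n W (sc M (k + d - 1)) x)
        (m := sc M (k + d - 1) ^ n / sc M (k + d - 1) * lam2 ν n W (sc M (k + d - 1)) x)
        hQ hU hLo h hx hx hx hs (sc_pos hM0 (k + d + 1)) hs hle hle (hle'.trans hle)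
        (by positivity) hb subset_rfl (ball_subset_ball hle')
        ((lintegral_mono_set (ball_subset_ball (by rw [e2]; nlinarith))).trans
          (lam2_ge hW hW' hL hs' x)) h0 (by
          generalize lam2 ν n W (sc M (k + d - 1)) x = l at hl
          rw [sc_succ hM0, e2, hc]
          generalize sc M (k + d) = t at hs
          have e3 : Q ^ 3 * t * t ^ n * ((t * M) ^ n / (t * M) * l) =
              Q ^ 3 * t ^ n * t ^ n * M ^ n * l / M := by
            rw [mul_pow]; field_simp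
          have e4 : Q ^ 3 * M ^ (2 * n) * l * (t ^ n * (t / M) ^ n) =
              Q ^ 3 * t ^ n * t ^ n * M ^ n * l := by
            rw [div_pow, two_mul, pow_add]; field_simp
          rw [e3, e4]
          exact div_le_self (by positivity) (by linarith))
      have h2 := ih _ (by positivity) h1
      rw [add_sub_cancel_right, hH' (k + d),
        show b + c * (H x (k + d - 1) + lam2 ν n W (sc M (k + d - 1)) x - H x (k - 1)) =
        b + c * lam2 ν n W (sc M (k + d - 1)) x + c * (H x (k + d - 1) - H x (k - 1)) by ring]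
      exact h2
  obtain ⟨δ, hδ, hδ'⟩ := Metric.mem_nhdsWithin_iff.1 hF
  obtain ⟨d, hd⟩ := pow_unbounded_of_one_lt (sc M k / δ) (by linarith : 1 < M)
  have h2 : sc M (k + d) ≤ δ := by
    have h3 : sc M (k + d) = sc M k / M ^ d := by
      rw [sc, sc, neg_add, zpow_add₀ hM0.ne', zpow_neg M d, zpow_natCast, div_eq_mul_inv]
    rw [h3, div_le_iff₀ (by positivity)]
    rw [div_lt_iff₀ hδ] at hd
    linarith
  have h3 : ∫⁻ y in ball x (sc M (k + d)), F y ∂ν ≤
      ENNReal.ofReal 1 * ν (ball x (sc M (k + d))) := by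
    rw [← setLIntegral_const]
    refine lintegral_mono_ae ?_
    filter_upwards [ae_restrict_mem measurableSet_ball, ae_restrict_of_ae hν] with y hy hyX
    rw [ENNReal.ofReal_one]
    exact hδ' ⟨ball_subset_ball h2 hy, hyX⟩
  refine (key d 1 zero_le_one h3).trans (mul_le_mul_left (ENNReal.ofReal_le_ofReal ?_) _)
  have h4 := hT (k + d) (by omega)
  have h5 := hH' (k + d)
  have h6 := hH' k
  have h7 := lam2_nonneg (ν := ν) (n := n) (W := W) (sc_pos hM0 (k + d - 1)) x
  have h8 := lam2_le hA hL (sc_pos hM0 (k - 1)) x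
  have h9 : c * (H x (k + d - 1) - H x (k - 1)) ≤ c * (B + 2 ^ n * A) :=
    mul_le_mul_of_nonneg_left (by linarith) hc0
  linarith

end

end Vale.Agent.P210
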