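import Vale.Agent.P210.M.ChainA

/-! P210 M/ChainB: moving averages along chains (helper names end with _ChainB). `link2`: `step2` with `p = q'`, radius `11 r`, `m = A (11 Q r) ^ n / (11 Q r)`, `e = Q ^ 3 (11 ^ 2 Q) ^ n A`.
`exists_path`: the sets `U p j = {z ∈ X | z is reached from p in j steps of length at most r}` increase; being reachable is an equivalence relation whose classes are relatively open, so there is one class (`IsPreconnected.induction₂'`); for a uniform `J` cover `X` by finitely many balls of radius `r` with centres in a finite set `t ⊆ X` (`finite_cover_balls_of_compact`),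
take the maximum over `t × t` plus two and pad with constant steps. `walk2`: induction with `link2`. -/

namespace Vale.Agent.P210

open Set Filter Topology Metric MeasureTheory
open scoped ENNReal

noncomputable section

variable {N n : ℕ} {ν : Measure (E N)} {X : Set (E N)} {W F : E N → ℝ≥0∞} {Q s : ℝ}

theorem link2 (hQ : 1 ≤ Q) (hU : Up ν n Q) (hLo : Lo ν n X Q s) (h : PI ν n X W F Q s) {A : ℝ}
    (hA : 0 ≤ A) (hL : L1b2 ν n W A) {q q' : E N} (hq : q ∈ X) (hq' : q' ∈ X) {r b : ℝ}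
    (hr : 0 < r) (hs : 11 * r ≤ s) (hd : dist q q' ≤ 10 * r) (hb : 0 ≤ b)
    (hF : ∫⁻ y in ball q' r, F y ∂ν ≤ ENNReal.ofReal b * ν (ball q' r)) :
    ∫⁻ y in ball q r, F y ∂ν ≤ ENNReal.ofReal (b + Q ^ 3 * (121 * Q) ^ n * A) * ν (ball q r) := by
  have hQ0 : 0 < Q := lt_of_lt_of_le one_pos hQ
  refine step2 hQ hU hLo h hq' hq hq' hr hr (r := 11 * r) (by positivity) hs (by linarith)
    (by linarith) (m := A * (Q * (11 * r)) ^ n / (Q * (11 * r))) (by positivity) hb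
    (ball_subset_ball' (by linarith)) (ball_subset_ball (by linarith))
    (hL q' _ (by positivity)) hF ?_
  have e1 : (11 * r) ^ n * (Q * (11 * r)) ^ n = (121 * Q) ^ n * (r ^ n * r ^ n) := by
    simp only [← mul_pow]
    exact congrArg (· ^ n) (by ring)
  have e2 : Q ^ 3 * (11 * r) * (11 * r) ^ n * (A * (Q * (11 * r)) ^ n / (Q * (11 * r))) =
      Q ^ 2 * (A * ((11 * r) ^ n * (Q * (11 * r)) ^ n)) := by
    field_simp
  rw [e2, e1]
  refine (mul_le_mul_of_nonneg_right (pow_le_pow_right₀ hQ (by norm_num : 2 ≤ 3))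
    (by positivity)).trans (le_of_eq (by ring))

/-- `z` is reached from `p` in `J` steps of length at most `r`. -/
def Rch_ChainB (X : Set (E N)) (r : ℝ) (J : ℕ) (p z : E N) : Prop :=
  ∃ q : ℕ → E N, q 0 = p ∧ q J = z ∧ (∀ i, q i ∈ X) ∧ ∀ i, dist (q (i + 1)) (q i) ≤ r

theorem snoc_ChainB {r : ℝ} {J : ℕ} {p z z' : E N} (h : Rch_ChainB X r J p z) (hz : z' ∈ X)
    (hd : dist z' z ≤ r) : Rch_ChainB X r (J + 1) p z' := by
  obtain ⟨q, h0, rfl, h2, h3⟩ := h
  refine ⟨fun i => if i ≤ J then q i else z', (if_pos J.zero_le).trans h0,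
    if_neg J.not_succ_le_self, fun i => ?_, fun i => ?_⟩
  · beta_reduce
    split_ifs
    · exact h2 i
    · exact hz
  · beta_reduce
    split_ifs with a b b
    · exact h3 i
    · omega
    · rwa [show i = J by omega]
    · rw [dist_self]
      exact dist_nonneg.trans hd

theorem cons_ChainB {r : ℝ} {J : ℕ} {p p' z : E N} (h : Rch_ChainB X r J p z) (hp : p' ∈ X)
    (hd : dist p p' ≤ r) : Rch_ChainB X r (J + 1) p' z := by
  obtain ⟨q, rfl, h1, h2, h3⟩ := h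
  refine ⟨fun i => Nat.casesOn i p' q, rfl, h1, fun i => ?_, fun i => ?_⟩
  · rcases i with _ | i
    · exact hp
    · exact h2 i
  · rcases i with _ | i
    · exact hd
    · exact h3 i

theorem mono_ChainB {r : ℝ} (hr : 0 < r) {J J' : ℕ} {p z : E N} (h : Rch_ChainB X r J p z)
    (hJ : J ≤ J') : Rch_ChainB X r J' p z := by
  induction hJ with
  | refl => exact h
  | step _ ih =>
    obtain ⟨q, -, h1, h2, -⟩ := h
    exact snoc_ChainB ih (h1 ▸ h2 J) (by simpa using hr.le)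

theorem exists_path (h1 : IsCompact X) (h2 : IsPreconnected X) {r : ℝ} (hr : 0 < r) :
    ∃ J : ℕ, ∀ p ∈ X, ∀ p' ∈ X, ∃ q : ℕ → E N, q 0 = p ∧ q J = p' ∧ (∀ i, q i ∈ X) ∧
      ∀ i, dist (q (i + 1)) (q i) ≤ r := by
  have h3 : ∀ p ∈ X, ∀ z ∈ X, ∃ J, Rch_ChainB X r J p z := fun p hp z hz => by
    refine h2.induction₂' (fun x y => (∃ J, Rch_ChainB X r J p x) → ∃ J, Rch_ChainB X r J p y)
      (fun x hx => ?_) (fun _ _ _ _ _ _ a b c => b (a c)) hp hz
      ⟨0, fun _ => p, rfl, rfl, fun _ => hp, fun _ => by simpa using hr.le⟩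
    filter_upwards [self_mem_nhdsWithin, mem_nhdsWithin_of_mem_nhds (closedBall_mem_nhds x hr)]
      with y hy hd
    exact ⟨fun ⟨J, hJ⟩ => ⟨_, snoc_ChainB hJ hy hd⟩,
      fun ⟨J, hJ⟩ => ⟨_, snoc_ChainB hJ hx (mem_closedBall'.1 hd)⟩⟩
  have h4 : ∃ J, ∀ x ∈ X ×ˢ X, Rch_ChainB X r J x.1 x.2 := by
    refine (h1.prod h1).induction_on (p := fun T => ∃ J, ∀ x ∈ T, Rch_ChainB X r J x.1 x.2)
      ⟨0, fun _ hx => hx.elim⟩ (fun _ _ hst ⟨J, hJ⟩ => ⟨J, fun x hx => hJ x (hst hx)⟩)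
      (fun _ _ ⟨J, hJ⟩ ⟨J', hJ'⟩ => ⟨max J J', fun x hx => hx.elim
        (fun hx => mono_ChainB hr (hJ x hx) (le_max_left _ _))
        fun hx => mono_ChainB hr (hJ' x hx) (le_max_right _ _)⟩) fun x hx => ?_
    obtain ⟨J, hJ⟩ := h3 x.1 hx.1 x.2 hx.2
    refine ⟨X ×ˢ X ∩ closedBall x r, inter_mem_nhdsWithin _ (closedBall_mem_nhds x hr),
      J + 1 + 1, fun y hy => ?_⟩
    have h5 := max_le_iff.1 ((Prod.dist_eq (x := y) (y := x)).symm.trans_le hy.2)
    exact cons_ChainB (snoc_ChainB hJ hy.1.2 h5.2) hy.1.1 (dist_comm y.1 x.1 ▸ h5.1)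
  obtain ⟨J, hJ⟩ := h4
  exact ⟨J, fun p hp p' hp' => hJ (p, p') ⟨hp, hp'⟩⟩

theorem walk2 (hQ : 1 ≤ Q) (hU : Up ν n Q) (hLo : Lo ν n X Q s) (h : PI ν n X W F Q s) {A : ℝ}
    (hA : 0 ≤ A) (hL : L1b2 ν n W A) {q : ℕ → E N} (hq : ∀ i, q i ∈ X) {r b : ℝ} (hr : 0 < r)
    (hs : 11 * r ≤ s) (hd : ∀ i, dist (q (i + 1)) (q i) ≤ r) (hb : 0 ≤ b)
    (hF : ∫⁻ y in ball (q 0) r, F y ∂ν ≤ ENNReal.ofReal b * ν (ball (q 0) r)) (J : ℕ) :
    ∫⁻ y in ball (q J) r, F y ∂ν ≤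
      ENNReal.ofReal (b + J * (Q ^ 3 * (121 * Q) ^ n * A)) * ν (ball (q J) r) := by
  have hQ0 : 0 < Q := lt_of_lt_of_le one_pos hQ
  induction J with
  | zero => simpa using hF
  | succ J ih =>
    have h1 := link2 hQ hU hLo h hA hL (hq (J + 1)) (hq J) hr hs ((hd J).trans (by linarith))
      (by positivity) ih
    rwa [add_assoc, ← add_one_mul, ← Nat.cast_succ] at h1

end

end Vale.Agent.P210
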