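import Vale.Agent.P210.M.ChainB

/-! P210 M/ChainC: the distance is bounded by the accumulated cost (helper names end with _ChainC). Model: `chain` in P210/Chain.lean. Fix `k₀` with `11 * sc M k₀ ≤ s` and `J` from `exists_path` for `r = sc M k₀`. `dd_loc2` gives the hypothesis `hF` of `one2`; `WW_meas2`, `WW_ne`, `dd_meas2`; `0 ≤ B` by `Tail` at `j = k`.
If `k₀ ≤ k`: `one2` at `x` and `x'`, `link2` (`sc_anti`). If `k < k₀`: `Tail H x k₀ B` holds because `H x ·` is monotone (`lam2_nonneg`); `one2` at level `k₀`, `walk2`. Finally integrate `dd x x' ≤ dd x y + dd x' y` over `y ∈ ball x' r` (`dd_tri`, `dd_symm`) and cancel `ν (ball x' r)`. -/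

namespace Vale.Agent.P210

open Set Filter Topology Metric MeasureTheory
open scoped ENNReal

noncomputable section

theorem fin_ChainC {N n : ℕ} {ν : Measure (E N)} {X Ω : Set (E N)} {K Q s : ℝ} {w : E N → ℝ}
    (hX : Emb n X K s) (hD : Dom2 X Ω w) (hQ : 1 ≤ Q) (hU : Up ν n Q) (hLo : Lo ν n X Q s)
    {x x' : E N} (hx' : x' ∈ X) {r a b : ℝ} (hr : 0 < r) (hs : r ≤ s) (ha : 0 ≤ a) (hb : 0 ≤ b)
    (h1 : ∫⁻ y in ball x' r, dd Ω w x y ∂ν ≤ ENNReal.ofReal a * ν (ball x' r))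
    (h2 : ∫⁻ y in ball x' r, dd Ω w x' y ∂ν ≤ ENNReal.ofReal b * ν (ball x' r)) :
    dd Ω w x x' ≤ ENNReal.ofReal (a + b) := by
  have h0 : ν (ball x' r) ≠ 0 :=
    ((ENNReal.ofReal_pos.mpr (by positivity)).trans_le (hLo x' hx' r hr hs)).ne'
  have ht : ν (ball x' r) ≠ ∞ := ne_top_of_le_ne_top ENNReal.ofReal_ne_top (hU x' r hr)
  have h4 : ∫⁻ _ in ball x' r, dd Ω w x x' ∂ν ≤
      ∫⁻ y in ball x' r, (dd Ω w x y + dd Ω w x' y) ∂ν :=
    lintegral_mono fun y => by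
      rw [dd_symm x' y]
      exact dd_tri x y x'
  rw [lintegral_add_left (dd_meas2 hX hD x), setLIntegral_const] at h4
  have h5 := h4.trans (add_le_add h1 h2)
  rw [← add_mul, ← ENNReal.ofReal_add ha hb] at h5
  exact (ENNReal.mul_le_mul_iff_left h0 ht).mp h5

theorem loc_ChainC {N n : ℕ} {X Ω : Set (E N)} {K s : ℝ} {w : E N → ℝ} (hX : Emb n X K s)
    (hD : Dom2 X Ω w) {x : E N} (hx : x ∈ Ω) : ∀ᶠ y in 𝓝[X] x, dd Ω w x y ≤ 1 := by
  have h1 : Tendsto (fun y => (K ^ 2 * w x + 1) * dist y x) (𝓝 x)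
      (𝓝 ((K ^ 2 * w x + 1) * dist x x)) :=
    (continuous_const.mul (continuous_id.dist continuous_const)).continuousAt
  rw [dist_self, mul_zero] at h1
  filter_upwards [dd_loc2 hX hD hx one_pos,
    nhdsWithin_le_nhds (h1.eventually (gt_mem_nhds one_pos))] with y hy hy'
  exact hy.trans (ENNReal.ofReal_le_one.mpr hy'.le)

theorem scale_ChainC {M s : ℝ} (hM : 2 ≤ M) (hs : 0 < s) : ∃ k : ℤ, 11 * sc M k ≤ s := by
  obtain ⟨m, hm⟩ := pow_unbounded_of_one_lt (11 / s) (by linarith : 1 < M)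
  refine ⟨m, ?_⟩
  have h0 : 0 < M ^ m := by positivity
  rw [sc, zpow_neg, zpow_natCast, ← div_eq_mul_inv, div_le_iff₀ h0]
  rw [div_lt_iff₀ hs] at hm
  linarith

theorem chain2 {N n : ℕ} {ν : Measure (E N)} {X : Set (E N)} {K Q s M A : ℝ} (hX : Emb n X K s)
    (hQ : 1 ≤ Q) (hU : Up ν n Q) (hLo : Lo ν n X Q s) (hν : ∀ᵐ y ∂ν, y ∈ X) (hM : 2 ≤ M)
    (hQM : Q ≤ M) (hA : 0 ≤ A) : ∃ C : ℝ, 0 ≤ C ∧
    ∀ (Ω : Set (E N)) (w : E N → ℝ), Dom2 X Ω w → (∀ o, PI ν n X (WW Ω w) (dd Ω w o) Q s) →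
    L1b2 ν n (WW Ω w) A → ∀ H : E N → ℤ → ℝ,
    (∀ x k, H x (k + 1) = H x k + lam2 ν n (WW Ω w) (sc M k) x) →
    ∀ x ∈ Ω, ∀ x' ∈ Ω, ∀ (k : ℤ) (B : ℝ), dist x x' ≤ 10 * sc M k → Tail H x k B →
      Tail H x' k B → dd Ω w x x' ≤ ENNReal.ofReal (C * (1 + B)) := by
  have hM0 : 0 < M := by linarith
  obtain ⟨k₀, hk₀⟩ := scale_ChainC hM hX.s0
  obtain ⟨J, hJ⟩ := exists_path hX.cpt hX.conn (sc_pos hM0 k₀)
  obtain ⟨c, hc⟩ : ∃ c, c = Q ^ 3 * M ^ (2 * n) := ⟨_, rfl⟩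
  obtain ⟨e, he⟩ : ∃ e, e = Q ^ 3 * (121 * Q) ^ n * A := ⟨_, rfl⟩
  obtain ⟨a, ha⟩ : ∃ a, a = 2 ^ n * A := ⟨_, rfl⟩
  have hc0 : 0 ≤ c := by rw [hc]; positivity
  have he0 : 0 ≤ e := by rw [he]; positivity
  have ha0 : 0 ≤ a := by rw [ha]; positivity
  refine ⟨2 * (1 + c + c * a) + (J + 1) * e, by positivity,
    fun Ω w hD hP hL H hH x hx x' hx' k B hd hT hT' => ?_⟩
  have hB : 0 ≤ B := by linarith [hT k le_rfl]
  have hone : ∀ z ∈ Ω, ∀ j : ℤ, k₀ ≤ j → Tail H z j B →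
      ∫⁻ y in ball z (sc M j), dd Ω w z y ∂ν ≤
        ENNReal.ofReal (1 + c * (B + a)) * ν (ball z (sc M j)) := by
    intro z hz j hj hz'
    rw [hc, ha]
    refine one2 hQ hU hLo (hP z) hν (WW_meas2 hX.cpt hD) WW_ne hM hQM hA hL hH (hD.sub hz)
      (loc_ChainC hX hD hz) ?_ hz'
    linarith [sc_anti (by linarith : 1 ≤ M) hj, sc_pos hM0 k₀]
  have hb : 0 ≤ 1 + c * (B + a) := by positivity
  have hJ0 : (0 : ℝ) ≤ J := Nat.cast_nonneg J
  have hfin : ∀ t : ℝ, t ≤ J + 1 → 1 + c * (B + a) + t * e + (1 + c * (B + a)) ≤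
      (2 * (1 + c + c * a) + (J + 1) * e) * (1 + B) := by
    intro t ht
    have h1 := mul_le_mul_of_nonneg_right ht he0
    have h2 : 0 ≤ (2 * (1 + c * a) + (J + 1) * e) * B := by positivity
    nlinarith
  rcases le_or_gt k₀ k with hk | hk
  · have hs := sc_pos hM0 k
    have hs' : 11 * sc M k ≤ s := by linarith [sc_anti (by linarith : 1 ≤ M) hk]
    have h1 := link2 hQ hU hLo (hP x) hA hL (hD.sub hx') (hD.sub hx) hs hs'
      (by rw [dist_comm]; exact hd) hb (hone x hx k hk hT)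
    rw [← he] at h1
    refine (fin_ChainC hX hD hQ hU hLo (hD.sub hx') hs (by linarith) (by positivity) hb h1
      (hone x' hx' k hk hT')).trans (ENNReal.ofReal_le_ofReal ?_)
    have h2 := hfin 1 (by linarith)
    rwa [one_mul] at h2
  · have hs := sc_pos hM0 k₀
    have hmono : ∀ z, Monotone (H z) := fun z => monotone_int_of_le_succ fun j => by
      rw [hH]
      linarith [lam2_nonneg (ν := ν) (n := n) (W := WW Ω w) (sc_pos hM0 j) z]
    have htail : ∀ z, Tail H z k B → Tail H z k₀ B := fun z hz j hj => by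
      linarith [hz j (hk.le.trans hj), hmono z hk.le]
    obtain ⟨q, hq0, hqJ, hqX, hqd⟩ := hJ x (hD.sub hx) x' (hD.sub hx')
    have h1 := walk2 hQ hU hLo (hP x) hA hL hqX hs hk₀ hqd hb
      (by rw [hq0]; exact hone x hx k₀ le_rfl (htail x hT)) J
    rw [← he, hqJ] at h1
    exact (fin_ChainC hX hD hQ hU hLo (hD.sub hx') hs (by linarith) (by positivity) hb h1
      (hone x' hx' k₀ le_rfl (htail x' hT'))).trans
      (ENNReal.ofReal_le_ofReal (hfin J (by linarith)))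

end

end Vale.Agent.P210
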