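import Vale.Agent.P210.M.Spd
import Vale.Agent.P210.M.Arc

/-! P210 M/CmpB: from curves in the image to curves in the manifold (helper names end with _CmpB). Induction on `Joined`: `Joined (ι '' Ω) (sp w) p q a → ∀ x y, ι x = p → ι y = q → ∃ b ≤ L * K * a, Path Ω (cmul f g) x y b` (`Joined.mem` gives the middle point). For an arc `β` put `θ = Real.smoothTransition` (values in `[0, 1]`, monotone, `θ 0 = 0`, `θ 1 = 1`)
and choose `γ t ∈ Ω` with `ι (γ t) = β (θ t)`. Near `t₀`, with the patch at `γ t₀`: `ι (γ t) = Φ (P (β (θ t))) = ι (e.symm (P (β (θ t))))`, so `γ t = e.symm (P (β (θ t)))` is `ContMDiffAt` (`contMDiffOn_chart_symm`). By `deriv_iota` and `Good.speed`, `spd (cmul f g) γ t ≤ L K * (G (θ t) * deriv θ t)`, `G u = sp w (β u) (deriv β u)` continuous on `Icc 0 1`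
(`w` is continuous on `ι '' Ω`); `intervalIntegral.integral_comp_mul_deriv''`; `Monotone.deriv_nonneg`. -/

namespace Vale.Agent.P210

open Set Filter Topology Metric MeasureTheory
open scoped ENNReal Manifold ContDiff

noncomputable section

variable {n N : ℕ} {M : Type} [TopologicalSpace M] [ChartedSpace (E n) M]
  [IsManifold (𝓡 n) ∞ M]

theorem mem_CmpB {Ω : Set (E N)} {σ : E N → E N → ℝ} {x y : E N} {a : ℝ} (h : Joined Ω σ x y a) :
    y ∈ Ω := by
  induction h with
  | arc γ _ h => exact h (right_mem_Icc.2 zero_le_one)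
  | trans _ _ _ h => exact h

theorem lift_CmpB {g : Form n M} {ι : M → E N} {K s L : ℝ} (h : Good g ι K s L) {b : ℝ → E N}
    (hb : ContDiff ℝ 1 b) {γ : ℝ → M} (hγ : ∀ t, ι (γ t) = b t) :
    ContMDiff 𝓘(ℝ, ℝ) (𝓡 n) 1 γ := by
  intro t₀
  obtain ⟨c, P, Φ, hp, hq⟩ := h.patch (γ t₀)
  have hK : 0 < K * s := mul_pos (zero_lt_one.trans_le h.K1) h.s0
  rw [hγ] at hp hq
  have h1 : ContDiff ℝ 1 fun t => P (b t) := P.contDiff.comp hb
  have h2 : ContMDiffAt (𝓡 n) (𝓡 n) 1 (chartAt (E n) c).symm (P (b t₀)) :=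
    ((contMDiffOn_chart_symm (n := ∞)).contMDiffAt ((chartAt (E n) c).open_target.mem_nhds
      (hq _ (mem_ball_self hK)).1)).of_le (by norm_cast)
  refine (h2.comp t₀ (h1.contMDiff t₀)).congr_of_eventuallyEq ?_
  filter_upwards [hb.continuous.continuousAt.eventually (ball_mem_nhds (b t₀) h.s0),
    h1.continuous.continuousAt.eventually (ball_mem_nhds (P (b t₀)) hK)] with t h3 h4
  refine h.emb.injective ?_
  rw [hγ, Function.comp_apply, ← (hq _ h4).2.1, hp.right _ ⟨γ t, hγ t⟩ h3]

theorem arc_CmpB {g : Form n M} (hg : IsRiem g) {ι : M → E N} {K s L : ℝ} (h : Good g ι K s L)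
    {Ω : Set M} {f : M → ℝ} (hf : ContinuousOn f Ω) {w : E N → ℝ}
    (hw : ∀ x, w (ι x) = Real.exp (f x)) (hc : ContinuousOn w (ι '' Ω)) {p q : E N} {a : ℝ}
    (hj : Joined (ι '' Ω) (sp w) p q a) : ∀ x y, ι x = p → ι y = q →
      ∃ b ≤ L * K * a, Path Ω (cmul f g) x y b := by
  induction hj with
  | trans h1 _ ih1 ih2 =>
    intro x z hx hz
    obtain ⟨y, -, hy⟩ := mem_CmpB h1
    obtain ⟨b, e1, p1⟩ := ih1 x y hx hy
    obtain ⟨b', e2, p2⟩ := ih2 y z hy hz
    exact ⟨b + b', by linarith, p1.trans p2⟩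
  | arc β hβ hm =>
    intro x y hx hy
    have hθ : ∀ t, Real.smoothTransition t ∈ Icc (0 : ℝ) 1 := fun t =>
      ⟨Real.smoothTransition.nonneg t, Real.smoothTransition.le_one t⟩
    have cθ : ContDiff ℝ 1 Real.smoothTransition := Real.smoothTransition.contDiff (n := 1)
    choose γ h1 h2 using fun t => hm (hθ t)
    have hγ := lift_CmpB h (hβ.comp cθ) h2
    have e0 : γ 0 = x := h.emb.injective (by rw [h2, hx, Real.smoothTransition.zero])
    have e1 : γ 1 = y := h.emb.injective (by rw [h2, hy, Real.smoothTransition.one])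
    refine ⟨∫ t in (0 : ℝ)..1, spd (cmul f g) γ t, ?_, e0 ▸ e1 ▸ Path.arc γ hγ fun t _ => h1 t⟩
    have hG : ContinuousOn (fun u => sp w (β u) (deriv β u)) (Icc 0 1) :=
      (hc.comp hβ.continuous.continuousOn hm).mul (hβ.continuous_deriv le_rfl).norm.continuousOn
    have e2 := intervalIntegral.integral_comp_mul_deriv' (a := 0) (b := 1)
      (fun t _ => (cθ.differentiable one_ne_zero t).hasDerivAt)
      (cθ.continuous_deriv le_rfl).continuousOn (hG.mono (image_subset_iff.2 fun t _ => hθ t))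
    rw [Real.smoothTransition.zero, Real.smoothTransition.one] at e2
    rw [← e2, ← intervalIntegral.integral_const_mul]
    refine intervalIntegral.integral_mono_on zero_le_one (Continuous.intervalIntegrable ?_ _ _)
      (Continuous.intervalIntegrable (continuous_const.mul ((hG.comp_continuous cθ.continuous
        hθ).mul (cθ.continuous_deriv le_rfl))) _ _) fun t _ => ?_
    · rw [funext (spd_cmul f g γ)]
      exact (Real.continuous_exp.comp (hf.comp_continuous hγ.continuous h1)).mul (spd_cont hg hγ)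
    · have e3 := (h.speed (γ t) _ _ ((deriv_iota h.sm hγ).2 t)).1
      have e4 : deriv (fun t => ι (γ t)) t =
          deriv Real.smoothTransition t • deriv β (Real.smoothTransition t) := by
        rw [funext h2]
        exact ((hβ.differentiable one_ne_zero _).hasDerivAt.scomp t
          (cθ.differentiable one_ne_zero t).hasDerivAt).deriv
      rw [e4, norm_smul, Real.norm_of_nonneg Real.smoothTransition.monotone.deriv_nonneg] at e3
      rw [spd_cmul, Function.comp_apply, sp, ← h2 t, hw]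
      exact (mul_le_mul_of_nonneg_left e3 (Real.exp_pos _).le).trans_eq (by ring)

theorem cmp_b {g : Form n M} (hg : IsRiem g) {ι : M → E N} {K s L : ℝ} (h : Good g ι K s L)
    {Ω : Set M} {f : M → ℝ} (hf : ContinuousOn f Ω) {w : E N → ℝ}
    (hw : ∀ x, w (ι x) = Real.exp (f x)) (hc : ContinuousOn w (ι '' Ω)) (x y : M) :
    mdist Ω (cmul f g) x y ≤ ENNReal.ofReal (L * K) * dd (ι '' Ω) w (ι x) (ι y) := by
  have h0 : 0 < L * K := mul_pos h.L0 (zero_lt_one.trans_le h.K1)
  have h1 := (ENNReal.ofReal_pos.2 h0).ne'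
  rw [dd, rdist, ENNReal.mul_iInf_of_ne h1 ENNReal.ofReal_ne_top]
  refine le_iInf fun a => ?_
  rw [ENNReal.mul_iInf_of_ne h1 ENNReal.ofReal_ne_top]
  refine le_iInf fun ha => ?_
  obtain ⟨b, e, hb⟩ := arc_CmpB hg h hf hw hc ha x y rfl rfl
  rw [← ENNReal.ofReal_mul h0.le]
  exact (iInf₂_le b hb).trans (ENNReal.ofReal_le_ofReal e)

end

end Vale.Agent.P210
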