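import Vale.Agent.P210.M.Spd
import Vale.Agent.P210.M.Arc

/-! P210 M/CmpF: from curves in the manifold to curves in the image (helper names end with _CmpF). Induction on `Path`: `Path Ω (cmul f g) x y a → ∃ b ≤ L * K * a, Joined (ι '' Ω) (sp w) (ι x) (ι y) b`. The arc is `ι ∘ γ` (`deriv_iota`, `Good.speed`, `spd_cmul`, `spd_cont`); both integrands are continuous on `Icc 0 1`
(`w (ι (γ t)) = exp (f (γ t))` there); `intervalIntegral.integral_mono_on`; `ENNReal.mul_iInf_of_ne`. Model: G/Cmp.lean. -/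

namespace Vale.Agent.P210

open Set Filter Topology Metric MeasureTheory
open scoped ENNReal Manifold ContDiff

noncomputable section

variable {n N : ℕ} {M : Type} [TopologicalSpace M] [ChartedSpace (E n) M]
  [IsManifold (𝓡 n) ∞ M]

theorem joined_CmpF {g : Form n M} (hg : IsRiem g) {ι : M → E N} {K s L : ℝ} (h : Good g ι K s L)
    {Ω : Set M} {f : M → ℝ} (hf : ContinuousOn f Ω) {w : E N → ℝ}
    (hw : ∀ x, w (ι x) = Real.exp (f x)) {x y : M} {a : ℝ} (hj : Path Ω (cmul f g) x y a) :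
    ∃ b ≤ L * K * a, Joined (ι '' Ω) (sp w) (ι x) (ι y) b := by
  induction hj with
  | arc γ hγ hm =>
    obtain ⟨h1, h2⟩ := deriv_iota h.sm hγ
    refine ⟨_, ?_, .arc (fun t => ι (γ t)) h1 fun t ht => mem_image_of_mem ι (hm ht)⟩
    have he : ContinuousOn (fun t => Real.exp (f (γ t))) (Icc 0 1) :=
      (hf.comp hγ.continuous.continuousOn hm).rexp
    have h3 : (fun t => sp w (ι (γ t)) (deriv (fun t => ι (γ t)) t)) =
        fun t => Real.exp (f (γ t)) * ‖deriv (fun t => ι (γ t)) t‖ :=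
      funext fun t => by rw [sp, hw]
    have h4 : spd (cmul f g) γ = fun t => Real.exp (f (γ t)) * spd g γ t :=
      funext fun t => spd_cmul f g γ t
    change _ ≤ L * K * ∫ t in (0 : ℝ)..1, spd (cmul f g) γ t
    rw [← intervalIntegral.integral_const_mul, h3, h4]
    refine intervalIntegral.integral_mono_on zero_le_one
      ((he.mul (h1.continuous_deriv le_rfl).norm.continuousOn).intervalIntegrable_of_Icc
        zero_le_one)
      (((he.mul (spd_cont hg hγ).continuousOn).intervalIntegrable_of_Icc zero_le_one).const_mul _)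
      fun t _ => ?_
    have h5 : ‖deriv (fun t => ι (γ t)) t‖ ≤ L * K * spd g γ t := (h.speed (γ t) _ _ (h2 t)).2
    have h6 := mul_le_mul_of_nonneg_left h5 (Real.exp_pos (f (γ t))).le
    linarith
  | trans _ _ ih ih' =>
    obtain ⟨b, hb, hj⟩ := ih
    obtain ⟨b', hb', hj'⟩ := ih'
    exact ⟨b + b', by linarith, .trans hj hj'⟩

theorem cmp_f {g : Form n M} (hg : IsRiem g) {ι : M → E N} {K s L : ℝ} (h : Good g ι K s L)
    {Ω : Set M} {f : M → ℝ} (hf : ContinuousOn f Ω) {w : E N → ℝ}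
    (hw : ∀ x, w (ι x) = Real.exp (f x)) (x y : M) :
    dd (ι '' Ω) w (ι x) (ι y) ≤ ENNReal.ofReal (L * K) * mdist Ω (cmul f g) x y := by
  have hc : 0 < L * K := mul_pos h.L0 (zero_lt_one.trans_le h.K1)
  have hc0 : ENNReal.ofReal (L * K) ≠ 0 := (ENNReal.ofReal_pos.2 hc).ne'
  rw [mdist, ENNReal.mul_iInf_of_ne hc0 ENNReal.ofReal_ne_top]
  refine le_iInf fun a => ?_
  rw [ENNReal.mul_iInf_of_ne hc0 ENNReal.ofReal_ne_top]
  refine le_iInf fun ha => ?_
  obtain ⟨b, hb, hj⟩ := joined_CmpF hg h hf hw ha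
  refine (iInf₂_le b hj).trans ?_
  rw [← ENNReal.ofReal_mul hc.le]
  exact ENNReal.ofReal_le_ofReal hb

end

end Vale.Agent.P210
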