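import Vale.Agent.P210.M.Met
import Vale.Agent.P210.Cut

/-! P210 M/Cut: port of P210/Cut.lean (helper names end with _MCut). `dd_step2`: if `dd o (Φ u') ≠ ∞` then `Φ u' ∈ Ω`; continuous induction as in `dd_le_seg` for the curve `t ↦ Φ (u' + t • (u - u'))`, which stays in `X`; `Ω = X ∩ O`; `dd_seg2`, `scale_Cut`, `pt_Cut`.
`cutoff2`: the same functions as in `cutoff`, with `dd_loc2`, `dd_open2`, `dd_fin2`, `Dom2.nhds`. -/

namespace Vale.Agent.P210

open Set Filter Topology Metric MeasureTheory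
open scoped ENNReal

noncomputable section

variable {N n : ℕ} {X Ω : Set (E N)} {w : E N → ℝ} {K s : ℝ} {p : E N}
  {P : E N →L[ℝ] E n} {Φ : E n → E N}

theorem seg_MCut (hD : Dom2 X Ω w) (hP : Proper Ω w) (hK : 0 ≤ K) (h : Patch n X K s p P Φ)
    {x y : E n} (hx : x ∈ ball (P p) (K * s)) (hy : y ∈ ball (P p) (K * s)) (hx' : Φ x ∈ Ω) :
    dd Ω w (Φ x) (Φ y) ≤ ENNReal.ofReal K * seg (fun z => WW Ω w (Φ z)) x y := by
  rcases eq_or_ne (ENNReal.ofReal K * seg (fun z => WW Ω w (Φ z)) x y) ∞ with hs | hs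
  · rw [hs]
    exact le_top
  have hin : ∀ t ∈ Icc (0 : ℝ) 1, x + t • (y - x) ∈ ball (P p) (K * s) := fun t ht =>
    (convex_ball _ _).add_smul_sub_mem hx hy ht
  have hγ : Continuous fun t : ℝ => Φ (x + t • (y - x)) := h.sm.continuous.comp (by fun_prop)
  have hB := ((hP _ hx'
    (ENNReal.ofReal K * seg (fun z => WW Ω w (Φ z)) x y).toReal).isClosed.preimage hγ).inter
    (isClosed_Icc (a := (0 : ℝ)) (b := 1))
  rw [ENNReal.ofReal_toReal hs] at hB
  have hΩ : ∀ z, dd Ω w (Φ x) z ≤ ENNReal.ofReal K * seg (fun z => WW Ω w (Φ z)) x y → z ∈ Ω :=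
    fun z hz => (dd_mem (ne_top_of_le_ne_top hs hz)).2
  obtain ⟨O, hO, hO'⟩ := hD.op
  have h := hB.Icc_subset_of_forall_mem_nhdsGT_of_Icc_subset
    (by simp only [mem_preimage, mem_ofPred_eq, zero_smul, add_zero, dd_self hx', zero_le])
    (fun t ht hsub => by
      have hU : (fun t : ℝ => Φ (x + t • (y - x))) ⁻¹' O ∈ 𝓝[>] t := nhdsWithin_le_nhds
        ((hO.preimage hγ).mem_nhds (hO'.subset (hΩ _ (hsub ⟨ht.1, le_rfl⟩))).2)
      obtain ⟨m, hm, hU⟩ := mem_nhdsGT_iff_exists_Ioo_subset.1 hU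
      refine mem_of_superset (Ioo_mem_nhdsGT (lt_min hm ht.2)) fun r hr => ?_
      have h0 : 0 < r := ht.1.trans_lt hr.1
      have h1 : r ≤ 1 := hr.2.le.trans (min_le_right _ _)
      refine (dd_seg2 hD hK h hx (hin r ⟨h0.le, h1⟩) fun τ hτ => ?_).trans
        (mul_le_mul_right (scale_Cut _ x y h0 h1) _)
      rw [pt_Cut]
      rcases le_or_gt (r * τ) t with h2 | h2
      · exact hΩ _ (hsub ⟨mul_nonneg h0.le hτ.1, h2⟩)
      · exact hO'.symm.subset ⟨h.mem _ (hin _ ⟨mul_nonneg h0.le hτ.1, mul_le_one₀ h1 hτ.1 hτ.2⟩),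
          hU ⟨h2, (mul_le_of_le_one_right h0.le hτ.2).trans_lt (hr.2.trans_le (min_le_left _ _))⟩⟩)
  simpa only [mem_preimage, mem_ofPred_eq, one_smul, add_sub_cancel] using
    h (right_mem_Icc.2 zero_le_one)

theorem dd_step2 (hD : Dom2 X Ω w) (hP : Proper Ω w) (hK : 0 ≤ K) (h : Patch n X K s p P Φ)
    (o : E N) {u u' : E n} (hu : u ∈ ball (P p) (K * s)) (hu' : u' ∈ ball (P p) (K * s)) :
    dd Ω w o (Φ u) ≤ dd Ω w o (Φ u') +
      ENNReal.ofReal K * seg (fun z => WW Ω w (Φ z)) u' u := by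
  rcases eq_or_ne (dd Ω w o (Φ u')) ∞ with h0 | h0
  · rw [h0, top_add]
    exact le_top
  · exact (dd_tri o (Φ u') (Φ u)).trans
      (add_le_add le_rfl (seg_MCut hD hP hK h hu' hu (dd_mem h0).2))

theorem cutoff2 (hX : Emb n X K s) (hD : Dom2 X Ω w) (hP : Proper Ω w) (hc : IsPreconnected Ω) :
    ∃ η : ℕ → E N → ℝ, (∀ R, ∃ B, IsCompact B ∧ B ⊆ Ω ∧ ∀ y, y ∉ B → η R y = 0) ∧
      (∀ R y, 0 ≤ η R y ∧ η R y ≤ 1) ∧
      (∀ R, ∀ x ∈ Ω, ∀ ε : ℝ, 0 < ε →
        ∀ᶠ y in 𝓝[X] x, |η R y - η R x| ≤ (K ^ 2 * w x + ε) * dist y x) ∧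
      ∀ x ∈ Ω, ∀ᶠ R in atTop, ∀ᶠ y in 𝓝[X] x, η R y = 1 := by
  rcases Ω.eq_empty_or_nonempty with rfl | ⟨o, ho⟩
  · exact ⟨fun _ _ => 0, fun _ => ⟨∅, isCompact_empty, Subset.rfl, fun _ _ => rfl⟩,
      fun _ _ => ⟨le_rfl, zero_le_one⟩, fun _ _ h => h.elim, fun _ h => h.elim⟩
  have hf : ∀ {y}, y ∈ Ω → dd Ω w o y ≠ ∞ := fun hy => dd_fin2 hX hD hc ho hy
  refine ⟨fun R => Ω.indicator fun y => max 0 (min 1 (R + 1 - (dd Ω w o y).toReal)),
    fun R => ?_, fun R y => ?_, fun R x hx ε hε => ?_, fun x hx => ?_⟩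
  · refine ⟨_, hP o ho (R + 1), fun y hy =>
      (dd_mem (ne_top_of_le_ne_top ENNReal.ofReal_ne_top hy)).2, fun y hy => ?_⟩
    by_cases hyΩ : y ∈ Ω
    · simp only [indicator_of_mem hyΩ]
      have h1 := mt (ENNReal.le_ofReal_iff_toReal_le (hf hyΩ) (by positivity)).2 hy
      exact max_eq_left ((min_le_right _ _).trans (by linarith [not_le.1 h1]))
    · exact indicator_of_notMem hyΩ _
  · by_cases hy : y ∈ Ω
    · simp only [indicator_of_mem hy]
      exact ⟨le_max_left _ _, max_le zero_le_one (min_le_left _ _)⟩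
    · simp only [indicator_of_notMem hy]
      exact ⟨le_rfl, zero_le_one⟩
  · filter_upwards [dd_loc2 hX hD hx hε, hD.nhds hx] with y h hy
    have h0 : 0 ≤ (K ^ 2 * w x + ε) * dist y x := by
      have := hD.pos x hx
      positivity
    have h1 := ENNReal.toReal_le_add ((dd_tri o x y).trans (add_le_add le_rfl h)) (hf hx)
      ENNReal.ofReal_ne_top
    rw [dd_symm] at h
    have h2 := ENNReal.toReal_le_add ((dd_tri o y x).trans (add_le_add le_rfl h)) (hf hy)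
      ENNReal.ofReal_ne_top
    rw [ENNReal.toReal_ofReal h0] at h1 h2
    simp only [indicator_of_mem hy, indicator_of_mem hx]
    exact clamp_Cut (by linarith) (by linarith) h0
  · filter_upwards [(tendsto_natCast_atTop_atTop (R := ℝ)).eventually_gt_atTop
      (dd Ω w o x).toReal] with R hR
    filter_upwards [dd_open2 hX hD
      ((ENNReal.lt_ofReal_iff_toReal_lt (hf hx)).2 hR)] with y hy
    have h1 := ENNReal.toReal_lt_of_lt_ofReal hy
    rw [indicator_of_mem (dd_mem (ne_top_of_lt hy)).2, min_eq_left (by linarith),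
      max_eq_right zero_le_one]

end

end Vale.Agent.P210
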