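import Vale.Agent.P210.M.Reg
import Vale.Agent.P210.M.Cut
import Vale.Agent.P210.Avg

/-! P210 M/PI: comparison of averages (helper names end with _PI). Model: `avg_step` in P210/Avg.lean. Patch at `p`, `W' = WW ∘ Φ` (measurable), `c z' z = seg W' (P z') (P z)` (measurable by `seg_meas`). For `z, z' ∈ X ∩ ball p r`: `z = Φ (P z)`, so `F z ≤ F z' + ofReal K * c z' z` by `dd_step2`;
these conditions hold a.e. for `ν.restrict S` (`ae_restrict_of_ae_restrict_of_subset`, `ae_restrict_mem`, `nu` is a restriction to `X`). Integrate over `S × S'` (`nu_reg` gives a finite measure). With `B = ball (P p) (K r)`, `X ∩ ball p r ⊆ Φ '' B ⊆ ball p (K ^ 2 r)` and `nu_patch` three times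
(`P (Φ y) = y` on `B`, `Measurable.lintegral_prod_right'`): `∫∫ c ≤ κ ^ 2 ∫ B ∫ B seg W' ≤ κ ^ 2 2 ^ (n + 1) K r vol B ∫ B W'` (`seg_avg`) and `∫ B W' ≤ κ ∫ ball p (K ^ 2 r) WW`. `Q₀ ≥ K ^ 2` and `Q₀ ≥ κ ^ 3 2 ^ (n + 1) K ^ (n + 2) vol (ball 0 1)`. -/

namespace Vale.Agent.P210

open Set Filter Topology Metric MeasureTheory
open scoped ENNReal

noncomputable section

theorem pi_dd {N n : ℕ} {X : Set (E N)} {K s : ℝ} (hX : Emb n X K s) : ∃ Q₀ : ℝ, ∀ Q, Q₀ ≤ Q →
    ∀ (Ω : Set (E N)) (w : E N → ℝ), Dom2 X Ω w → Proper Ω w → ∀ o : E N,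
      PI (nu n X) n X (WW Ω w) (dd Ω w o) Q s := by
  obtain ⟨κ, hκ, hν⟩ := nu_patch n hX.K1
  have hfin := (nu_reg hX).1
  have hK : 0 < K := zero_lt_one.trans_le hX.K1
  obtain ⟨v, hv0, hv⟩ : ∃ v : ℝ, 0 ≤ v ∧ volume (ball (0 : E n) 1) = ENNReal.ofReal v :=
    ⟨_, ENNReal.toReal_nonneg, (ENNReal.ofReal_toReal measure_ball_lt_top.ne).symm⟩
  refine ⟨max (K ^ 2) (κ ^ 3 * 2 ^ (n + 1) * K ^ (n + 2) * v),
    fun Q hQ Ω w hD hP o p hp r hr hrs S S' hS hS' => ?_⟩
  obtain ⟨P, Φ, h⟩ := hX.patch p hp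
  have hW := WW_meas2 hX.cpt hD
  have hF := dd_meas2 hX hD o
  have hW' : Measurable fun z => WW Ω w (Φ z) := hW.comp h.sm.continuous.measurable
  have hPm : Measurable P := P.continuous.measurable
  have hB : ball (P p) (K * r) ⊆ ball (P p) (K * s) :=
    ball_subset_ball (mul_le_mul_of_nonneg_left hrs hK.le)
  have hν' := hν N X s p P Φ hX.cpt h _ measurableSet_ball hB
  have hpt : ∀ z, z ∈ X → z ∈ ball p r → P z ∈ ball (P p) (K * r) ∧ Φ (P z) = z := fun z h1 h2 =>
    ⟨(h.mapP z p).trans_lt (mul_lt_mul_of_pos_left h2 hK), h.right z h1 (h2.trans_le hrs)⟩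
  have hXae : ∀ᵐ z ∂nu n X, z ∈ X := ae_restrict_mem hX.cpt.measurableSet
  have hA : ∀ T ⊆ ball p r, T ≤ᵐ[nu n X] Φ '' ball (P p) (K * r) := fun T hT => by
    filter_upwards [hXae] with z h1 h2
    exact ⟨P z, hpt z h1 (hT h2)⟩
  have hae : ∀ T ⊆ ball p r, ∀ᵐ z ∂(nu n X).restrict T,
      P z ∈ ball (P p) (K * r) ∧ Φ (P z) = z := fun T hT => by
    filter_upwards [ae_restrict_of_ae hXae,
      ae_restrict_of_ae_restrict_of_subset hT (ae_restrict_mem measurableSet_ball)] with z h1 h2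
    exact hpt z h1 h2
  set G : E n → ℝ≥0∞ := fun u => ∫⁻ y in ball (P p) (K * r), seg (fun z => WW Ω w (Φ z)) u y
    with hG
  have hGm : Measurable G := (seg_meas hW').lintegral_prod_right'
  have h1 : ∀ᵐ z' ∂(nu n X).restrict S', ∫⁻ z in S, dd Ω w o z ∂nu n X ≤
      dd Ω w o z' * nu n X S + ENNReal.ofReal K * (ENNReal.ofReal κ * G (P z')) := by
    filter_upwards [hae S' hS'] with z' hz'
    have h2 : ∀ᵐ z ∂(nu n X).restrict S, dd Ω w o z ≤ dd Ω w o z' +
        ENNReal.ofReal K * seg (fun z => WW Ω w (Φ z)) (P z') (P z) := by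
      filter_upwards [hae S hS] with z hz
      have h3 := dd_step2 hD hP hK.le h o (hB hz.1) (hB hz'.1)
      rwa [hz.2, hz'.2] at h3
    refine (lintegral_mono_ae h2).trans ?_
    rw [lintegral_add_left measurable_const, setLIntegral_const,
      lintegral_const_mul' _ _ ENNReal.ofReal_ne_top]
    refine add_le_add_right (mul_le_mul_right ((lintegral_mono_set' (hA S hS)).trans ?_) _) _
    refine (hν' (fun z => seg (fun z => WW Ω w (Φ z)) (P z') (P z))
      ((seg_meas hW').comp (measurable_const.prodMk hPm))).1.trans (le_of_eq ?_)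
    refine congrArg _ (setLIntegral_congr_fun measurableSet_ball fun y hy => ?_)
    simp only [h.left y (hB hy)]
  have h2 : ∫⁻ z in S', G (P z) ∂nu n X ≤
      ENNReal.ofReal κ * ∫⁻ y in ball (P p) (K * r), G y := by
    refine (lintegral_mono_set' (hA S' hS')).trans
      ((hν' (fun z => G (P z)) (hGm.comp hPm)).1.trans (le_of_eq ?_))
    refine congrArg _ (setLIntegral_congr_fun measurableSet_ball fun y hy => ?_)
    simp only [h.left y (hB hy)]
  have h3 : Φ '' ball (P p) (K * r) ⊆ ball p (Q * r) := by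
    rintro _ ⟨y, hy, rfl⟩
    have h4 := h.lip (hB hy) (mem_ball_self (mul_pos hK hX.s0))
    rw [h.right p hp (by rw [dist_self]; exact hX.s0)] at h4
    have h5 := mul_lt_mul_of_pos_left (mem_ball.1 hy) hK
    have h6 := mul_le_mul_of_nonneg_right ((le_max_left _ _).trans hQ) hr.le
    rw [mem_ball]
    linarith
  have h4 := ((hν' _ hW).2.trans (mul_le_mul_right (lintegral_mono_set h3) _))
  have h5 := (seg_avg hW' (P p) (mul_pos hK hr)).trans (mul_le_mul_right h4 _)
  rw [Measure.addHaar_ball_of_pos _ _ (mul_pos hK hr), finrank_euclideanSpace_fin, hv] at h5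
  have h6 : ENNReal.ofReal K * (ENNReal.ofReal κ * (ENNReal.ofReal κ *
      (ENNReal.ofReal (2 ^ (n + 1) * (K * r)) * (ENNReal.ofReal ((K * r) ^ n) * ENNReal.ofReal v) *
        ENNReal.ofReal κ))) ≤ ENNReal.ofReal (Q * r * r ^ n) := by
    have hκ0 : 0 < κ := zero_lt_one.trans_le hκ
    rw [← ENNReal.ofReal_mul (by positivity), ← ENNReal.ofReal_mul (by positivity),
      ← ENNReal.ofReal_mul (by positivity), ← ENNReal.ofReal_mul (by positivity),
      ← ENNReal.ofReal_mul (by positivity), ← ENNReal.ofReal_mul (by positivity)]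
    refine ENNReal.ofReal_le_ofReal ?_
    have h7 := mul_le_mul_of_nonneg_right ((le_max_right _ _).trans hQ)
      (show 0 ≤ r * r ^ n by positivity)
    refine le_of_eq_of_le ?_ (h7.trans_eq (mul_assoc _ _ _).symm)
    ring
  calc (∫⁻ y in S, dd Ω w o y ∂nu n X) * nu n X S'
      = ∫⁻ _ in S', (∫⁻ y in S, dd Ω w o y ∂nu n X) ∂nu n X := (setLIntegral_const _ _).symm
    _ ≤ _ := lintegral_mono_ae h1
    _ = (∫⁻ y in S', dd Ω w o y ∂nu n X) * nu n X S +
        ENNReal.ofReal K * (ENNReal.ofReal κ * ∫⁻ z in S', G (P z) ∂nu n X) := by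
        rw [lintegral_add_left (hF.mul_const _), lintegral_mul_const _ hF,
          lintegral_const_mul' _ _ ENNReal.ofReal_ne_top,
          lintegral_const_mul' _ _ ENNReal.ofReal_ne_top]
    _ ≤ _ := by
        refine add_le_add_right ((mul_le_mul_right (mul_le_mul_right
          (h2.trans (mul_le_mul_right h5 _)) _) _).trans
          (le_of_eq_of_le ?_ (mul_le_mul_left h6 _))) _
        ring

end

end Vale.Agent.P210
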