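import Vale.Agent.P210.M.Cost
import Vale.Agent.P210.M.Met
import Vale.Agent.P210.Young

/-! P210 M/Young: port of P210/Young.lean to a measure `ν` with `Up ν n κ` (helper names end with _MYoung). Copy the proofs (`pt_Young`, `root_Young` are reusable); `vol_Young` is replaced by `Up`; `Ω` is measurable (`Dom2.meas`), `WW_meas2`.
`tail_loc2`: `w` is continuous within `Ω` at `x` and `WW = 0` off `Ω`, so `WW ≤ ofReal (w x + 1)` on a ball around `x`. -/

namespace Vale.Agent.P210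

open Set Filter Topology Metric MeasureTheory
open scoped ENNReal

noncomputable section

variable {N n : ℕ} {ν : Measure (E N)} {X Ω : Set (E N)} {v w : E N → ℝ} {A κ : ℝ}

theorem mu_MYoung (ν : Measure (E N)) (Ω : Set (E N)) (v : E N → ℝ) (x : E N) (r : ℝ) :
    mu2 ν Ω v (ball x r) = ∫⁻ y in ball x r ∩ Ω, ENNReal.ofReal (v y ^ 9) ∂ν := by
  rw [mu2, withDensity_apply _ measurableSet_ball, Measure.restrict_restrict measurableSet_ball]

theorem key_MYoung (hX : IsCompact X) (hν : Up ν n κ) (hD : Dom2 X Ω v) (x : E N)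
    {r τ t : ℝ} (hr : 0 < r) (hτ : 0 < τ) (ht : 0 < t) (ht1 : t ≤ 1) :
    ∫⁻ y in ball x r, WW Ω (fun x => v x ^ 4) y ∂ν ≤
      ENNReal.ofReal (t / τ ^ 4 * (κ * r ^ n)) +
        ENNReal.ofReal (τ ^ 5 / t ^ 2) * mu2 ν Ω v (ball x r) := by
  have h1 : ∀ y, WW Ω (fun x => v x ^ 4) y ≤ ENNReal.ofReal (t / τ ^ 4) +
      Ω.indicator (fun y => ENNReal.ofReal (τ ^ 5 / t ^ 2) * ENNReal.ofReal (v y ^ 9)) y := by
    intro y
    by_cases hy : y ∈ Ω
    · have h0 := hD.pos y hy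
      rw [WW, indicator_of_mem hy, indicator_of_mem hy, ← ENNReal.ofReal_mul (by positivity),
        ← ENNReal.ofReal_add (by positivity) (by positivity)]
      refine ENNReal.ofReal_le_ofReal ?_
      have h2 := pt_Young (u := τ * v y) (by positivity) ht ht1
      have e : t / τ ^ 4 + τ ^ 5 / t ^ 2 * v y ^ 9 = (t + (τ * v y) ^ 9 / t ^ 2) / τ ^ 4 := by
        field_simp
      rw [e, le_div_iff₀ (by positivity)]
      calc v y ^ 4 * τ ^ 4 = (τ * v y) ^ 4 := by ring
        _ ≤ _ := h2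
    · rw [WW, indicator_of_notMem hy]
      exact zero_le
  refine (lintegral_mono h1).trans ?_
  rw [lintegral_add_left measurable_const, setLIntegral_const,
    lintegral_indicator (hD.meas hX), Measure.restrict_restrict (hD.meas hX),
    lintegral_const_mul' _ _ ENNReal.ofReal_ne_top, mu_MYoung, inter_comm,
    ENNReal.ofReal_mul (p := t / τ ^ 4) (by positivity)]
  exact add_le_add (mul_le_mul_right (hν x r hr) _) le_rfl

theorem l1b2_of_morrey (hX : IsCompact X) (hA : 0 ≤ A) (hκ : 0 ≤ κ) (hν : Up ν n κ)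
    (hD : Dom2 X Ω v) (hM : Morrey2 ν n Ω v A) : L1b2 ν n (WW Ω fun x => v x ^ 4) (A + κ) := by
  intro x r hr
  obtain ⟨τ, hτ, rfl⟩ := root_Young hr
  refine (key_MYoung hX hν hD x hr hτ one_pos le_rfl).trans ?_
  rw [mu_MYoung]
  refine (add_le_add le_rfl (mul_le_mul_right (hM x τ hτ) _)).trans_eq ?_
  rw [← ENNReal.ofReal_mul (by positivity), ← ENNReal.ofReal_add (by positivity) (by positivity),
    pow_mul]
  refine congrArg ENNReal.ofReal ?_
  field_simp
  ring

theorem mu2_fin (hM : Morrey2 ν n Ω v A) : IsFiniteMeasureOnCompacts (mu2 ν Ω v) := by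
  refine ⟨fun K hK => ?_⟩
  obtain ⟨r, hr, h⟩ := hK.isBounded.subset_ball_lt 0 0
  obtain ⟨τ, hτ, rfl⟩ := root_Young hr
  refine (measure_mono h).trans_lt ?_
  rw [mu_MYoung]
  exact (hM 0 τ hτ).trans_lt ENNReal.ofReal_lt_top

theorem mu2_ball (hA : 0 ≤ A) (hM : Morrey2 ν n Ω v A) (x : E N) {τ : ℝ} (hτ : 0 < τ) :
    τ ^ 9 / τ ^ (4 * n) * (mu2 ν Ω v).real (ball x (3 * τ ^ 4)) ≤ 16 ^ n * A := by
  have h1 : (mu2 ν Ω v).real (ball x (3 * τ ^ 4)) ≤ A * (2 * τ) ^ (4 * n) / (2 * τ) ^ 9 := by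
    refine ENNReal.toReal_le_of_le_ofReal (by positivity) ?_
    refine (measure_mono (ball_subset_ball (ε₂ := (2 * τ) ^ 4) ?_)).trans ?_
    · nlinarith [pow_pos hτ 4]
    · rw [mu_MYoung]
      exact hM x (2 * τ) (by positivity)
  refine (mul_le_mul_of_nonneg_left h1 (by positivity)).trans ?_
  have e : τ ^ 9 / τ ^ (4 * n) * (A * (2 * τ) ^ (4 * n) / (2 * τ) ^ 9) = 16 ^ n * A / 512 := by
    rw [mul_pow 2 τ (4 * n), pow_mul 2 4 n]
    field_simp
    norm_num
    ring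
  rw [e]
  have : 0 ≤ 16 ^ n * A := by positivity
  linarith

theorem lam2_young (hX : IsCompact X) (hκ : 0 ≤ κ) (hν : Up ν n κ) (hD : Dom2 X Ω v)
    (hM : Morrey2 ν n Ω v A) (x : E N) {τ t : ℝ} (hτ : 0 < τ) (ht : 0 < t) (ht1 : t ≤ 1) :
    lam2 ν n (WW Ω fun x => v x ^ 4) (τ ^ 4) x ≤ 2 ^ n * κ * t +
      τ ^ 9 / τ ^ (4 * n) * (mu2 ν Ω v).real (ball x (3 * τ ^ 4)) / t ^ 2 := by
  have := mu2_fin hM
  have hs : 0 < τ ^ 4 := by positivity
  have h1 : 0 ≤ (mu2 ν Ω v).real (ball x (3 * τ ^ 4)) := measureReal_nonneg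
  have h2 : mu2 ν Ω v (ball x (2 * τ ^ 4)) ≤
      ENNReal.ofReal ((mu2 ν Ω v).real (ball x (3 * τ ^ 4))) := by
    rw [ofReal_measureReal measure_ball_lt_top.ne]
    exact measure_mono (ball_subset_ball (by linarith))
  have h3 := (lam2_up (n := n) hs x).trans (mul_le_mul_right ((key_MYoung hX hν hD x
    (r := 2 * τ ^ 4) (by positivity) hτ ht ht1).trans
      (add_le_add le_rfl (mul_le_mul_right h2 _))) _)
  rw [← ENNReal.ofReal_mul (by positivity), ← ENNReal.ofReal_add (by positivity) (by positivity),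
    ← ENNReal.ofReal_mul (by positivity), ENNReal.ofReal_le_ofReal_iff (by positivity)] at h3
  refine h3.trans_eq ?_
  rw [pow_mul, mul_pow 2 (τ ^ 4) n]
  field_simp

theorem tail_loc2 (hκ : 0 ≤ κ) (hν : Up ν n κ) (hD : Dom2 X Ω w) {M : ℝ} (hM : 2 ≤ M)
    {H : E N → ℤ → ℝ} (hH : ∀ x k, H x (k + 1) = H x k + lam2 ν n (WW Ω w) (sc M k) x) {x : E N}
    (hx : x ∈ Ω) : ∃ k : ℤ, ∀ᶠ y in 𝓝 x, Tail H y k 1 := by
  have hc : ∀ᶠ z in 𝓝[Ω] x, w z < w x + 1 :=
    (hD.cont x hx).eventually (gt_mem_nhds (lt_add_one (w x)))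
  obtain ⟨δ, hδ, hs⟩ := Metric.eventually_nhds_iff.1 (eventually_nhdsWithin_iff.1 hc)
  have C0 : 0 ≤ w x + 1 := by linarith [hD.pos x hx]
  generalize w x + 1 = C at hs C0
  obtain ⟨B, hB, hl⟩ : ∃ B : ℝ, 0 ≤ B ∧ ∀ y ∈ ball x (δ / 2), ∀ s, 0 < s → s ≤ δ / 4 →
      lam2 ν n (WW Ω w) s y ≤ B * s := by
    refine ⟨C * 2 ^ n * κ, by positivity, fun y hy s s0 s1 => ?_⟩
    have h1 : ∫⁻ z in ball y (2 * s), WW Ω w z ∂ν ≤
        ∫⁻ _ in ball y (2 * s), ENNReal.ofReal C ∂ν := by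
      refine setLIntegral_mono' measurableSet_ball fun z hz => ?_
      have hz' : dist z x < δ := by
        have := dist_triangle z y x
        rw [mem_ball] at hy hz
        linarith
      by_cases hΩ : z ∈ Ω
      · rw [WW, indicator_of_mem hΩ]
        exact ENNReal.ofReal_le_ofReal (hs hz' hΩ).le
      · rw [WW, indicator_of_notMem hΩ]
        exact zero_le
    rw [setLIntegral_const] at h1
    have h2 := (lam2_up (n := n) s0 y).trans (mul_le_mul_right
      (h1.trans (mul_le_mul_right (hν y (2 * s) (by positivity)) _)) _)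
    rw [← ENNReal.ofReal_mul C0,
      ← ENNReal.ofReal_mul (by positivity), ENNReal.ofReal_le_ofReal_iff (by positivity)] at h2
    refine h2.trans_eq ?_
    rw [mul_pow]
    field_simp
  have M0 : 0 < M := by linarith
  obtain ⟨k, hk⟩ := exists_pow_lt_of_lt_one (lt_min (by positivity : 0 < δ / 4)
    (by positivity : 0 < 1 / (2 * B + 1))) (inv_lt_one_of_one_lt₀ (by linarith : 1 < M))
  have e : M⁻¹ ^ k = sc M k := by rw [sc, zpow_neg, zpow_natCast, inv_pow]
  rw [e, lt_min_iff, lt_div_iff₀ (by positivity : 0 < 2 * B + 1)] at hk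
  refine ⟨k, ?_⟩
  filter_upwards [ball_mem_nhds x (half_pos hδ)] with y hy j hj
  have h1 : H y j + 2 * B * sc M j ≤ H y k + 2 * B * sc M k := by
    induction j, hj using Int.le_induction with
    | base => exact le_rfl
    | succ j hj ih =>
      have s0 := sc_pos M0 j
      have h2 := hl y hy _ s0 ((sc_anti (by linarith) hj).trans hk.1.le)
      have h3 : sc M j / M ≤ sc M j / 2 := div_le_div_of_nonneg_left s0.le two_pos hM
      have h4 := mul_le_mul_of_nonneg_left h3 hB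
      rw [hH, sc_succ M0]
      linarith
  have h2 := mul_nonneg hB (sc_pos M0 j).le
  have h3 := sc_pos M0 k
  linarith [hk.2]

end

end Vale.Agent.P210
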