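import Vale.Agent.P210.Main
import Vale.Agent.P210.M.Young
import Vale.Agent.P210.M.PI
import Vale.Agent.P210.M.ChainC

/-! P210 M/Core: the width bound from the Morrey bound (owner helper28). -/

namespace Vale.Agent.P210

open Set Filter Topology Metric MeasureTheory

noncomputable section

theorem core2 (m : ℕ) (hm : 1 ≤ m) {N : ℕ} {X : Set (E N)} {K₀ s A : ℝ}
    (hX : Emb (m + 2) X K₀ s) (hA : 0 ≤ A) : ∃ C : ℝ,
    ∀ (Ω : Set (E N)) (v : E N → ℝ), Dom2 X Ω v → (Proper Ω fun x => v x ^ 4) →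
      Morrey2 (nu (m + 2) X) (m + 2) Ω v A → WidthLe Ω (dd Ω fun x => v x ^ 4) m C := by
  obtain ⟨-, κ, κ1, hU₀, hLo₀⟩ := nu_reg hX
  obtain ⟨Q₀, hPI⟩ := pi_dd hX
  obtain ⟨Q, hQ1, hQ2⟩ : ∃ Q : ℝ, κ ≤ Q ∧ Q₀ ≤ Q := ⟨max _ _, le_max_left _ _, le_max_right _ _⟩
  have hU : Up (nu (m + 2) X) (m + 2) Q := fun x r hr => (hU₀ x r hr).trans
    (ENNReal.ofReal_le_ofReal (mul_le_mul_of_nonneg_right hQ1 (by positivity)))
  have hLo : Lo (nu (m + 2) X) (m + 2) X Q s := fun p hp r hr hs => le_trans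
    (ENNReal.ofReal_le_ofReal (div_le_div_of_nonneg_left (by positivity) (by linarith) hQ1))
    (hLo₀ p hp r hr hs)
  have hν : ∀ᵐ y ∂(nu (m + 2) X), y ∈ X := ae_restrict_mem hX.cpt.measurableSet
  obtain ⟨K, hK, hG⟩ := generic N m
  obtain ⟨T, hT1, hT2, hT3⟩ : ∃ T : ℝ, K ≤ T ∧ 8 * K ^ m ≤ T ∧ Q ≤ T :=
    ⟨max _ (max _ _), le_max_left _ _, (le_max_left _ _).trans (le_max_right _ _),
      (le_max_right _ _).trans (le_max_right _ _)⟩
  have T1 : 1 ≤ T := by linarith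
  have T0 : 0 < T := by linarith
  have hM : K ≤ T ^ 4 := hT1.trans (le_self_pow₀ T1 (by norm_num))
  have hM2 : 2 ≤ T ^ 4 := by linarith
  have hM0 : 0 < T ^ 4 := by positivity
  have κ0 : 0 ≤ κ := by linarith
  obtain ⟨C, hC, hch⟩ := chain2 hX (by linarith) hU hLo hν hM2
    (hT3.trans (le_self_pow₀ T1 (by norm_num))) (add_nonneg hA κ0)
  obtain ⟨B, hB⟩ : ∃ B : ℝ, B = 1 + 2 ^ (m + 2) * (A + κ) +
    2 * (2 ^ (m + 2) * κ + 16 ^ (m + 2) * A) := ⟨_, rfl⟩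
  have p1 : 0 ≤ 2 ^ (m + 2) * (A + κ) := by positivity
  have p2 : 0 ≤ 2 * (2 ^ (m + 2) * κ + 16 ^ (m + 2) * A) := by positivity
  refine ⟨C * (1 + (22 * (m + 1) + 9) * B), fun Ω v hD hP hMo => ?_⟩
  have hD4 : Dom2 X Ω fun x => v x ^ 4 := ⟨hD.op, hD.cont.pow 4, fun x hx => pow_pos (hD.pos x hx) 4⟩
  have hL := l1b2_of_morrey hX.cpt hA κ0 hU₀ hD hMo
  have hs := sc_pos hM0
  obtain ⟨H, hH, hH'⟩ := exists_H (A := 2 ^ (m + 2) * (A + κ)) hM2
    (l := fun k x => lam2 (nu (m + 2) X) (m + 2) (WW Ω fun x => v x ^ 4) (sc (T ^ 4) k) x)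
    (fun k x => lam2_nonneg (hs k) x) (fun k x => lam2_le (add_nonneg hA κ0) hL (hs k) x)
    fun k x y => lam2_lip (WW_meas2 hX.cpt hD4) (add_nonneg hA κ0) hL (hs k) x y
  have := mu2_fin hMo
  choose cell hc1 hc2 using fun k : ℤ => hG (mu2 (nu (m + 2) X) Ω v) (sc (T ^ 4) k) (T ^ 4) (hs k) hM
  have hτ : ∀ k : ℤ, sc (T ^ 4) k = sc T k ^ 4 := fun k => by
    rw [sc, sc, ← zpow_natCast, ← zpow_natCast, ← zpow_mul, ← zpow_mul, mul_comm]
  have hdec : ∀ x k c₀, (∀ c, c ≠ c₀ → ∀ i, k ≤ i → ¬ Safe (T ^ 4) (fun k => cell k c) i x) →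
      Tail H x k B := by
    intro x k c₀ hx j hj
    refine (decay_Main (X := fun i => sc T i ^ 9 / sc T i ^ (4 * (m + 2)) *
      (mu2 (nu (m + 2) X) Ω v).real (ball x (3 * sc T i ^ 4))) (a := 2 ^ (m + 2) * κ) (b := 16 ^ (m + 2) * A)
      (by positivity) (by positivity) (mu2_ball hA hMo x (sc_pos T0 k)) (fun i hi => ?_)
      (fun i t t0 t1 => ?_) (hH' x) j hj).trans (by linarith)
    · have h1 := hc2 i x c₀ fun c hc => by
        have h2 := hx c hc i hi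
        rw [Safe, sc_succ hM0] at h2
        push Not at h2
        exact h2
      rw [← sc_succ hM0, hτ, hτ] at h1
      have t0 := sc_pos T0 i
      have h3 : 0 ≤ (mu2 (nu (m + 2) X) Ω v).real (ball x (3 * sc T i ^ 4)) := measureReal_nonneg
      refine (mul_le_mul_of_nonneg_left h1 (by have := sc_pos T0 (i + 1); positivity)).trans ?_
      have h4 : sc T (i + 1) ^ 9 / sc T (i + 1) ^ (4 * (m + 2)) * (K / T ^ 4) ^ m =
          sc T i ^ 9 / sc T i ^ (4 * (m + 2)) * (K ^ m / T) := by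
        simp only [sc_succ T0, div_pow]
        field_simp
        ring
      have h5 : K ^ m / T ≤ 1 / 8 := by
        rw [div_le_iff₀ T0]
        linarith
      rw [← mul_assoc, h4, mul_right_comm, div_eq_mul_one_div _ (8 : ℝ)]
      exact mul_le_mul_of_nonneg_left h5 (by positivity)
    · rw [hτ]
      exact lam2_young hX.cpt κ0 hU₀ hD hMo x (sc_pos T0 i) t0 t1
  obtain ⟨ι, U, u1, u2, u3, u4⟩ := cover (Ω := Ω) hm hM2 (A := B) (by linarith)
    (hH.weaken hM0 (by linarith)) (cell := fun c k => cell k c) (fun c k y => hc1 k c y)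
    hdec fun x hx => tail_loc2 κ0 hU₀ hD4 hM2 hH' hx
  refine nerve u1 u2 u3 fun c i x hx y hy hx' hy' => ?_
  obtain ⟨k, k1, k2, k3⟩ := u4 c i x hx' y hy'
  exact hch Ω _ hD4 (hPI Q hQ2 Ω _ hD4 hP) hL H hH' x hx y hy k _ k1 k2 k3

end

end Vale.Agent.P210
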