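import Vale.Agent.P210.M.Defs
import Vale.Agent.P210.Cost

/-! P210 M/Cost: port of the lemmas `lam_*` of P210/Cost.lean to an arbitrary measure `ν` and exponent `n` (helper names end with _MCost). Copy the proofs, reuse the `tent_*_Cost` lemmas. -/

namespace Vale.Agent.P210

open Set Filter Topology Metric MeasureTheory
open scoped ENNReal

noncomputable section

variable {N n : ℕ} {ν : Measure (E N)} {W : E N → ℝ≥0∞} {A s : ℝ}

theorem lint_MCost (hs : 0 < s) (x : E N) :
    ∫⁻ y, ENNReal.ofReal ((W y).toReal * tent (dist y x / s)) ∂ν ≤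
      ∫⁻ y in ball x (2 * s), W y ∂ν := by
  rw [← lintegral_indicator measurableSet_ball]
  refine lintegral_mono fun y => ?_
  by_cases h : y ∈ ball x (2 * s)
  · rw [indicator_of_mem h]
    refine le_trans (ENNReal.ofReal_le_ofReal ?_) ENNReal.ofReal_toReal_le
    exact mul_le_of_le_one_right ENNReal.toReal_nonneg (tent_le_Cost _)
  · simp only [tent_out_Cost hs h, mul_zero, ENNReal.ofReal_zero, zero_le]

theorem integ_MCost (hW : Measurable W) (hL : L1b2 ν n W A) (hs : 0 < s) (x : E N) :
    Integrable (fun y => (W y).toReal * tent (dist y x / s)) ν := by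
  have hc : Continuous fun y : E N => tent (dist y x / s) := by
    unfold tent
    fun_prop
  refine ⟨(hW.ennreal_toReal.mul hc.measurable).aestronglyMeasurable, ?_⟩
  rw [hasFiniteIntegral_iff_ofReal (ae_of_all _ fun y => nn_Cost x y)]
  exact ((lint_MCost hs x).trans (hL x _ (by positivity))).trans_lt ENNReal.ofReal_lt_top

theorem lam2_nonneg (hs : 0 < s) (x : E N) : 0 ≤ lam2 ν n W s x := by
  exact mul_nonneg (by positivity) (integral_nonneg fun y => nn_Cost x y)

theorem lam2_up (hs : 0 < s) (x : E N) : ENNReal.ofReal (lam2 ν n W s x) ≤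
    ENNReal.ofReal (s / s ^ n) * ∫⁻ y in ball x (2 * s), W y ∂ν := by
  rw [lam2, ENNReal.ofReal_mul (by positivity)]
  refine mul_le_mul_right (le_trans ?_ (lint_MCost hs x)) _
  rw [← Real.enorm_eq_ofReal (integral_nonneg fun y => nn_Cost x y)]
  refine (enorm_integral_le_lintegral_enorm _).trans (le_of_eq (lintegral_congr fun y => ?_))
  exact Real.enorm_eq_ofReal (nn_Cost x y)

theorem lam2_le (hA : 0 ≤ A) (hL : L1b2 ν n W A) (hs : 0 < s) (x : E N) :
    lam2 ν n W s x ≤ 2 ^ n * A := by
  have h := (lam2_up (W := W) (n := n) hs x).trans (mul_le_mul_right (hL x _ (by positivity)) _)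
  rw [← ENNReal.ofReal_mul (by positivity), ENNReal.ofReal_le_ofReal_iff (by positivity)] at h
  refine h.trans ?_
  have h1 : s / s ^ n * (A * (2 * s) ^ n / (2 * s)) = 2 ^ n * A / 2 := by
    rw [mul_pow]
    field_simp
  have h2 : 0 ≤ 2 ^ n * A := by positivity
  rw [h1]
  linarith

theorem lam2_ge (hW : Measurable W) (hW' : ∀ y, W y ≠ ∞) (hL : L1b2 ν n W A) (hs : 0 < s)
    (x : E N) : ∫⁻ y in ball x s, W y ∂ν ≤ ENNReal.ofReal (s ^ n / s * lam2 ν n W s x) := by
  have h1 : s ^ n / s * lam2 ν n W s x = ∫ y, (W y).toReal * tent (dist y x / s) ∂ν := by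
    rw [lam2]
    field_simp
  rw [h1, ofReal_integral_eq_lintegral_ofReal (integ_MCost hW hL hs x)
    (ae_of_all _ fun y => nn_Cost x y), ← lintegral_indicator measurableSet_ball]
  refine lintegral_mono fun y => ?_
  by_cases h : y ∈ ball x s
  · rw [indicator_of_mem h, tent_one_Cost ((div_le_one hs).mpr (mem_ball.mp h).le), mul_one,
      ENNReal.ofReal_toReal (hW' y)]
  · rw [indicator_of_notMem h]
    exact zero_le

theorem lam2_lip (hW : Measurable W) (hA : 0 ≤ A) (hL : L1b2 ν n W A) (hs : 0 < s) (x y : E N) :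
    |lam2 ν n W s x - lam2 ν n W s y| ≤ 2 ^ n * A * dist x y / s := by
  have hd : 0 ≤ dist x y / s := by positivity
  have h1 : ∀ z, ‖(W z).toReal * tent (dist z x / s) - (W z).toReal * tent (dist z y / s)‖ₑ ≤
      ENNReal.ofReal (dist x y / s) *
        ((ball x (2 * s)).indicator W z + (ball y (2 * s)).indicator W z) := fun z => by
    by_cases h : z ∈ ball x (2 * s) ∨ z ∈ ball y (2 * s)
    · have h2 : W z ≤ (ball x (2 * s)).indicator W z + (ball y (2 * s)).indicator W z := by
        rcases h with h | h
        · rw [indicator_of_mem h]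
          exact le_self_add
        · rw [indicator_of_mem h]
          exact le_add_self
      refine le_trans ?_ (mul_le_mul_right (ENNReal.ofReal_toReal_le.trans h2) _)
      rw [Real.enorm_eq_ofReal_abs, ← ENNReal.ofReal_mul hd, ← mul_sub, abs_mul,
        abs_of_nonneg ENNReal.toReal_nonneg, mul_comm]
      refine ENNReal.ofReal_le_ofReal (mul_le_mul_of_nonneg_right ?_ ENNReal.toReal_nonneg)
      refine (tent_lip_Cost _ _).trans ?_
      rw [← sub_div, abs_div, abs_of_pos hs, dist_comm z x, dist_comm z y]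
      exact div_le_div_of_nonneg_right (abs_dist_sub_le x y z) hs.le
    · rw [not_or] at h
      simp only [tent_out_Cost hs h.1, tent_out_Cost hs h.2, sub_self, enorm_zero, zero_le]
  have h2 := (enorm_integral_le_lintegral_enorm (μ := ν) _).trans (lintegral_mono h1)
  rw [lintegral_const_mul' _ _ ENNReal.ofReal_ne_top,
    lintegral_add_left (hW.indicator measurableSet_ball), lintegral_indicator measurableSet_ball,
    lintegral_indicator measurableSet_ball,
    integral_sub (integ_MCost hW hL hs x) (integ_MCost hW hL hs y)] at h2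
  have h3 := h2.trans (mul_le_mul_right
    (add_le_add (hL x _ (by positivity)) (hL y _ (by positivity))) _)
  rw [← ENNReal.ofReal_add (by positivity) (by positivity), ← ENNReal.ofReal_mul hd,
    Real.enorm_eq_ofReal_abs, ENNReal.ofReal_le_ofReal_iff (by positivity)] at h3
  rw [lam2, lam2, ← mul_sub, abs_mul, abs_of_nonneg (by positivity : 0 ≤ s / s ^ n)]
  refine (mul_le_mul_of_nonneg_left h3 (by positivity)).trans (le_of_eq ?_)
  rw [mul_pow]
  field_simp
  ring

end

end Vale.Agent.P210
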