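import Vale.Agent.P210.Stmt

/-! P210 M/Stmt: the definitions used in the statement on manifolds. FROZEN. -/

namespace Vale.Agent.P210

open Set Filter Topology
open scoped ENNReal Manifold ContDiff

noncomputable section

variable {n : ℕ} {M : Type} [TopologicalSpace M] [ChartedSpace (E n) M]

/-- Fields of bilinear forms on the tangent spaces. -/
abbrev Form (n : ℕ) (M : Type) [TopologicalSpace M] [ChartedSpace (E n) M] : Type :=
  ∀ x : M, TangentSpace (𝓡 n) x →L[ℝ] TangentSpace (𝓡 n) x →L[ℝ] ℝ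

/-- The coefficients `g_{ij}` in the chart at `c`. -/
def coef (g : Form n M) (c : M) (y : E n) : Matrix (Fin n) (Fin n) ℝ := fun i j =>
  g ((chartAt (E n) c).symm y)
    (mfderiv (𝓡 n) (𝓡 n) (chartAt (E n) c).symm y (EuclideanSpace.single i 1))
    (mfderiv (𝓡 n) (𝓡 n) (chartAt (E n) c).symm y (EuclideanSpace.single j 1))

/-- Smooth Riemannian metrics. -/
structure IsRiem (g : Form n M) : Prop where
  symm : ∀ x v w, g x v w = g x w v
  pos : ∀ x v, v ≠ 0 → 0 < g x v v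
  smooth : ∀ c i j, ContDiffOn ℝ ∞ (fun y => coef g c y i j) (chartAt (E n) c).target

/-- The conformal multiple `e^{2f} g`. -/
def cmul (f : M → ℝ) (g : Form n M) : Form n M := fun x => Real.exp (2 * f x) • g x

/-- The scalar curvature is at least one on `Ω`, computed in every chart. -/
def ScalGe (Ω : Set M) (g : Form n M) : Prop :=
  ∀ c : M, ∀ y ∈ (chartAt (E n) c).target, (chartAt (E n) c).symm y ∈ Ω → 1 ≤ scal (coef g c) y

/-- There is a piecewise `C^1` curve in `Ω` from `x` to `y` of length `a`. -/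
inductive Path (Ω : Set M) (g : Form n M) : M → M → ℝ → Prop
  | arc (γ : ℝ → M) : ContMDiff 𝓘(ℝ, ℝ) (𝓡 n) 1 γ → MapsTo γ (Icc 0 1) Ω →
      Path Ω g (γ 0) (γ 1) (∫ t in (0 : ℝ)..1,
        √(g (γ t) (mfderiv 𝓘(ℝ, ℝ) (𝓡 n) γ t (1 : ℝ)) (mfderiv 𝓘(ℝ, ℝ) (𝓡 n) γ t (1 : ℝ))))
  | trans {x y z : M} {a b : ℝ} : Path Ω g x y a → Path Ω g y z b → Path Ω g x z (a + b)

/-- The Riemannian distance of `(Ω, g)`. -/
def mdist (Ω : Set M) (g : Form n M) (x y : M) : ℝ≥0∞ :=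
  ⨅ (a : ℝ) (_ : Path Ω g x y a), ENNReal.ofReal a

/-- Every Cauchy sequence for `ρ` in `Ω` converges in `Ω`. -/
def Cplt (Ω : Set M) (ρ : M → M → ℝ≥0∞) : Prop :=
  ∀ u : ℕ → M, (∀ i, u i ∈ Ω) →
    (∀ ε : ℝ≥0∞, 0 < ε → ∃ N, ∀ i ≥ N, ∀ j ≥ N, ρ (u i) (u j) < ε) →
      ∃ p ∈ Ω, Tendsto (fun i => ρ (u i) p) atTop (𝓝 0)

/-- There is a map from `Ω` to a simplicial complex of dimension at most `d`, with continuous
barycentric coordinates, locally involving finitely many vertices, whose fibres have diameter at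
most `C` for the distance `ρ`. -/
def Width (Ω : Set M) (ρ : M → M → ℝ≥0∞) (d : ℕ) (C : ℝ) : Prop :=
  ∃ (V : Type) (K : PreAbstractSimplicialComplex V) (φ : M → V → ℝ),
    (∀ s ∈ K.faces, s.card ≤ d + 1) ∧ MapsTo φ Ω (realization K) ∧ ContinuousOn φ Ω ∧
    (∀ x ∈ Ω, ∃ t : Finset V, ∀ᶠ y in 𝓝[Ω] x, ∀ v, v ∉ t → φ y v = 0) ∧
    ∀ x ∈ Ω, ∀ y ∈ Ω, φ x = φ y → ρ x y ≤ ENNReal.ofReal C

end

end Vale.Agent.P210
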