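import Vale.Agent.P210.G.Defs
import Vale.Agent.P210.M.Stmt

/-! P210 M/Defs: working definitions for an embedded compact manifold `X ⊆ E N` of dimension `n`
(owner helper28). FROZEN. -/

namespace Vale.Agent.P210

open Set Filter Topology Metric MeasureTheory
open scoped ENNReal Manifold ContDiff

noncomputable section

variable {N : ℕ}

/-- Near `p` the set `X` is the graph `Φ` over the linear projection `P`. -/
structure Patch (n : ℕ) (X : Set (E N)) (K s : ℝ) (p : E N) (P : E N →L[ℝ] E n)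
    (Φ : E n → E N) : Prop where
  nP : ∀ z, ‖P z‖ ≤ K * ‖z‖
  sm : ContDiff ℝ 1 Φ
  mem : ∀ y ∈ ball (P p) (K * s), Φ y ∈ X
  nD : ∀ y ∈ ball (P p) (K * s), ‖fderiv ℝ Φ y‖ ≤ K
  left : ∀ y ∈ ball (P p) (K * s), P (Φ y) = y
  right : ∀ z ∈ X, dist z p < s → Φ (P z) = z

/-- Compact connected set with uniform patches. -/
structure Emb (n : ℕ) (X : Set (E N)) (K s : ℝ) : Prop where
  cpt : IsCompact X
  conn : IsPreconnected X
  K1 : 1 ≤ K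
  s0 : 0 < s
  patch : ∀ p ∈ X, ∃ P Φ, Patch n X K s p P Φ

/-- Relatively open domain with a positive continuous weight. -/
structure Dom2 (X Ω : Set (E N)) (w : E N → ℝ) : Prop where
  op : ∃ O, IsOpen O ∧ Ω = X ∩ O
  cont : ContinuousOn w Ω
  pos : ∀ x ∈ Ω, 0 < w x

/-- The reference measure. -/
def nu (n : ℕ) (X : Set (E N)) : Measure (E N) := (Measure.hausdorffMeasure n).restrict X

/-- Upper regularity. -/
def Up (ν : Measure (E N)) (n : ℕ) (Q : ℝ) : Prop :=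
  ∀ (x : E N) (r : ℝ), 0 < r → ν (ball x r) ≤ ENNReal.ofReal (Q * r ^ n)

/-- Lower regularity. -/
def Lo (ν : Measure (E N)) (n : ℕ) (X : Set (E N)) (Q s : ℝ) : Prop :=
  ∀ p ∈ X, ∀ r : ℝ, 0 < r → r ≤ s → ENNReal.ofReal (r ^ n / Q) ≤ ν (ball p r)

/-- Morrey bound for `v ^ 9`. -/
def Morrey2 (ν : Measure (E N)) (n : ℕ) (Ω : Set (E N)) (v : E N → ℝ) (A : ℝ) : Prop :=
  ∀ (x : E N) (τ : ℝ), 0 < τ → ∫⁻ y in ball x (τ ^ 4) ∩ Ω, ENNReal.ofReal (v y ^ 9) ∂ν ≤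
    ENNReal.ofReal (A * τ ^ (4 * n) / τ ^ 9)

/-- The `L^1` bound on balls. -/
def L1b2 (ν : Measure (E N)) (n : ℕ) (W : E N → ℝ≥0∞) (A : ℝ) : Prop :=
  ∀ (x : E N) (r : ℝ), 0 < r → ∫⁻ y in ball x r, W y ∂ν ≤ ENNReal.ofReal (A * r ^ n / r)

/-- The cost at scale `s` near `x`. -/
def lam2 (ν : Measure (E N)) (n : ℕ) (W : E N → ℝ≥0∞) (s : ℝ) (x : E N) : ℝ :=
  s / s ^ n * ∫ y, (W y).toReal * tent (dist y x / s) ∂ν

/-- The measure `v ^ 9 dν` on `Ω`. -/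
def mu2 (ν : Measure (E N)) (Ω : Set (E N)) (v : E N → ℝ) : Measure (E N) :=
  (ν.restrict Ω).withDensity fun y => ENNReal.ofReal (v y ^ 9)

/-- Comparison of averages of `F` at scales up to `s`. -/
def PI (ν : Measure (E N)) (n : ℕ) (X : Set (E N)) (W F : E N → ℝ≥0∞) (Q s : ℝ) : Prop :=
  ∀ p ∈ X, ∀ r : ℝ, 0 < r → r ≤ s → ∀ S S' : Set (E N), S ⊆ ball p r → S' ⊆ ball p r →
    (∫⁻ y in S, F y ∂ν) * ν S' ≤ (∫⁻ y in S', F y ∂ν) * ν S +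
      ENNReal.ofReal (Q * r * r ^ n) * ∫⁻ y in ball p (Q * r), W y ∂ν

/-- The curvature hypothesis, read in patches. -/
def Curv (n : ℕ) (X : Set (E N)) (K s L : ℝ) (Ω : Set (E N)) (f : E N → ℝ) : Prop :=
  ∀ p ∈ X, ∃ (P : E N →L[ℝ] E n) (Φ : E n → E N) (g : E n → Matrix (Fin n) (Fin n) ℝ)
    (h : E n → ℝ), Patch n X K s p P Φ ∧
    (∀ i j, ContDiffOn ℝ 3 (fun y => g y i j) (ball (P p) (K * s))) ∧
    (∀ y ∈ ball (P p) (K * s), Ell L (g y) ∧ scal g y ≤ L ∧ f (Φ y) = h y) ∧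
    ContDiffOn ℝ 2 h (ball (P p) (K * s) ∩ Φ ⁻¹' Ω) ∧
    ∀ y ∈ ball (P p) (K * s), Φ y ∈ Ω → 1 ≤ scal (cm h g) y

variable {n : ℕ} {M : Type} [TopologicalSpace M] [ChartedSpace (E n) M]

/-- An embedding with uniform patches given by charts. -/
structure Good (g : Form n M) (ι : M → E N) (K s L : ℝ) : Prop where
  sm : ContMDiff (𝓡 n) (𝓡 N) ∞ ι
  emb : IsClosedEmbedding ι
  K1 : 1 ≤ K
  s0 : 0 < s
  L0 : 0 < L
  patch : ∀ x : M, ∃ (c : M) (P : E N →L[ℝ] E n) (Φ : E n → E N),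
    Patch n (range ι) K s (ι x) P Φ ∧ ∀ y ∈ ball (P (ι x)) (K * s),
      y ∈ (chartAt (E n) c).target ∧ Φ y = ι ((chartAt (E n) c).symm y) ∧
        Ell L (coef g c y) ∧ scal (coef g c) y ≤ L

/-- The speed of a curve. -/
def spd (g : Form n M) (γ : ℝ → M) (t : ℝ) : ℝ :=
  √(g (γ t) (mfderiv 𝓘(ℝ, ℝ) (𝓡 n) γ t (1 : ℝ)) (mfderiv 𝓘(ℝ, ℝ) (𝓡 n) γ t (1 : ℝ)))

theorem Patch.mapP {n : ℕ} {X : Set (E N)} {K s : ℝ} {p : E N} {P : E N →L[ℝ] E n}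
    {Φ : E n → E N} (h : Patch n X K s p P Φ) (z z' : E N) : dist (P z) (P z') ≤ K * dist z z' := by
  rw [dist_eq_norm, dist_eq_norm, ← map_sub]
  exact h.nP _

theorem Patch.lip {n : ℕ} {X : Set (E N)} {K s : ℝ} {p : E N} {P : E N →L[ℝ] E n}
    {Φ : E n → E N} (h : Patch n X K s p P Φ) {y y' : E n} (hy : y ∈ ball (P p) (K * s))
    (hy' : y' ∈ ball (P p) (K * s)) : dist (Φ y) (Φ y') ≤ K * dist y y' := by
  rw [dist_eq_norm, dist_eq_norm]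
  exact (convex_ball _ _).norm_image_sub_le_of_norm_fderiv_le
    (fun z _ => h.sm.differentiable one_ne_zero z) h.nD hy' hy

theorem Dom2.sub {X Ω : Set (E N)} {w : E N → ℝ} (h : Dom2 X Ω w) : Ω ⊆ X := by
  obtain ⟨O, -, rfl⟩ := h.op
  exact inter_subset_left

theorem Dom2.meas {X Ω : Set (E N)} {w : E N → ℝ} (h : Dom2 X Ω w) (hX : IsCompact X) :
    MeasurableSet Ω := by
  obtain ⟨O, hO, rfl⟩ := h.op
  exact hX.measurableSet.inter hO.measurableSet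

theorem Dom2.nhds {X Ω : Set (E N)} {w : E N → ℝ} (h : Dom2 X Ω w) {x : E N} (hx : x ∈ Ω) :
    Ω ∈ 𝓝[X] x := by
  obtain ⟨O, hO, rfl⟩ := h.op
  exact inter_mem_nhdsWithin X (hO.mem_nhds hx.2)

end

end Vale.Agent.P210
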