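import Vale.Agent.P210.M.Defs

/-! P210 M/EmbA: Whitney embedding with linear local inverses (helper names end with _EmbA). Follow Mathlib/Geometry/Manifold/WhitneyEmbedding.lean (`exists_embedding_euclidean_of_compact`, `exists_immersion_euclidean`; if `embeddingPiTangent` is not public, redefine it): `f` from `SmoothBumpCovering.exists_isSubordinate`, `f.fintype`,
`e x i = (f i x • extChartAt (f.c i) x, f i x)`, `ι = T ∘ e` with `T = toEuclidean` (or `ContinuousLinearEquiv.ofFinrankEq`), `c = f.c (f.ind x _)`, `P = fst ∘ proj i ∘ T.symm`, `f.eventuallyEq_one`, `f.mem_chartAt_ind_source`; `extChartAt_coe`, `modelWithCornersSelf_coe`. -/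

namespace Vale.Agent.P210

open Set Filter Topology Metric MeasureTheory
open scoped ENNReal Manifold ContDiff

noncomputable section

variable {n N : ℕ} {M : Type} [TopologicalSpace M] [ChartedSpace (E n) M]
  [IsManifold (𝓡 n) ∞ M]

theorem exists_iota [T2Space M] [CompactSpace M] : ∃ (N : ℕ) (ι : M → E N),
    ContMDiff (𝓡 n) (𝓡 N) ∞ ι ∧ IsClosedEmbedding ι ∧ ∀ x : M, ∃ (c : M) (P : E N →L[ℝ] E n),
      x ∈ (chartAt (E n) c).source ∧ ∀ᶠ z in 𝓝 x, P (ι z) = chartAt (E n) c z := by
  obtain ⟨κ, f, -⟩ := SmoothBumpCovering.exists_isSubordinate (M := M) (𝓡 n) isClosed_univ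
    fun (x : M) _ => univ_mem
  have := f.fintype
  let e : M → κ → E n × ℝ := fun x i => (f i x • extChartAt (𝓡 n) (f.c i) x, f i x)
  have he : ContMDiff (𝓡 n) 𝓘(ℝ, κ → E n × ℝ) ∞ e := contMDiff_pi_space.2 fun i =>
    ((f i).contMDiff_smul contMDiffOn_extChartAt).prodMk_space (f i).contMDiff
  have hi : Function.Injective e := fun x y h => by
    obtain ⟨h₁, h₂⟩ := Prod.mk_inj.1 (congrFun h (f.ind x trivial))
    rw [f.apply_ind x trivial] at h₂
    rw [← h₂, f.apply_ind x trivial, one_smul, one_smul] at h₁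
    exact (extChartAt (𝓡 n) (f.c _)).injOn (f.mem_extChartAt_ind_source x trivial)
      (f.mem_extChartAt_source_of_eq_one h₂.symm) h₁
  let T : (κ → E n × ℝ) ≃L[ℝ] E (Module.finrank ℝ (κ → E n × ℝ)) :=
    ContinuousLinearEquiv.ofFinrankEq finrank_euclideanSpace_fin.symm
  have hs : ContMDiff (𝓡 n) (𝓡 (Module.finrank ℝ (κ → E n × ℝ))) ∞ (T ∘ e) :=
    T.toDiffeomorph.contMDiff.comp he
  refine ⟨_, T ∘ e, hs, hs.continuous.isClosedEmbedding (T.injective.comp hi), fun x =>
    ⟨f.c (f.ind x trivial), ((ContinuousLinearMap.fst ℝ (E n) ℝ).comp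
      (ContinuousLinearMap.proj (R := ℝ) (φ := fun _ : κ => E n × ℝ) (f.ind x trivial))).comp
        T.symm.toContinuousLinearMap, f.mem_chartAt_ind_source x trivial, ?_⟩⟩
  refine (f.eventuallyEq_one x trivial).mono fun z hz => ?_
  change (T.symm (T (e z)) (f.ind x trivial)).1 = _
  rw [T.symm_apply_apply]
  change f (f.ind x trivial) z • extChartAt (𝓡 n) (f.c (f.ind x trivial)) z = _
  rw [hz, Pi.one_apply, one_smul]
  rfl

end

end Vale.Agent.P210
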