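import Vale.Agent.P210.M.Defs
import Vale.Agent.P210.G.ConfA

/-! P210 M/EmbB: ellipticity on compact parts of a chart (helper names end with _EmbB). `qf_coef`: expand `u = ∑ i, u i • single i 1`, linearity. `D = mfderiv (chartAt c).symm y` is injective (`mdifferentiable_chart`, `OpenPartialHomeomorph.MDifferentiable.mfderiv_injective`, `.symm`), so `qf (coef g c y) u u > 0` for `u ≠ 0`.
`ell_compact`: `(y, u) ↦ qf (coef g c y) u u` is continuous and positive on the compact set `B ×ˢ sphere 0 1`, so it lies between positive constants; homogeneity. A positive definite matrix has nonzero determinant (`Matrix.exists_mulVec_eq_zero_iff`), so `Sm (coef g c) y` and `Sm.scal_cont` bound `scal` on `B`. -/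

namespace Vale.Agent.P210

open Set Filter Topology Metric MeasureTheory
open scoped ENNReal Manifold ContDiff

noncomputable section

variable {n N : ℕ} {M : Type} [TopologicalSpace M] [ChartedSpace (E n) M]
  [IsManifold (𝓡 n) ∞ M]

theorem bil_EmbB {V : Type} [AddCommGroup V] [Module ℝ V] [TopologicalSpace V]
    (G : V →L[ℝ] V →L[ℝ] ℝ) (D : E n →L[ℝ] V) (u : E n) :
    qf (fun i j => G (D (EuclideanSpace.single i 1)) (D (EuclideanSpace.single j 1))) u u =
      G (D u) (D u) := by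
  have h1 : u = ∑ i, u i • EuclideanSpace.single i (1 : ℝ) := by
    have h := (EuclideanSpace.basisFun (Fin n) ℝ).sum_repr u
    simp only [EuclideanSpace.basisFun_repr, EuclideanSpace.basisFun_apply] at h
    exact h.symm
  have h2 : D u = ∑ i, u i • D (EuclideanSpace.single i (1 : ℝ)) := by
    conv_lhs => rw [h1]
    rw [map_sum]
    exact Finset.sum_congr rfl fun i _ => map_smul D _ _
  rw [h2, map_sum G, ContinuousLinearMap.sum_apply]
  unfold qf
  refine Finset.sum_congr rfl fun i _ => ?_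
  rw [map_sum]
  refine Finset.sum_congr rfl fun j _ => ?_
  rw [map_smul, map_smul, ContinuousLinearMap.smul_apply, smul_eq_mul, smul_eq_mul]
  ring

theorem hom_EmbB (a : Matrix (Fin n) (Fin n) ℝ) (t : ℝ) (w : E n) :
    qf a (t • w : E n) (t • w : E n) = t ^ 2 * qf a w w := by
  unfold qf
  rw [Finset.mul_sum]
  refine Finset.sum_congr rfl fun i _ => ?_
  rw [Finset.mul_sum]
  refine Finset.sum_congr rfl fun j _ => ?_
  simp only [PiLp.smul_apply, smul_eq_mul]
  ring

theorem unit_EmbB (v : E n) (hv : v ≠ 0) : ∃ w : E n, ‖w‖ = 1 ∧ v = ‖v‖ • w := by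
  have h : ‖v‖ ≠ 0 := norm_ne_zero_iff.2 hv
  refine ⟨‖v‖⁻¹ • v, ?_, ?_⟩
  · rw [norm_smul, norm_inv, norm_norm, inv_mul_cancel₀ h]
  · rw [smul_smul, mul_inv_cancel₀ h, one_smul]

theorem ell_EmbB {a : Matrix (Fin n) (Fin n) ℝ} (hs : a.IsSymm) {m C L : ℝ} (hm : 0 < m)
    (h : ∀ w : E n, ‖w‖ = 1 → m ≤ qf a w w ∧ qf a w w ≤ C) (h1 : (√m)⁻¹ ≤ L) (h2 : √C ≤ L) :
    Ell L a := by
  have hq : 0 < √m := Real.sqrt_pos.2 hm
  have hL : 0 ≤ L := le_trans (Real.sqrt_nonneg _) h2
  have key : ∀ v : E n, v ≠ 0 → √m * ‖v‖ ≤ √(qf a v v) ∧ √(qf a v v) ≤ √C * ‖v‖ := by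
    intro v hv
    obtain ⟨w, hw, hvw⟩ := unit_EmbB v hv
    have h3 : √(qf a v v) = √(qf a w w) * ‖v‖ := by
      have h4 := hom_EmbB a ‖v‖ w
      rw [← hvw] at h4
      rw [h4, Real.sqrt_mul (sq_nonneg _), Real.sqrt_sq (norm_nonneg _), mul_comm]
    rw [h3]
    exact ⟨mul_le_mul_of_nonneg_right (Real.sqrt_le_sqrt (h w hw).1) (norm_nonneg _),
      mul_le_mul_of_nonneg_right (Real.sqrt_le_sqrt (h w hw).2) (norm_nonneg _)⟩
  refine ⟨hs, fun v => ?_, fun v => ?_⟩
  · by_cases hv : v = 0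
    · rw [hv, norm_zero]
      exact mul_nonneg hL (Real.sqrt_nonneg _)
    · calc ‖v‖ = (√m)⁻¹ * (√m * ‖v‖) := by rw [← mul_assoc, inv_mul_cancel₀ hq.ne', one_mul]
        _ ≤ L * √(qf a v v) := mul_le_mul h1 (key v hv).1 (by positivity) hL
  · by_cases hv : v = 0
    · have h5 := hom_EmbB a 0 v
      rw [zero_smul] at h5
      rw [hv, h5]
      simp
    · exact (key v hv).2.trans (mul_le_mul_of_nonneg_right h2 (norm_nonneg _))

theorem det_EmbB {a : Matrix (Fin n) (Fin n) ℝ} (h : ∀ w : E n, w ≠ 0 → 0 < qf a w w) :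
    a.det ≠ 0 := by
  intro hd
  obtain ⟨v, hv, hz⟩ := Matrix.exists_mulVec_eq_zero_iff.2 hd
  have h1 : (WithLp.toLp 2 v : E n) ≠ 0 := fun h0 => hv (congrArg WithLp.ofLp h0)
  have h2 : 0 < qf a v v := h _ h1
  have h3 : qf a v v = ∑ i, v i * a.mulVec v i := by
    unfold qf
    refine Finset.sum_congr rfl fun i _ => ?_
    rw [Matrix.mulVec, dotProduct, Finset.mul_sum]
    exact Finset.sum_congr rfl fun j _ => by ring
  rw [h3, hz] at h2
  simp at h2

theorem qf_coef (g : Form n M) (c : M) (y u : E n) : qf (coef g c y) u u =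
    g ((chartAt (E n) c).symm y) (mfderiv (𝓡 n) (𝓡 n) (chartAt (E n) c).symm y u)
      (mfderiv (𝓡 n) (𝓡 n) (chartAt (E n) c).symm y u) := by
  exact bil_EmbB (g ((chartAt (E n) c).symm y)) (mfderiv (𝓡 n) (𝓡 n) (chartAt (E n) c).symm y) u

theorem ell_compact {g : Form n M} (hg : IsRiem g) (c : M) {B : Set (E n)} (hB : IsCompact B)
    (hs : B ⊆ (chartAt (E n) c).target) : ∃ L₀ : ℝ, ∀ L, L₀ ≤ L → ∀ y ∈ B,
      Ell L (coef g c y) ∧ scal (coef g c) y ≤ L := by
  have hpos : ∀ y ∈ (chartAt (E n) c).target, ∀ u : E n, u ≠ 0 → 0 < qf (coef g c y) u u := by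
    intro y hy u hu
    rw [qf_coef]
    refine hg.pos _ _ fun h0 => hu ?_
    have hinj := (mdifferentiable_chart (I := 𝓡 n) c).symm.mfderiv_injective (x := y) hy
    exact hinj (h0.trans (map_zero _).symm)
  have hsym : ∀ y, (coef g c y).IsSymm := fun y => Matrix.IsSymm.ext fun i j => hg.symm _ _ _
  have hK : IsCompact (B ×ˢ sphere (0 : E n) 1) := hB.prod (isCompact_sphere _ _)
  have hc : ContinuousOn (fun p : E n × E n => qf (coef g c p.1) p.2 p.2)
      (B ×ˢ sphere (0 : E n) 1) := by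
    unfold qf
    refine continuousOn_finsetSum _ fun i _ => continuousOn_finsetSum _ fun j _ => ?_
    have h1 : ContinuousOn (fun p : E n × E n => coef g c p.1 i j) (B ×ˢ sphere (0 : E n) 1) :=
      (hg.smooth c i j).continuousOn.comp (f := Prod.fst) continuousOn_fst fun p hp => hs hp.1
    have h2 : ∀ k, Continuous fun p : E n × E n => p.2 k := fun k => by fun_prop
    exact (h1.mul (h2 i).continuousOn).mul (h2 j).continuousOn
  obtain ⟨m, hm, hlo⟩ := hK.exists_forall_le' hc (a := 0) fun p hp =>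
    hpos p.1 (hs hp.1) p.2 (by
      intro h0
      have h1 := mem_sphere_zero_iff_norm.1 hp.2
      rw [h0, norm_zero] at h1
      exact zero_ne_one h1)
  obtain ⟨C, hC⟩ := hK.exists_bound_of_continuousOn hc
  have hsc : ContinuousOn (scal (coef g c)) B := by
    intro y hy
    refine ContinuousAt.continuousWithinAt (Sm.scal_cont ⟨fun i j => ?_,
      Eventually.of_forall hsym, det_EmbB (hpos y (hs hy))⟩)
    exact ((hg.smooth c i j).contDiffAt ((chartAt (E n) c).open_target.mem_nhds (hs hy))).of_le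
      (WithTop.coe_le_coe.2 (le_top : (3 : ℕ∞) ≤ ⊤))
  obtain ⟨S, hS⟩ := hB.exists_bound_of_continuousOn hsc
  refine ⟨max (max (√m)⁻¹ √C) S, fun L hL y hy => ⟨?_, ?_⟩⟩
  · refine ell_EmbB (hsym y) hm (C := C) (fun w hw => ?_)
      ((le_max_left _ _).trans ((le_max_left _ _).trans hL))
      ((le_max_right _ _).trans ((le_max_left _ _).trans hL))
    have h1 : (y, w) ∈ B ×ˢ sphere (0 : E n) 1 := ⟨hy, mem_sphere_zero_iff_norm.2 hw⟩
    have h2 : m ≤ qf (coef g c y) w w := hlo (y, w) h1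
    have h3 : ‖qf (coef g c y) w w‖ ≤ C := hC (y, w) h1
    rw [Real.norm_eq_abs] at h3
    exact ⟨h2, (le_abs_self _).trans h3⟩
  · have h3 := hS y hy
    rw [Real.norm_eq_abs] at h3
    exact ((le_abs_self _).trans h3).trans ((le_max_right _ _).trans hL)

end

end Vale.Agent.P210
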