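import Vale.Agent.P210.M.EmbA
import Vale.Agent.P210.M.EmbB

/-! P210 M/EmbC: uniform patches (helper names end with _EmbC). At `x₀` take `c`, `P` from `exists_iota`, `e = chartAt c`, `y₀ = e x₀`, `ρ > 0` with `closedBall y₀ (4 ρ) ⊆ e.target` and `P (ι (e.symm y)) = y` on it. `ι ∘ e.symm` is `ContDiffOn` on `e.target` (`contMDiffOn_chart_symm`, `contMDiffOn_iff_contDiffOn`);
`Φ = χ • (ι ∘ e.symm)` with `χ : ContDiffBump y₀`, radii `2 ρ < 3 ρ`, is globally `C^1` (`contDiff_of_tsupport` or pointwise) and `fderiv Φ` is bounded on `closedBall y₀ (2 ρ)`. `L₀` from `ell_compact`. Since `ι` is an embedding there is `δ > 0` such that `dist (ι z) (ι x₀) < δ` implies `z ∈ e.source`, `e z ∈ ball y₀ ρ`, `P (ι z) = e z`.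
State this local result first: for all `K ≥ K₀`, `L ≥ L₀`, `s ≤ δ / 2` with `K s ≤ ρ`, and all `x` with `dist (ι x) (ι x₀) < δ / 2`, the field `Good.patch` holds at `x`. Then take a finite subcover (`CompactSpace.elim_nhds_subcover`) and maxima and minima (`Finset.exists_le`, sums). -/

namespace Vale.Agent.P210

open Set Filter Topology Metric MeasureTheory
open scoped ENNReal Manifold ContDiff

noncomputable section

variable {n N : ℕ} {M : Type} [TopologicalSpace M] [ChartedSpace (E n) M]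
  [IsManifold (𝓡 n) ∞ M]

theorem bump_EmbC {F : E n → E N} {y₀ : E n} {ρ : ℝ} (hρ : 0 < ρ)
    (hF : ContDiffOn ℝ 1 F (ball y₀ (4 * ρ))) : ∃ (Φ : E n → E N) (K₀ : ℝ), ContDiff ℝ 1 Φ ∧
      ∀ y ∈ ball y₀ (2 * ρ), Φ y = F y ∧ ‖fderiv ℝ Φ y‖ ≤ K₀ := by
  let χ : ContDiffBump y₀ := ⟨2 * ρ, 3 * ρ, by positivity, by linarith⟩
  have hΦ : ContDiff ℝ 1 (fun y => χ y • F y) := by
    rw [contDiff_iff_contDiffAt]
    intro y
    by_cases hy : y ∈ ball y₀ (4 * ρ)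
    · exact χ.contDiff.contDiffAt.smul (hF.contDiffAt (isOpen_ball.mem_nhds hy))
    · have h3 : y ∉ tsupport χ := by
        rw [χ.tsupport_eq]
        intro h
        apply hy
        rw [mem_closedBall] at h
        rw [mem_ball]
        change dist y y₀ ≤ 3 * ρ at h
        linarith
      have h4 : (fun y => χ y • F y) =ᶠ[𝓝 y] fun _ => 0 := by
        filter_upwards [notMem_tsupport_iff_eventuallyEq.1 h3] with z hz
        simp [hz]
      exact contDiffAt_const.congr_of_eventuallyEq h4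
  obtain ⟨K₀, hK₀⟩ := (isCompact_closedBall y₀ (2 * ρ)).exists_bound_of_continuousOn
    (hΦ.continuous_fderiv one_ne_zero).continuousOn
  refine ⟨fun y => χ y • F y, K₀, hΦ, fun y hy => ⟨?_, hK₀ y (ball_subset_closedBall hy)⟩⟩
  have : χ y = 1 := χ.one_of_mem_closedBall (ball_subset_closedBall hy)
  simp [this]

theorem local_EmbC {g : Form n M} (hg : IsRiem g) {ι : M → E N}
    (hι : ContMDiff (𝓡 n) (𝓡 N) ∞ ι) (he : IsClosedEmbedding ι) (x₀ c : M) (P : E N →L[ℝ] E n)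
    (hx : x₀ ∈ (chartAt (E n) c).source) (hP : ∀ᶠ z in 𝓝 x₀, P (ι z) = chartAt (E n) c z) :
    ∃ K₀ L₀ ρ δ : ℝ, 0 < ρ ∧ 0 < δ ∧ ∀ K L s : ℝ, K₀ ≤ K → L₀ ≤ L → s ≤ δ → K * s ≤ ρ →
      ∀ x : M, dist (ι x) (ι x₀) < δ → ∃ (c : M) (P : E N →L[ℝ] E n) (Φ : E n → E N),
        Patch n (range ι) K s (ι x) P Φ ∧ ∀ y ∈ ball (P (ι x)) (K * s),
          y ∈ (chartAt (E n) c).target ∧ Φ y = ι ((chartAt (E n) c).symm y) ∧
            Ell L (coef g c y) ∧ scal (coef g c) y ≤ L := by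
  set e := chartAt (E n) c with hedef
  have hy₀ : e x₀ ∈ e.target := e.map_source hx
  have h1 : ∀ᶠ y in 𝓝 (e x₀), y ∈ e.target ∧ P (ι (e.symm y)) = y := by
    have h2 : Tendsto e.symm (𝓝 (e x₀)) (𝓝 x₀) := by
      have := e.continuousAt_symm hy₀
      rwa [ContinuousAt, e.left_inv hx] at this
    filter_upwards [e.open_target.mem_nhds hy₀, h2.eventually hP] with y hy hy2
    exact ⟨hy, by rw [hy2, e.right_inv hy]⟩
  obtain ⟨r, hr, hr'⟩ := Metric.eventually_nhds_iff_ball.1 h1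
  obtain ⟨ρ, hρ, hρr⟩ : ∃ ρ : ℝ, 0 < ρ ∧ 4 * ρ ≤ r := ⟨r / 4, by positivity, by linarith⟩
  have hsub : ∀ y ∈ ball (e x₀) (4 * ρ), y ∈ e.target ∧ P (ι (e.symm y)) = y :=
    fun y hy => hr' y (ball_subset_ball hρr hy)
  have hF : ContDiffOn ℝ 1 (fun y => ι (e.symm y)) (ball (e x₀) (4 * ρ)) := by
    have h3 : ContMDiffOn (𝓡 n) (𝓡 N) ∞ (fun y => ι (e.symm y)) e.target :=
      hι.comp_contMDiffOn contMDiffOn_chart_symm
    have h4 := contMDiffOn_iff_contDiffOn.1 h3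
    exact (h4.mono fun y hy => (hsub y hy).1).of_le (by exact_mod_cast le_top)
  obtain ⟨Φ, K₁, hΦ, hΦ'⟩ := bump_EmbC hρ hF
  have hcb : closedBall (e x₀) (2 * ρ) ⊆ ball (e x₀) (4 * ρ) :=
    closedBall_subset_ball (by linarith)
  obtain ⟨L₀, hL₀⟩ := ell_compact hg c (isCompact_closedBall (e x₀) (2 * ρ))
    (fun y hy => (hsub y (hcb hy)).1)
  have h5 : ∀ᶠ z in 𝓝 x₀, z ∈ e.source ∧ e z ∈ ball (e x₀) ρ ∧ P (ι z) = e z := by
    filter_upwards [e.open_source.mem_nhds hx, hP,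
      (e.continuousAt hx).eventually (ball_mem_nhds (e x₀) hρ)] with z h h' h''
    exact ⟨h, h'', h'⟩
  rw [he.isEmbedding.isInducing.nhds_eq_comap, eventually_comap] at h5
  obtain ⟨δ, hδ, hδ'⟩ := Metric.eventually_nhds_iff_ball.1 h5
  refine ⟨max K₁ ‖P‖, L₀, ρ, δ / 2, hρ, by positivity, ?_⟩
  intro K L s hK hL hs hKs x hxd
  have hxx := hδ' (ι x) (mem_ball.2 (by linarith)) x rfl
  have hball : ∀ y ∈ ball (P (ι x)) (K * s), y ∈ ball (e x₀) (2 * ρ) := by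
    intro y hy
    rw [hxx.2.2, mem_ball] at hy
    have h6 := mem_ball.1 hxx.2.1
    have h7 := dist_triangle y (e x) (e x₀)
    rw [mem_ball]
    linarith
  have h24 : ∀ y ∈ ball (e x₀) (2 * ρ), y ∈ ball (e x₀) (4 * ρ) :=
    fun y hy => hcb (ball_subset_closedBall hy)
  refine ⟨c, P, Φ, ⟨fun z => ?_, hΦ, fun y hy => ?_, fun y hy => ?_, fun y hy => ?_, ?_⟩,
    fun y hy => ⟨(hsub y (h24 y (hball y hy))).1, (hΦ' y (hball y hy)).1,
      hL₀ L hL y (ball_subset_closedBall (hball y hy))⟩⟩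
  · exact (P.le_opNorm z).trans
      (mul_le_mul_of_nonneg_right ((le_max_right _ _).trans hK) (norm_nonneg _))
  · rw [(hΦ' y (hball y hy)).1]
    exact mem_range_self _
  · exact (hΦ' y (hball y hy)).2.trans ((le_max_left _ _).trans hK)
  · rw [(hΦ' y (hball y hy)).1]
    exact (hsub y (h24 y (hball y hy))).2
  · rintro _ ⟨z, rfl⟩ hz
    have h7 := dist_triangle (ι z) (ι x) (ι x₀)
    have hzz := hδ' (ι z) (mem_ball.2 (by linarith)) z rfl
    have h8 : e z ∈ ball (e x₀) (2 * ρ) := ball_subset_ball (by linarith) hzz.2.1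
    rw [hzz.2.2, (hΦ' _ h8).1, e.left_inv hzz.1]

theorem exists_good [T2Space M] [CompactSpace M] {g : Form n M} (hg : IsRiem g) :
    ∃ (N : ℕ) (ι : M → E N) (K s L : ℝ), Good g ι K s L := by
  obtain ⟨N, ι, hι, he, hloc⟩ := exists_iota (n := n) (M := M)
  have h1 := fun x₀ : M => local_EmbC hg hι he x₀ (hloc x₀).choose
    (hloc x₀).choose_spec.choose (hloc x₀).choose_spec.choose_spec.1
    (hloc x₀).choose_spec.choose_spec.2
  choose K₀ L₀ ρ δ hρ hδ hmain using h1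
  obtain ⟨t, ht⟩ := CompactSpace.elim_nhds_subcover
    (fun x₀ : M => ι ⁻¹' ball (ι x₀) (δ x₀))
    (fun x₀ => he.continuous.continuousAt.preimage_mem_nhds (ball_mem_nhds _ (hδ x₀)))
  obtain ⟨K, hK1, hK⟩ : ∃ K : ℝ, 1 ≤ K ∧ ∀ x ∈ t, K₀ x ≤ K := by
    refine ⟨1 + ∑ x ∈ t, |K₀ x|, ?_, fun x hx => ?_⟩
    · have := Finset.sum_nonneg (s := t) fun x _ => abs_nonneg (K₀ x)
      linarith
    · have := Finset.single_le_sum (s := t) (fun x _ => abs_nonneg (K₀ x)) hx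
      linarith [le_abs_self (K₀ x)]
  obtain ⟨L, hL1, hL⟩ : ∃ L : ℝ, 1 ≤ L ∧ ∀ x ∈ t, L₀ x ≤ L := by
    refine ⟨1 + ∑ x ∈ t, |L₀ x|, ?_, fun x hx => ?_⟩
    · have := Finset.sum_nonneg (s := t) fun x _ => abs_nonneg (L₀ x)
      linarith
    · have := Finset.single_le_sum (s := t) (fun x _ => abs_nonneg (L₀ x)) hx
      linarith [le_abs_self (L₀ x)]
  obtain ⟨s, hs0, hs⟩ : ∃ s : ℝ, 0 < s ∧ ∀ x ∈ t, s ≤ δ x ∧ K * s ≤ ρ x := by
    have h2 : ∀ᶠ s : ℝ in 𝓝[>] 0, ∀ x ∈ t, s ≤ δ x ∧ K * s ≤ ρ x := by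
      rw [Filter.eventually_all_finset]
      intro x _
      have h3 : ∀ᶠ s : ℝ in 𝓝 0, s ≤ δ x := eventually_le_nhds (hδ x)
      have h4 : ∀ᶠ s : ℝ in 𝓝 0, K * s ≤ ρ x := by
        have h5 : Tendsto (fun s : ℝ => K * s) (𝓝 0) (𝓝 0) := by
          have h6 : Continuous fun s : ℝ => K * s := by fun_prop
          simpa using h6.tendsto 0
        exact h5.eventually (eventually_le_nhds (hρ x))
      exact nhdsWithin_le_nhds (h3.and h4)
    obtain ⟨s, hs, hs'⟩ := (h2.and self_mem_nhdsWithin).exists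
    exact ⟨s, hs', hs⟩
  refine ⟨N, ι, K, s, L, hι, he, hK1, hs0, by linarith, fun x => ?_⟩
  have hx : x ∈ ⋃ x₀ ∈ t, ι ⁻¹' ball (ι x₀) (δ x₀) := by rw [ht]; trivial
  simp only [mem_iUnion] at hx
  obtain ⟨x₀, hx₀, hx⟩ := hx
  exact hmain x₀ K L s (hK x₀ hx₀) (hL x₀ hx₀) (hs x₀ hx₀).1 (hs x₀ hx₀).2 x hx

end

end Vale.Agent.P210
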