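import Vale.Agent.P210.M.HRA
import Vale.Agent.P210.HR

/-! P210 M/HR: Hopf-Rinow, port of P210/HR.lean (helper names end with _MHR). Replace `𝓝 p` by `𝓝[X] p` where upper bounds for `dd` are used (`dd_loc2`, `dd_open2`); all points at finite distance lie in `Ω ⊆ X` and `X` is closed.
Compact neighbourhoods: for compact `B ⊆ Ω = X ∩ O` take `X ∩ cthickening δ B` with `cthickening δ B ⊆ O` (`IsCompact.exists_cthickening_subset_open`); finite subcovers by `IsCompact.elim_nhdsWithin_subcover` or open sets `O'` with `X ∩ O' ⊆ _`. -/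

namespace Vale.Agent.P210

open Set Filter Topology Metric MeasureTheory
open scoped ENNReal

noncomputable section

variable {N n : ℕ} {X Ω : Set (E N)} {w : E N → ℝ} {K s : ℝ}

theorem near_MHR (hX : Emb n X K s) (hD : Dom2 X Ω w) {p : E N} (hp : p ∈ Ω) {ε : ℝ≥0∞} (hε : 0 < ε) :
    {y | dd Ω w p y < ε} ∈ 𝓝[X] p :=
  dd_open2 hX hD (by rw [dd_self hp]; exact hε)

theorem ball_MHR (hD : Dom2 X Ω w) {p : E N} (hp : p ∈ Ω) {U : Set (E N)} (hU : U ∈ 𝓝 p) :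
    ∃ r : ℝ, 0 < r ∧ closedBall p r ⊆ U ∧ X ∩ closedBall p r ⊆ Ω := by
  obtain ⟨O, hO, rfl⟩ := hD.op
  obtain ⟨r, hr, hb⟩ := nhds_basis_closedBall.mem_iff.1 (inter_mem hU (hO.mem_nhds hp.2))
  exact ⟨r, hr, hb.trans inter_subset_left,
    inter_subset_inter_right _ (hb.trans inter_subset_right)⟩

theorem low_MHR (hX : Emb n X K s) (hD : Dom2 X Ω w) {p : E N} (hp : p ∈ Ω) {U : Set (E N)} (hU : U ∈ 𝓝 p) :
    ∃ e : ℝ, 0 < e ∧ ∀ y, dd Ω w p y < ENNReal.ofReal e → y ∈ U := by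
  obtain ⟨r, hr, hb, hb'⟩ := ball_MHR hD hp hU
  obtain ⟨c, hc, h⟩ := dd_low2 hX.cpt hD hp hr hb'
  refine ⟨c * r, mul_pos hc hr, fun y hy => ?_⟩
  by_contra hn
  have h1 : r ≤ dist y p := by
    by_contra h2
    exact hn (hb (mem_closedBall.2 (not_le.1 h2).le))
  have h2 := h p y
  rw [min_eq_right h1, dist_self, min_eq_left hr.le, sub_zero] at h2
  exact absurd hy (not_lt.2 h2)

theorem clo_MHR (hX : Emb n X K s) (hD : Dom2 X Ω w) {x p : E N} {R : ℝ} (hp : p ∈ Ω)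
    (h : p ∈ closure {y | dd Ω w x y ≤ ENNReal.ofReal R}) : dd Ω w x p ≤ ENNReal.ofReal R := by
  refine ENNReal.le_of_forall_pos_le_add fun ε hε _ => ?_
  obtain ⟨U, hU, hs⟩ := mem_nhdsWithin_iff_exists_mem_nhds_inter.1
    (near_MHR hX hD hp (ENNReal.coe_pos.2 hε))
  obtain ⟨y, h0, h2⟩ := mem_closure_iff_nhds.1 h _ hU
  have h1 := hs ⟨h0, hD.sub (sub_HR h2)⟩
  refine (dd_tri x y p).trans (add_le_add h2 ?_)
  have h3 := dd_symm (Ω := Ω) (w := w) y p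
  exact h3.trans_le (le_of_lt h1)

theorem cpt_MHR (hX : Emb n X K s) (hD : Dom2 X Ω w) {x : E N} {R : ℝ} {C : Set (E N)} (hC : IsCompact C) (h1 : C ⊆ Ω)
    (h2 : {y | dd Ω w x y ≤ ENNReal.ofReal R} ⊆ C) :
    IsCompact {y | dd Ω w x y ≤ ENNReal.ofReal R} :=
  hC.of_isClosed_subset (isClosed_of_closure_subset fun _ hp =>
    clo_MHR hX hD (h1 (closure_minimal h2 hC.isClosed hp)) hp) h2

theorem spl_MHR (hD : Dom2 X Ω w) {x y : E N} {R R' η : ℝ} (h0 : 0 ≤ R) (h1 : R ≤ R') (hη : 0 < η)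
    (h : dd Ω w x y ≤ ENNReal.ofReal R') :
    ∃ z, dd Ω w x z ≤ ENNReal.ofReal R ∧ dd Ω w z y ≤ ENNReal.ofReal (R' - R + η) := by
  have h2 : dd Ω w x y < ENNReal.ofReal (R' + η) :=
    h.trans_lt ((ENNReal.ofReal_lt_ofReal_iff (by linarith)).2 (by linarith))
  obtain ⟨a, h3⟩ := iInf_lt_iff.1 h2
  obtain ⟨ha, h4⟩ := iInf_lt_iff.1 h3
  have h5 : a < R' + η := (ENNReal.ofReal_lt_ofReal_iff (by linarith)).1 h4
  rcases le_total a R with h6 | h6
  · refine ⟨y, ha.le.trans (ENNReal.ofReal_le_ofReal h6), ?_⟩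
    rw [dd_self ha.mem.2]
    exact zero_le
  · obtain ⟨z, k1, k2⟩ := ha.split2 hD h0 h6
    exact ⟨z, k1.le, k2.le.trans (ENNReal.ofReal_le_ofReal (by linarith))⟩

theorem unif_MHR (hX : Emb n X K s) (hD : Dom2 X Ω w) {B : Set (E N)} (hK : IsCompact B)
    (hs : B ⊆ Ω) :
    ∃ C, IsCompact C ∧ C ⊆ Ω ∧ ∃ e : ℝ, 0 < e ∧
      ∀ z ∈ B, ∀ y, dd Ω w z y < ENNReal.ofReal e → y ∈ C := by
  refine hK.induction_on (p := fun s => ∃ C, IsCompact C ∧ C ⊆ Ω ∧ ∃ e : ℝ, 0 < e ∧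
      ∀ z ∈ s, ∀ y, dd Ω w z y < ENNReal.ofReal e → y ∈ C) ?_ ?_ ?_ ?_
  · exact ⟨∅, isCompact_empty, empty_subset _, 1, one_pos, fun z hz => hz.elim⟩
  · rintro s t hst ⟨C, h1, h2, e, h3, h4⟩
    exact ⟨C, h1, h2, e, h3, fun z hz => h4 z (hst hz)⟩
  · rintro s t ⟨C, h1, h2, e, h3, h4⟩ ⟨C', h1', h2', e', h3', h4'⟩
    refine ⟨C ∪ C', h1.union h1', union_subset h2 h2', min e e', lt_min h3 h3', ?_⟩
    rintro z (hz | hz) y hy
    · exact Or.inl (h4 z hz y (hy.trans_le (ENNReal.ofReal_le_ofReal (min_le_left _ _))))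
    · exact Or.inr (h4' z hz y (hy.trans_le (ENNReal.ofReal_le_ofReal (min_le_right _ _))))
  · intro p hp
    obtain ⟨r, hr, -, hb⟩ := ball_MHR hD (hs hp) univ_mem
    obtain ⟨e, he, h⟩ := low_MHR hX hD (hs hp) (closedBall_mem_nhds p hr)
    have h2 : 0 < e / 2 := half_pos he
    refine ⟨_, nhdsWithin_mono p (hs.trans hD.sub)
      (near_MHR hX hD (hs hp) (ENNReal.ofReal_pos.2 h2)), _,
      hX.cpt.inter_right isClosed_closedBall, hb, e / 2, h2, fun z hz y hy =>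
        ⟨hD.sub (dd_mem hy.ne_top).2, h y ?_⟩⟩
    refine (dd_tri p z y).trans_lt ((ENNReal.add_lt_add hz hy).trans_eq ?_)
    rw [← ENNReal.ofReal_add h2.le h2.le, add_halves]

theorem up_MHR (hX : Emb n X K s) (hD : Dom2 X Ω w) {x : E N} {R : ℝ} (h0 : 0 ≤ R)
    (h : IsCompact {y | dd Ω w x y ≤ ENNReal.ofReal R}) :
    ∃ δ : ℝ, 0 < δ ∧ IsCompact {y | dd Ω w x y ≤ ENNReal.ofReal (R + δ)} := by
  obtain ⟨C, h1, h2, e, he, h3⟩ := unif_MHR hX hD h sub_HR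
  refine ⟨e / 3, by positivity, cpt_MHR hX hD h1 h2 fun y hy => ?_⟩
  obtain ⟨z, k1, k2⟩ := spl_MHR hD (η := e / 3) h0 (by linarith) (by positivity) hy
  exact h3 z k1 y (k2.trans_lt ((ENNReal.ofReal_lt_ofReal_iff he).2 (by linarith)))

theorem net_MHR (hX : Emb n X K s) (hD : Dom2 X Ω w) {x : E N} {R : ℝ} (h0 : 0 < R)
    (h : ∀ R' < R, IsCompact {y | dd Ω w x y ≤ ENNReal.ofReal R'}) {F : Ultrafilter (E N)}
    (hF : {y | dd Ω w x y ≤ ENNReal.ofReal R} ∈ F) {η : ℝ} (hη : 0 < η) :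
    ∃ p ∈ Ω, {y | dd Ω w p y < ENNReal.ofReal η} ∈ F := by
  have h1 : max 0 (R - η / 4) < R := max_lt h0 (by linarith)
  have h2 : 0 < η / 2 := half_pos hη
  obtain ⟨t, ht, hc⟩ := (h _ h1).elim_nhdsWithin_subcover
    (fun p => {z | dd Ω w p z < ENNReal.ofReal (η / 2)})
    fun p hp => nhdsWithin_mono p (sub_HR.trans hD.sub)
      (near_MHR hX hD (sub_HR hp) (ENNReal.ofReal_pos.2 h2))
  have h3 : (⋃ p ∈ (t : Set (E N)), {y | dd Ω w p y < ENNReal.ofReal η}) ∈ F := by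
    refine mem_of_superset hF fun y hy => ?_
    obtain ⟨z, k1, k2⟩ := spl_MHR hD (η := η / 4) (le_max_left 0 (R - η / 4)) h1.le
      (by positivity) hy
    obtain ⟨p, hp, k3⟩ := mem_iUnion₂.1 (hc k1)
    refine mem_iUnion₂.2 ⟨p, hp, (dd_tri p z y).trans_lt ?_⟩
    have k4 : dd Ω w z y ≤ ENNReal.ofReal (η / 2) := k2.trans (ENNReal.ofReal_le_ofReal (by
      have := le_max_right 0 (R - η / 4)
      linarith))
    refine (ENNReal.add_lt_add_of_lt_of_le (ne_top_of_le_ne_top ENNReal.ofReal_ne_top k4)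
      k3 k4).trans_eq ?_
    rw [← ENNReal.ofReal_add h2.le h2.le, add_halves]
  obtain ⟨p, hp, h4⟩ := (Ultrafilter.finite_biUnion_mem_iff t.finite_toSet).1 h3
  exact ⟨p, sub_HR (ht p hp), h4⟩

theorem lim_MHR (hX : Emb n X K s) (hD : Dom2 X Ω w) (hc : Complete Ω (sp w)) {x : E N} {R : ℝ} (h0 : 0 < R)
    (h : ∀ R' < R, IsCompact {y | dd Ω w x y ≤ ENNReal.ofReal R'}) :
    IsCompact {y | dd Ω w x y ≤ ENNReal.ofReal R} := by
  refine isCompact_iff_ultrafilter_le_nhds'.2 fun F hF => ?_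
  choose u hu hu' using fun m : ℕ => net_MHR hX hD h0 h hF (Nat.one_div_pos_of_nat (n := m))
  have ht : Tendsto (fun m : ℕ => ENNReal.ofReal (1 / ((m : ℝ) + 1))) atTop (𝓝 0) := by
    simpa only [ENNReal.ofReal_zero] using
      ENNReal.tendsto_ofReal (tendsto_one_div_add_atTop_nhds_zero_nat (𝕜 := ℝ))
  obtain ⟨p, hp, hl⟩ := hc u hu fun ε hε => by
    obtain ⟨N', hN⟩ := eventually_atTop.1 (ht.eventually_lt_const (ENNReal.half_pos hε.ne'))
    refine ⟨N', fun i hi j hj => ?_⟩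
    obtain ⟨y, k1, k2⟩ := F.nonempty_of_mem (inter_mem (hu' i) (hu' j))
    have k3 := dd_symm (Ω := Ω) (w := w) y (u j)
    refine (dd_tri _ y _).trans_lt ((ENNReal.add_lt_add (lt_trans k1 (hN i hi))
      (k3.trans_lt (lt_trans k2 (hN j hj)))).trans_eq (ENNReal.add_halves ε))
  have hle : (F : Filter (E N)) ≤ 𝓝 p := fun U hU => by
    obtain ⟨e, he, k⟩ := low_MHR hX hD hp hU
    have he' : 0 < ENNReal.ofReal e / 2 := ENNReal.half_pos (ENNReal.ofReal_pos.2 he).ne'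
    obtain ⟨m, k1, k2⟩ := ((ht.eventually_lt_const he').and (hl.eventually_lt_const he')).exists
    refine mem_of_superset (hu' m) fun y hy => k y ?_
    have k3 := dd_symm (Ω := Ω) (w := w) p (u m)
    exact (dd_tri p (u m) y).trans_lt ((ENNReal.add_lt_add (k3.trans_lt k2)
      (lt_trans hy k1)).trans_eq (ENNReal.add_halves _))
  exact ⟨p, clo_MHR hX hD hp (mem_closure_iff_ultrafilter.2 ⟨F, hF, hle⟩), hle⟩

theorem proper_of_complete2 (hX : Emb n X K s) (hD : Dom2 X Ω w) (hc : Complete Ω (sp w)) :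
    Proper Ω w := by
  intro x hx
  have h0 : ∀ R ≤ (0 : ℝ), IsCompact {y | dd Ω w x y ≤ ENNReal.ofReal R} := fun R hR => by
    refine cpt_MHR hX hD isCompact_singleton (singleton_subset_iff.2 hx) fun y hy => ?_
    by_contra hn
    obtain ⟨e, he, k⟩ := low_MHR hX hD hx (compl_singleton_mem_nhds (Ne.symm hn))
    refine k y (lt_of_le_of_lt hy ?_) rfl
    exact (ENNReal.ofReal_lt_ofReal_iff he).2 (hR.trans_lt he)
  by_contra hn
  have hne : {R : ℝ | ¬ IsCompact {y | dd Ω w x y ≤ ENNReal.ofReal R}}.Nonempty := not_forall.1 hn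
  have hb : (0 : ℝ) ∈ lowerBounds {R : ℝ | ¬ IsCompact {y | dd Ω w x y ≤ ENNReal.ofReal R}} :=
    fun R hR => le_of_not_ge fun h => hR (h0 R h)
  have h1 := le_csInf hne hb
  have h2 : IsCompact {y | dd Ω w x y ≤ ENNReal.ofReal
      (sInf {R : ℝ | ¬ IsCompact {y | dd Ω w x y ≤ ENNReal.ofReal R}})} := by
    rcases h1.eq_or_lt with e | e
    · exact h0 _ e.ge
    · exact lim_MHR hX hD hc e fun R hR => not_not.1 (notMem_of_lt_csInf hR ⟨0, hb⟩)
  obtain ⟨δ, hδ, h3⟩ := up_MHR hX hD h1 h2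
  obtain ⟨R, hR, h4⟩ := exists_lt_of_csInf_lt hne (lt_add_of_pos_right _ hδ)
  exact hR (cpt_MHR hX hD h3 sub_HR fun y hy => le_trans hy (ENNReal.ofReal_le_ofReal h4.le))

end

end Vale.Agent.P210
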