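import Vale.Agent.P210.M.Met
import Vale.Agent.P210.HRA

/-! P210 M/HRA: port of P210/HRA.lean to a set `Ω` that is not open (helper names end with _MHRA). Along an arc the integrand `t ↦ sp w (γ t) (deriv γ t)` is only continuous on `Icc 0 1`: use `ContinuousOn.intervalIntegrable_of_Icc`, `intervalIntegral.continuousOn_primitive_interval`,
right derivatives (`intervalIntegral.integral_hasDerivWithinAt_right`), or extend the integrand by `projIcc` (`IccExtend`) to a continuous function on the line. `sub_HRA` is reusable. `dd_low2`: `c = min w` on the compact set `X ∩ closedBall x r`. -/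

namespace Vale.Agent.P210

open Set Filter Topology Metric MeasureTheory
open scoped ENNReal

noncomputable section

variable {N : ℕ} {X Ω : Set (E N)} {w : E N → ℝ} {x y : E N} {a : ℝ}

theorem cont_MHRA (hD : Dom2 X Ω w) {γ : ℝ → E N} (hγ : ContDiff ℝ 1 γ)
    (hm : MapsTo γ (Icc 0 1) Ω) :
    ContinuousOn (fun t => sp w (γ t) (deriv γ t)) (Icc 0 1) :=
  (hD.cont.comp hγ.continuous.continuousOn hm).mul
    (hγ.continuous_deriv le_rfl).norm.continuousOn

theorem int_MHRA (hD : Dom2 X Ω w) {γ : ℝ → E N} (hγ : ContDiff ℝ 1 γ)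
    (hm : MapsTo γ (Icc 0 1) Ω) {p q : ℝ} (hp : p ∈ Icc (0 : ℝ) 1) (hq : q ∈ Icc (0 : ℝ) 1) :
    IntervalIntegrable (fun t => sp w (γ t) (deriv γ t)) volume p q :=
  ((cont_MHRA hD hγ hm).mono (uIcc_subset_Icc hp hq)).intervalIntegrable

theorem prim_MHRA (hD : Dom2 X Ω w) {γ : ℝ → E N} (hγ : ContDiff ℝ 1 γ)
    (hm : MapsTo γ (Icc 0 1) Ω) : ∃ B : ℝ → ℝ,
      (∀ u ∈ Icc (0 : ℝ) 1, B u = ∫ t in (0 : ℝ)..u, sp w (γ t) (deriv γ t)) ∧
      ∀ s ∈ Icc (0 : ℝ) 1, HasDerivAt B (sp w (γ s) (deriv γ s)) s := by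
  have hg : Continuous fun t : ℝ => sp w (γ (projIcc (0 : ℝ) 1 zero_le_one t))
      (deriv γ (projIcc (0 : ℝ) 1 zero_le_one t)) :=
    (cont_MHRA hD hγ hm).comp_continuous (continuous_subtype_val.comp continuous_projIcc)
      fun t => (projIcc (0 : ℝ) 1 zero_le_one t).2
  refine ⟨fun u => ∫ t in (0 : ℝ)..u, sp w (γ (projIcc (0 : ℝ) 1 zero_le_one t))
      (deriv γ (projIcc (0 : ℝ) 1 zero_le_one t)), fun u hu => ?_, fun s hs => ?_⟩
  · refine intervalIntegral.integral_congr fun t ht => ?_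
    have h1 : t ∈ Icc (0 : ℝ) 1 := uIcc_subset_Icc (left_mem_Icc.2 zero_le_one) hu ht
    simp only [projIcc_of_mem zero_le_one h1]
  · have h1 := (hg.integral_hasStrictDerivAt 0 s).hasDerivAt
    simpa only [projIcc_of_mem zero_le_one hs] using h1

theorem Joined.split2 (hD : Dom2 X Ω w) (h : Joined Ω (sp w) x y a) {b : ℝ} (h0 : 0 ≤ b)
    (h1 : b ≤ a) : ∃ z, Joined Ω (sp w) x z b ∧ Joined Ω (sp w) z y (a - b) := by
  induction h generalizing b with
  | arc γ hγ hm =>
    obtain ⟨B, hB, hB'⟩ := prim_MHRA hD hγ hm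
    have hc : ContinuousOn (fun u => ∫ t in (0 : ℝ)..u, sp w (γ t) (deriv γ t)) (Icc 0 1) :=
      ContinuousOn.congr (fun s hs => (hB' s hs).continuousAt.continuousWithinAt)
        fun u hu => (hB u hu).symm
    obtain ⟨s, hs, he⟩ := intermediate_value_Icc zero_le_one hc
      (show b ∈ Icc _ _ from ⟨by simpa using h0, h1⟩)
    have h2 := intervalIntegral.integral_add_adjacent_intervals
      (int_MHRA hD hγ hm (left_mem_Icc.2 zero_le_one) hs)
      (int_MHRA hD hγ hm hs (right_mem_Icc.2 zero_le_one))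
    simp only at he
    refine ⟨γ s, he ▸ sub_HRA hγ hm le_rfl hs.1 hs.2, ?_⟩
    rw [← h2, he, add_sub_cancel_left]
    exact sub_HRA hγ hm hs.1 hs.2 le_rfl
  | @trans x y z a₁ a₂ h₁ h₂ ih₁ ih₂ =>
    rcases le_total b a₁ with hb | hb
    · obtain ⟨v, h3, h4⟩ := ih₁ h0 hb
      refine ⟨v, h3, ?_⟩
      rw [show a₁ + a₂ - b = a₁ - b + a₂ by ring]
      exact h4.trans h₂
    · obtain ⟨v, h3, h4⟩ := ih₂ (b := b - a₁) (by linarith) (by linarith)
      refine ⟨v, ?_, ?_⟩
      · have h5 := h₁.trans h3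
        rwa [add_sub_cancel] at h5
      · rwa [show a₁ + a₂ - b = a₂ - (b - a₁) by ring]

theorem Joined.calib2 (hD : Dom2 X Ω w) {φ : E N → ℝ}
    (hφ : ∀ z ∈ Ω, ∀ᶠ z' in 𝓝 z, |φ z' - φ z| ≤ w z * dist z' z) (h : Joined Ω (sp w) x y a) :
    φ y - φ x ≤ a := by
  induction h with
  | arc γ hγ hm =>
    obtain ⟨B, hB, hB'⟩ := prim_MHRA hD hγ hm
    have hc : ∀ z ∈ Ω, ContinuousAt φ z := fun z hz => by
      rw [ContinuousAt, tendsto_iff_dist_tendsto_zero]
      refine squeeze_zero' (Eventually.of_forall fun _ => dist_nonneg) (hφ z hz) ?_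
      have h1 : Continuous fun z' => w z * dist z' z := by fun_prop
      simpa using h1.tendsto z
    rw [← hB 1 (right_mem_Icc.2 zero_le_one)]
    refine image_le_of_liminf_slope_right_le_deriv_boundary
      (f := fun t => φ (γ t) - φ (γ 0)) (a := 0) (b := 1) (B := B)
      (B' := fun s => sp w (γ s) (deriv γ s))
      (fun s hs => (((hc _ (hm hs)).comp hγ.continuous.continuousAt).sub
        continuousAt_const).continuousWithinAt)
      (by rw [hB 0 (left_mem_Icc.2 zero_le_one)]; simp)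
      (fun s hs => (hB' s hs).continuousAt.continuousWithinAt)
      (fun s hs => (hB' s (Ico_subset_Icc_self hs)).hasDerivWithinAt)
      (fun s hs r hr => Eventually.frequently ?_) (right_mem_Icc.2 zero_le_one)
    have hs' := hm (Ico_subset_Icc_self hs)
    have h1 := hasDerivAt_iff_tendsto_slope.1 ((hγ.differentiable one_ne_zero) s).hasDerivAt
    have h2 : Tendsto (fun z => w (γ s) * ‖slope γ s z‖) (𝓝[>] s)
        (𝓝 (sp w (γ s) (deriv γ s))) :=
      (h1.mono_left (nhdsGT_le_nhdsNE s)).norm.const_mul _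
    have h3 := (hγ.continuous.tendsto s).eventually (hφ _ hs')
    filter_upwards [h2.eventually (gt_mem_nhds hr), nhdsWithin_le_nhds h3, self_mem_nhdsWithin]
      with z h4 h5 h6
    refine lt_of_le_of_lt ?_ h4
    have h7 : 0 < z - s := sub_pos.2 h6
    rw [slope_def_field, slope_def_module, norm_smul, Real.norm_eq_abs, abs_of_pos (inv_pos.2 h7),
      div_le_iff₀ h7, ← dist_eq_norm]
    have h8 := (le_abs_self _).trans h5
    have h9 : w (γ s) * ((z - s)⁻¹ * dist (γ z) (γ s)) * (z - s) = w (γ s) * dist (γ z) (γ s) := by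
      field_simp
    rw [h9]
    linarith
  | trans _ _ ih₁ ih₂ => linarith

theorem dd_low2 (hX : IsCompact X) (hD : Dom2 X Ω w) (hx : x ∈ Ω) {r : ℝ} (hr : 0 < r)
    (hb : X ∩ closedBall x r ⊆ Ω) : ∃ c : ℝ, 0 < c ∧ ∀ y z,
      ENNReal.ofReal (c * (min (dist z x) r - min (dist y x) r)) ≤ dd Ω w y z := by
  obtain ⟨p, hp, hmin⟩ := (hX.inter_right (isClosed_closedBall (x := x) (ε := r))).exists_isMinOn
    ⟨x, hD.sub hx, mem_closedBall_self hr.le⟩ (hD.cont.mono hb)
  have hc := hD.pos p (hb hp)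
  refine ⟨w p, hc, fun y z => le_iInf₂ fun a ha => ENNReal.ofReal_le_ofReal ?_⟩
  rw [mul_sub]
  refine ha.calib2 hD (φ := fun z => w p * min (dist z x) r) fun v hv => ?_
  by_cases h1 : v ∈ closedBall x r
  · refine Eventually.of_forall fun v' => ?_
    rw [← mul_sub, abs_mul, abs_of_pos hc]
    refine mul_le_mul (hmin ⟨hD.sub hv, h1⟩) ?_ (abs_nonneg _) (hD.pos v hv).le
    refine (abs_min_sub_min_le_max _ _ _ _).trans (max_le (abs_dist_sub_le _ _ _) ?_)
    simp
  · filter_upwards [isClosed_closedBall.isOpen_compl.mem_nhds h1] with v' h2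
    have h3 : r < dist v x := not_le.1 h1
    have h4 : r < dist v' x := not_le.1 h2
    rw [min_eq_right h3.le, min_eq_right h4.le, sub_self, abs_zero]
    exact mul_nonneg (hD.pos v hv).le dist_nonneg

end

end Vale.Agent.P210
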