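import Vale.Agent.P210.M.Defs

/-! P210 M/Meas: the reference measure in a patch (helper names end with _Meas). On `E n`, `μH[n]` is a Haar measure (`isAddHaarMeasure_hausdorffMeasure`, `finrank_euclideanSpace_fin`), so `μH[n] = c • volume` with `c ≠ 0` (`Measure.isAddLeftInvariant_eq_smul`, `addHaarScalarFactor_pos_of_isAddHaarMeasure`).
For measurable `T`: `Φ '' S ∩ T = Φ '' (S ∩ Φ ⁻¹' T)`, `S ∩ Φ ⁻¹' T = P '' (Φ '' S ∩ T)` (`Patch.left`); `LipschitzOnWith.hausdorffMeasure_image_le` with `Patch.lip`, `Patch.mapP`. This compares the measures `(nu n X).restrict (Φ '' S)` and `(volume.restrict S).map Φ` (`Measure.le_iff`, `Measure.restrict_apply`, `Φ '' S ⊆ X`,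
`MeasurableSet.image_of_continuousOn_injOn`); `lintegral_mono'`, `lintegral_smul_measure`, `lintegral_map`. -/

namespace Vale.Agent.P210

open Set Filter Topology Metric MeasureTheory
open scoped ENNReal

noncomputable section

theorem haar_Meas (n : ℕ) : ∃ c : NNReal, c ≠ 0 ∧
    (Measure.hausdorffMeasure n : Measure (E n)) = c • volume := by
  have h : (Measure.hausdorffMeasure n : Measure (E n)).IsAddHaarMeasure := by
    have := isAddHaarMeasure_hausdorffMeasure (E := E n)
    rwa [finrank_euclideanSpace_fin] at this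
  exact ⟨_, (Measure.addHaarScalarFactor_pos_of_isAddHaarMeasure _ _).ne',
    Measure.isAddLeftInvariant_eq_smul _ _⟩

theorem nu_patch (n : ℕ) {K : ℝ} (hK : 1 ≤ K) : ∃ κ : ℝ, 1 ≤ κ ∧ ∀ (N : ℕ) (X : Set (E N)) (s : ℝ)
    (p : E N) (P : E N →L[ℝ] E n) (Φ : E n → E N), IsCompact X → Patch n X K s p P Φ →
    ∀ S : Set (E n), MeasurableSet S → S ⊆ ball (P p) (K * s) → ∀ G : E N → ℝ≥0∞, Measurable G →
      ∫⁻ z in Φ '' S, G z ∂(nu n X) ≤ ENNReal.ofReal κ * ∫⁻ y in S, G (Φ y) ∧
      ∫⁻ y in S, G (Φ y) ≤ ENNReal.ofReal κ * ∫⁻ z in Φ '' S, G z ∂(nu n X) := by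
  obtain ⟨c, c0, hc⟩ := haar_Meas n
  lift K to NNReal using zero_le_one.trans hK
  have hK' : 1 ≤ K := by exact_mod_cast hK
  have k1 : 1 ≤ K ^ n * (c + c⁻¹ + 1) := one_le_mul (one_le_pow₀ hK') le_add_self
  have k2 : K ^ n * c ≤ K ^ n * (c + c⁻¹ + 1) :=
    mul_le_mul_right (le_self_add.trans le_self_add) _
  have k3 : K ^ n * c⁻¹ ≤ K ^ n * (c + c⁻¹ + 1) :=
    mul_le_mul_right (le_add_self.trans le_self_add) _
  refine ⟨(K ^ n * (c + c⁻¹ + 1) : NNReal), by exact_mod_cast k1,
    fun N X s p P Φ hX h S hS hSb G hG => ?_⟩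
  rw [ENNReal.ofReal_coe_nnreal]
  generalize K ^ n * (c + c⁻¹ + 1) = κ at k2 k3 ⊢
  have mΦ : Measurable Φ := h.sm.continuous.measurable
  have hn : (0 : ℝ) ≤ n := Nat.cast_nonneg n
  have e1 : ∀ T, MeasurableSet T → (nu n X).restrict (Φ '' S) T =
      Measure.hausdorffMeasure n (Φ '' (Φ ⁻¹' T ∩ S)) := fun T hT => by
    have sub : Φ '' S ⊆ X := by
      rintro _ ⟨y, hy, rfl⟩
      exact h.mem y (hSb hy)
    rw [Measure.restrict_apply hT, nu, Measure.restrict_apply' hX.measurableSet,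
      image_preimage_inter, inter_assoc, inter_eq_left.2 sub]
  have e2 : ∀ T, MeasurableSet T → (volume.restrict S).map Φ T = volume (Φ ⁻¹' T ∩ S) :=
    fun T hT => by rw [Measure.map_apply mΦ hT, Measure.restrict_apply (mΦ hT)]
  have b1 : ∀ A ⊆ S, Measure.hausdorffMeasure n (Φ '' A) ≤ κ * volume A := fun A hA => by
    have l : LipschitzOnWith K Φ A := LipschitzOnWith.of_dist_le_mul fun y hy y' hy' =>
      h.lip (hSb (hA hy)) (hSb (hA hy'))
    refine (l.hausdorffMeasure_image_le hn).trans ?_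
    rw [hc, Measure.coe_nnreal_smul_apply, ENNReal.rpow_natCast, ← mul_assoc]
    exact mul_le_mul_left (by exact_mod_cast k2) _
  have b2 : ∀ A ⊆ S, volume A ≤ κ * Measure.hausdorffMeasure n (Φ '' A) := fun A hA => by
    have l : LipschitzWith K P := LipschitzWith.of_dist_le_mul h.mapP
    have i : P '' (Φ '' A) = A := by
      rw [image_image]
      exact (image_congr fun y hy => h.left y (hSb (hA hy))).trans (image_id' A)
    have b := l.hausdorffMeasure_image_le hn (Φ '' A)
    rw [i, hc, Measure.coe_nnreal_smul_apply, ENNReal.rpow_natCast] at b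
    calc volume A = (c⁻¹ : NNReal) * (c * volume A) := by
          rw [← mul_assoc, ← ENNReal.coe_mul, inv_mul_cancel₀ c0, ENNReal.coe_one, one_mul]
      _ ≤ (c⁻¹ : NNReal) * ((K : ℝ≥0∞) ^ n * Measure.hausdorffMeasure n (Φ '' A)) :=
          mul_le_mul_right b _
      _ ≤ κ * Measure.hausdorffMeasure n (Φ '' A) := by
          rw [← mul_assoc, mul_comm _ ((K : ℝ≥0∞) ^ n)]
          exact mul_le_mul_left (by exact_mod_cast k3) _
  rw [← lintegral_map hG mΦ]
  constructor
  · have m : (nu n X).restrict (Φ '' S) ≤ (κ : ℝ≥0∞) • (volume.restrict S).map Φ :=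
      Measure.le_iff.2 fun T hT => by
        rw [e1 T hT, Measure.smul_apply, e2 T hT]
        exact b1 _ inter_subset_right
    refine (lintegral_mono' m le_rfl).trans (le_of_eq ?_)
    rw [lintegral_smul_measure, smul_eq_mul]
  · have m : (volume.restrict S).map Φ ≤ (κ : ℝ≥0∞) • (nu n X).restrict (Φ '' S) :=
      Measure.le_iff.2 fun T hT => by
        rw [e2 T hT, Measure.smul_apply, e1 T hT]
        exact b2 _ inter_subset_right
    refine (lintegral_mono' m le_rfl).trans (le_of_eq ?_)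
    rw [lintegral_smul_measure, smul_eq_mul]

end

end Vale.Agent.P210
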