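import Vale.Agent.P210.G.Main
import Vale.Agent.P210.M.Meas
import Vale.Agent.P210.M.Cut

/-! P210 M/MorA: the Morrey bound at small scales (helper names end with _MMorA). Model: the end of `main2` in G/Main.lean. `c` from `energy_of_scal hn L`, `Λ = max L 0 ^ (n / 2) * vol (ball 0 (K s))`, `A` from `morrey2 hn c Λ`, `κ` from `nu_patch`; `τ₀` with `2 * (2 K τ₀) ^ 4 < K s` and `2 τ₀ ^ 4 ≤ s`.
If `ball x (τ ^ 4) ∩ Ω` contains `p`, take the data of `Curv` at `p`, `Ω' = ball (P p) (K s) ∩ Φ ⁻¹' Ω` (open: `Ω = X ∩ O`, `Patch.mem`), `τ' = 2 K τ`, `S = ball (P p) (τ' ^ 4) ∩ Ω'`; then `ball x (τ ^ 4) ∩ Ω ⊆ Φ '' S` (`Patch.right`, `Patch.mapP`).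
Apply `nu_patch` to the measurable function `WW Ω (exp (f / 4) ^ 9)` (`WW_meas2`), and `morrey2` to `h`, `max (scal g) 0`, `L = K ^ 3`, `η R ∘ Φ` (`cutoff2`): the compact sets are `closedBall (P p) (2 τ' ^ 4) ∩ Φ ⁻¹' B`; `Φ` tends to `𝓝[X] (Φ y)` at points of the ball; `Patch.lip`; use `ε / K`. -/

namespace Vale.Agent.P210

open Set Filter Topology Metric MeasureTheory
open scoped ENNReal

noncomputable section

theorem cuts_MMorA {N n : ℕ} {X Ω : Set (E N)} {f : E N → ℝ} {K s ρ : ℝ} {p : E N}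
    {P : E N →L[ℝ] E n} {Φ : E n → E N} {h : E n → ℝ} (hX : Emb n X K s)
    (hD : Dom2 X Ω fun x => Real.exp (f x)) (hP : Proper Ω fun x => Real.exp (f x))
    (hc : IsPreconnected Ω) (hp : Patch n X K s p P Φ) (hρ : ρ < K * s)
    (hh : ∀ y ∈ ball (P p) (K * s), f (Φ y) = h y) :
    ∃ η, Cuts (ball (P p) (K * s) ∩ Φ ⁻¹' Ω) (fun y => K ^ 3 * Real.exp (h y))
      (closedBall (P p) ρ) η := by
  obtain ⟨η, e1, e2, e3, e4⟩ := cutoff2 hX hD hP hc
  have K0 : 0 < K := one_pos.trans_le hX.K1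
  have T : ∀ y ∈ ball (P p) (K * s), Tendsto Φ (𝓝 y) (𝓝[X] (Φ y)) := fun y hy =>
    tendsto_nhdsWithin_iff.2 ⟨hp.sm.continuous.continuousAt,
      mem_of_superset (isOpen_ball.mem_nhds hy) hp.mem⟩
  refine ⟨fun R y => η R (Φ y), fun R => ?_, fun R y => e2 R _, fun R y hy ε hε => ?_,
    fun y hy => (e4 _ hy.2).mono fun R hR => (T y hy.1).eventually hR⟩
  · obtain ⟨B, b1, b2, b3⟩ := e1 R
    exact ⟨closedBall (P p) ρ ∩ Φ ⁻¹' B, (isCompact_closedBall _ _).inter_right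
      (b1.isClosed.preimage hp.sm.continuous),
      inter_subset_inter (closedBall_subset_ball hρ) (preimage_mono b2),
      fun y h1 h2 => b3 _ fun h3 => h2 ⟨h1, h3⟩⟩
  · filter_upwards [(T y hy.1).eventually (e3 R _ hy.2 (ε / K) (by positivity)),
      isOpen_ball.mem_nhds hy.1] with z h1 h2
    refine h1.trans ((mul_le_mul_of_nonneg_left (hp.lip h2 hy.1) (by positivity)).trans_eq ?_)
    rw [hh y hy.1]
    field_simp

theorem morrey_small {n : ℕ} (hn : 3 ≤ n) {K s : ℝ} (hK : 1 ≤ K) (hs : 0 < s) (L : ℝ) :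
    ∃ A τ₀ : ℝ, 0 < A ∧ 0 < τ₀ ∧ ∀ (N : ℕ) (X Ω : Set (E N)) (f : E N → ℝ), Emb n X K s →
      (Dom2 X Ω fun x => Real.exp (f x)) → ContinuousOn f Ω → (Proper Ω fun x => Real.exp (f x)) →
      IsPreconnected Ω → Curv n X K s L Ω f → ∀ (x : E N) (τ : ℝ), 0 < τ → τ ≤ τ₀ →
      ∫⁻ y in ball x (τ ^ 4) ∩ Ω, ENNReal.ofReal (Real.exp (f y / 4) ^ 9) ∂(nu n X) ≤
        ENNReal.ofReal (A * τ ^ (4 * n) / τ ^ 9) := by
  obtain ⟨c, hc⟩ := energy_of_scal hn L
  obtain ⟨A, A0, hA⟩ := morrey2 hn c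
    (max L 0 ^ ((n : ℝ) / 2) * (volume (ball (0 : E n) (K * s))).toReal)
  obtain ⟨κ, κ1, hκ⟩ := nu_patch n hK
  have K0 : 0 < K := one_pos.trans_le hK
  refine ⟨κ * A * (2 * K) ^ (4 * n) / (2 * K) ^ 9, min 1 (s / (32 * K ^ 3 + 1)), by positivity,
    by positivity, fun N X Ω f hX hD hf hP hΩ hC x τ τ0 τ1 => ?_⟩
  rcases (ball x (τ ^ 4) ∩ Ω).eq_empty_or_nonempty with e | ⟨p, p1, p2⟩
  · simp [e]
  obtain ⟨P, Φ, g, h, hp, g3, hE, h2, hsc⟩ := hC p (hD.sub p2)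
  have t0 : 0 < τ ^ 4 := by positivity
  have t1 : τ ^ 4 * (32 * K ^ 3 + 1) ≤ s := (le_div_iff₀ (by positivity)).1
    ((pow_le_of_le_one τ0.le (τ1.trans (min_le_left _ _)) (by norm_num)).trans
      (τ1.trans (min_le_right _ _)))
  have K3 : τ ^ 4 ≤ τ ^ 4 * K ^ 3 := le_mul_of_one_le_right t0.le (one_le_pow₀ hK)
  have t2 : 2 * (2 * K * τ) ^ 4 < K * s := by
    rw [show 2 * (2 * K * τ) ^ 4 = K * (τ ^ 4 * (32 * K ^ 3)) by ring]
    exact mul_lt_mul_of_pos_left (by linarith) K0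
  have t3 : K * (2 * τ ^ 4) ≤ (2 * K * τ) ^ 4 := by
    rw [show (2 * K * τ) ^ 4 = K * (16 * (τ ^ 4 * K ^ 3)) by ring]
    exact mul_le_mul_of_nonneg_left (by linarith) K0.le
  have t4 : 0 < (2 * K * τ) ^ 4 := by positivity
  have op : IsOpen (ball (P p) (K * s) ∩ Φ ⁻¹' Ω) := by
    obtain ⟨O, hO, rfl⟩ := hD.op
    rw [show ball (P p) (K * s) ∩ Φ ⁻¹' (X ∩ O) = ball (P p) (K * s) ∩ Φ ⁻¹' O from
      Set.ext fun y => ⟨fun k => ⟨k.1, k.2.2⟩, fun k => ⟨k.1, hp.mem y k.1, k.2⟩⟩]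
    exact isOpen_ball.inter (hO.preimage hp.sm.continuous)
  obtain ⟨S1, S2⟩ := hc _ g h op (fun i j => (g3 i j).mono inter_subset_left)
    (fun y hy => (hE y hy.1).1) h2 fun y hy => hsc y hy.1 hy.2
  obtain ⟨η, hη⟩ := cuts_MMorA hX hD hP hΩ hp t2 fun y hy => (hE y hy).2.2
  have m := hA _ h _ (K ^ 3) (2 * K * τ) (P p) η op h2.continuousOn S1 (fun _ => le_max_right _ _)
    (by positivity) (by positivity) (by
      refine (setLIntegral_mono' (g := fun _ => ENNReal.ofReal (max L 0) ^ ((n : ℝ) / 2))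
        (measurableSet_closedBall.inter op.measurableSet) fun y hy => ?_).trans ?_
      · exact ENNReal.rpow_le_rpow (ENNReal.ofReal_le_ofReal
          (max_le_max_right 0 (hE y hy.2.1).2.1)) (by positivity)
      · rw [setLIntegral_const, ENNReal.ofReal_mul (by positivity),
          ENNReal.ofReal_toReal measure_ball_lt_top.ne,
          ENNReal.ofReal_rpow_of_nonneg (le_max_right _ _) (by positivity),
          ← Measure.addHaar_ball_center volume (P p)]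
        exact mul_le_mul_right (measure_mono fun y hy => hy.2.1) _) hη S2
  have hD' : Dom2 X Ω fun y => Real.exp (f y / 4) ^ 9 :=
    ⟨hD.op, (hf.div_const 4).rexp.pow 9, fun y _ => by positivity⟩
  have mS := (measurableSet_ball (x := P p) (ε := (2 * K * τ) ^ 4)).inter op.measurableSet
  have k := (hκ N X s p P Φ hX.cpt hp _ mS (fun y hy => hy.2.1) _ (WW_meas2 hX.cpt hD')).1
  have sub : ball x (τ ^ 4) ∩ Ω ⊆
      Φ '' (ball (P p) ((2 * K * τ) ^ 4) ∩ (ball (P p) (K * s) ∩ Φ ⁻¹' Ω)) := fun z hz => by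
    have d : dist z p < 2 * τ ^ 4 := by
      linarith [dist_triangle_right z p x, mem_ball.1 hz.1, mem_ball.1 p1]
    have r := hp.right z (hD.sub hz.2) (by linarith)
    have d' := (hp.mapP z p).trans_lt ((mul_lt_mul_of_pos_left d K0).trans_le t3)
    exact ⟨P z, ⟨d', mem_ball.2 (by linarith), by rw [mem_preimage, r]; exact hz.2⟩, r⟩
  calc _ = ∫⁻ y in ball x (τ ^ 4) ∩ Ω, WW Ω (fun y => Real.exp (f y / 4) ^ 9) y ∂(nu n X) :=
        setLIntegral_congr_fun (measurableSet_ball.inter (hD.meas hX.cpt)) fun y hy => by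
          rw [WW, indicator_of_mem hy.2]
    _ ≤ _ := (lintegral_mono_set sub).trans k
    _ ≤ ENNReal.ofReal κ * ENNReal.ofReal (A * (2 * K * τ) ^ (4 * n) / (2 * K * τ) ^ 9) := by
        refine mul_le_mul_right (le_of_eq_of_le (setLIntegral_congr_fun mS fun y hy => ?_) m) _
        rw [WW, indicator_of_mem (mem_preimage.1 hy.2.2), (hE y hy.2.1).2.2]
    _ = _ := by
        rw [← ENNReal.ofReal_mul (by linarith), mul_pow (2 * K), mul_pow (2 * K)]
        congr 1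
        field_simp

end

end Vale.Agent.P210
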