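import Vale.Agent.P210.M.Defs

/-! P210 M/MorB: large scales (helper names end with _MMorB). Cover `X` by finitely many balls of radius `τ₀ ^ 4` (`finite_cover_balls_of_compact`), `J` of them; for `τ₀ ≤ τ`, `ball x (τ ^ 4) ∩ Ω ⊆ ⋃ (ball z (τ₀ ^ 4) ∩ Ω)` (`lintegral_mono_set`, `lintegral_iUnion_le` or `lintegral_biUnion_finset`-type bounds) and `τ₀ ^ (4 n) / τ₀ ^ 9 ≤ τ ^ (4 n) / τ ^ 9` because `9 ≤ 4 n`. `A' = (J + 1) A`. -/

namespace Vale.Agent.P210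

open Set Filter Topology Metric MeasureTheory
open scoped ENNReal

noncomputable section

theorem union_MMorB {α ι : Type} [MeasurableSpace α] (ν : Measure α) (f : α → ℝ≥0∞)
    (s : ι → Set α) {c : ℝ} (hc : 0 ≤ c) (h : ∀ i, ∫⁻ y in s i, f y ∂ν ≤ ENNReal.ofReal c)
    (t : Finset ι) : ∫⁻ y in ⋃ i ∈ t, s i, f y ∂ν ≤ ENNReal.ofReal (t.card * c) := by
  classical
  induction t using Finset.induction_on with
  | empty => simp
  | insert i t hi ih =>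
    rw [Finset.set_biUnion_insert, Finset.card_insert_of_notMem hi, Nat.cast_succ, add_mul, one_mul,
      add_comm, ENNReal.ofReal_add hc (by positivity)]
    exact (lintegral_union_le _ _ _).trans (add_le_add (h i) ih)

theorem morrey_large {N n : ℕ} (hn : 3 ≤ n) {X : Set (E N)} (hX : IsCompact X) {A τ₀ : ℝ}
    (hA : 0 < A) (h0 : 0 < τ₀) : ∃ A' : ℝ, 0 < A' ∧ ∀ (ν : Measure (E N)) (Ω : Set (E N))
      (v : E N → ℝ), Ω ⊆ X → (∀ (x : E N) (τ : ℝ), 0 < τ → τ ≤ τ₀ →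
        ∫⁻ y in ball x (τ ^ 4) ∩ Ω, ENNReal.ofReal (v y ^ 9) ∂ν ≤
          ENNReal.ofReal (A * τ ^ (4 * n) / τ ^ 9)) → Morrey2 ν n Ω v A' := by
  obtain ⟨t, -, ht, hc⟩ := finite_cover_balls_of_compact hX (e := τ₀ ^ 4) (by positivity)
  refine ⟨(ht.toFinset.card + 1) * A, by positivity, fun ν Ω v hΩ h x τ hτ => ?_⟩
  have hJ : (0 : ℝ) ≤ ht.toFinset.card := Nat.cast_nonneg _
  rcases le_total τ τ₀ with h1 | h1
  · refine (h x τ hτ h1).trans (ENNReal.ofReal_le_ofReal ?_)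
    have h2 : A ≤ (ht.toFinset.card + 1) * A := le_mul_of_one_le_left hA.le (by linarith)
    gcongr
  · have h2 : ball x (τ ^ 4) ∩ Ω ⊆ ⋃ z ∈ ht.toFinset, (ball z (τ₀ ^ 4) ∩ Ω) := fun y hy => by
      obtain ⟨z, hz, hy'⟩ := mem_iUnion₂.1 (hc (hΩ hy.2))
      exact mem_iUnion₂.2 ⟨z, ht.mem_toFinset.2 hz, hy', hy.2⟩
    refine (lintegral_mono_set h2).trans ((union_MMorB ν _ _ (by positivity)
      (fun z => h z τ₀ h0 le_rfl) _).trans (ENNReal.ofReal_le_ofReal ?_))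
    obtain ⟨k, hk⟩ : ∃ k, 4 * n = k + 9 := ⟨4 * n - 9, by omega⟩
    have e : ∀ (a s : ℝ), 0 < s → a * s ^ (4 * n) / s ^ 9 = a * s ^ k := fun a s hs => by
      rw [hk, pow_add]
      field_simp
    rw [e _ _ h0, e _ _ hτ, ← mul_assoc]
    have h3 : ht.toFinset.card * A ≤ (ht.toFinset.card + 1) * A := by linarith
    gcongr

end

end Vale.Agent.P210
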