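import Vale.Agent.P210.M.Arc

/-! P210 M/Pull: transport between the manifold and its image (helper names end with _Pull). `cont_pull`: `IsInducing.continuousOn_image_iff` or `IsEmbedding.map_nhdsWithin_eq`. `open_pull`: `IsInducing.isOpen_iff`. `width_pull`: `φ ∘ ι`, `ι` tends to `𝓝[ι '' Ω] (ι x)` along `𝓝[Ω] x`.
`curv_pull`: `g = coef g c`, `h y = f (e.symm y)`, `coef_cmul`; `Φ y ∈ ι '' Ω` gives `e.symm y ∈ Ω` by injectivity; `ContMDiffOn.comp` with `contMDiffOn_chart_symm`, `contMDiffOn_iff_contDiffOn`; `P098.calc_le2`, `P098.calc_le3`. -/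

namespace Vale.Agent.P210

open Set Filter Topology Metric MeasureTheory
open scoped ENNReal Manifold ContDiff

noncomputable section

variable {n N : ℕ} {M : Type} [TopologicalSpace M] [ChartedSpace (E n) M]
  [IsManifold (𝓡 n) ∞ M]

variable {ι : M → E N} {Ω : Set M}

omit [ChartedSpace (E n) M] [IsManifold (𝓡 n) ∞ M] in
theorem cont_pull (hι : IsClosedEmbedding ι) {f : M → ℝ} (hf : ContinuousOn f Ω) {F : E N → ℝ}
    (hF : ∀ x, F (ι x) = f x) : ContinuousOn F (ι '' Ω) := by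
  rintro _ ⟨x, hx, rfl⟩
  have h1 : Tendsto (F ∘ ι) (𝓝[Ω] x) (𝓝 (F (ι x))) := by
    have h2 : F ∘ ι = f := funext hF
    rw [h2, hF]
    exact hf x hx
  rw [ContinuousWithinAt, ← hι.isEmbedding.map_nhdsWithin_eq]
  exact h1

omit [ChartedSpace (E n) M] [IsManifold (𝓡 n) ∞ M] in
theorem open_pull (hι : IsClosedEmbedding ι) (hΩ : IsOpen Ω) :
    ∃ O, IsOpen O ∧ ι '' Ω = range ι ∩ O := by
  obtain ⟨O, hO, rfl⟩ := hι.isInducing.isOpen_iff.1 hΩ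
  exact ⟨O, hO, by rw [image_preimage_eq_inter_range, inter_comm]⟩

omit [TopologicalSpace M] [ChartedSpace (E n) M] [IsManifold (𝓡 n) ∞ M] in
theorem cplt_pull {ρ : M → M → ℝ≥0∞} {σ : E N → E N → ℝ} {c : ℝ} (hc : 0 < c)
    (h1 : ∀ x y, rdist (ι '' Ω) σ (ι x) (ι y) ≤ ENNReal.ofReal c * ρ x y)
    (h2 : ∀ x y, ρ x y ≤ ENNReal.ofReal c * rdist (ι '' Ω) σ (ι x) (ι y)) (h : Cplt Ω ρ) :
    Complete (ι '' Ω) σ := by
  intro u hu hc'
  choose v hv hvu using hu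
  obtain ⟨p, hp, hlim⟩ := h v hv fun ε hε => by
    obtain ⟨k, hk⟩ := hc' (ε / ENNReal.ofReal c) (ENNReal.div_pos hε.ne' ENNReal.ofReal_ne_top)
    refine ⟨k, fun i hi j hj => (h2 _ _).trans_lt (ENNReal.mul_lt_of_lt_div' ?_)⟩
    rw [hvu, hvu]
    exact hk i hi j hj
  refine ⟨ι p, mem_image_of_mem ι hp, ?_⟩
  have h3 := ENNReal.Tendsto.const_mul (a := ENNReal.ofReal c) hlim (Or.inr ENNReal.ofReal_ne_top)
  rw [mul_zero] at h3
  refine tendsto_of_tendsto_of_tendsto_of_le_of_le tendsto_const_nhds h3 (fun _ => zero_le)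
    fun i => ?_
  have h4 := h1 (v i) p
  rw [hvu] at h4
  exact h4

omit [ChartedSpace (E n) M] [IsManifold (𝓡 n) ∞ M] in
theorem width_pull (hι : Continuous ι) {ρ : M → M → ℝ≥0∞} {ρ' : E N → E N → ℝ≥0∞} {c : ℝ}
    (hc : 0 < c) (h2 : ∀ x y, ρ x y ≤ ENNReal.ofReal c * ρ' (ι x) (ι y)) {d : ℕ} {C : ℝ}
    (h : WidthLe (ι '' Ω) ρ' d C) : Width Ω ρ d (c * C) := by
  obtain ⟨V, K, φ, k1, k2, k3, k4, k5⟩ := h
  refine ⟨V, K, fun x => φ (ι x), k1, fun x hx => k2 (mem_image_of_mem ι hx),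
    k3.comp hι.continuousOn (mapsTo_image ι Ω), fun x hx => ?_, fun x hx y hy hxy => ?_⟩
  · obtain ⟨t, ht⟩ := k4 (ι x) (mem_image_of_mem ι hx)
    exact ⟨t, (hι.continuousWithinAt.tendsto_nhdsWithin (mapsTo_image ι Ω)).eventually ht⟩
  · rw [ENNReal.ofReal_mul hc.le]
    exact (h2 x y).trans (mul_le_mul_right
      (k5 _ (mem_image_of_mem ι hx) _ (mem_image_of_mem ι hy) hxy) _)

theorem curv_pull {g : Form n M} (hg : IsRiem g) {K s L : ℝ} (h : Good g ι K s L) {f : M → ℝ}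
    (hf : ContMDiffOn (𝓡 n) 𝓘(ℝ, ℝ) ∞ f Ω) (hS : ScalGe Ω (cmul f g)) {F : E N → ℝ}
    (hF : ∀ x, F (ι x) = f x) : Curv n (range ι) K s L (ι '' Ω) F := by
  rintro _ ⟨x, rfl⟩
  obtain ⟨c, P, Φ, hP, hb⟩ := h.patch x
  have hΩ : ∀ y ∈ ball (P (ι x)) (K * s), Φ y ∈ ι '' Ω → (chartAt (E n) c).symm y ∈ Ω := by
    intro y hy h1
    rw [(hb y hy).2.1] at h1
    exact (h.emb.injective.mem_set_image).1 h1
  refine ⟨P, Φ, coef g c, fun y => f ((chartAt (E n) c).symm y), hP, fun i j => ?_,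
    fun y hy => ⟨(hb y hy).2.2.1, (hb y hy).2.2.2, ?_⟩, ?_, fun y hy h1 => ?_⟩
  · exact ((hg.smooth c i j).mono fun y hy => (hb y hy).1).of_le P098.calc_le3
  · rw [(hb y hy).2.1, hF]
  · have h2 : ContMDiffOn (𝓡 n) (𝓡 n) ∞ (chartAt (E n) c).symm
        (ball (P (ι x)) (K * s) ∩ Φ ⁻¹' (ι '' Ω)) :=
      (contMDiffOn_chart_symm (x := c)).mono fun y hy => (hb y hy.1).1
    have h3 := hf.comp h2 fun y hy => hΩ y hy.1 hy.2
    exact (contMDiffOn_iff_contDiffOn.1 h3).of_le P098.calc_le2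
  · rw [← coef_cmul]
    exact hS c y (hb y hy).1 (hΩ y hy h1)

end

end Vale.Agent.P210
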