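import Vale.Agent.P210.M.Core
import Vale.Agent.P210.M.HR
import Vale.Agent.P210.M.MorA
import Vale.Agent.P210.M.MorB
import Vale.Agent.P210.M.EmbC
import Vale.Agent.P210.M.CmpF
import Vale.Agent.P210.M.CmpB
import Vale.Agent.P210.M.Pull

/-! P210 M/Main: assembly on manifolds (owner helper28). -/

namespace Vale.Agent.P210

open Set Filter Topology Metric MeasureTheory
open scoped ContDiff Manifold

noncomputable section

theorem main3 (n : ℕ) (hn : 3 ≤ n) (M : Type) [TopologicalSpace M] [ChartedSpace (E n) M]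
    [IsManifold (𝓡 n) ∞ M] [T2Space M] [CompactSpace M] [ConnectedSpace M] (g : Form n M)
    (hg : IsRiem g) : ∃ C : ℝ, ∀ (Ω : Set M) (f : M → ℝ), IsOpen Ω → IsConnected Ω →
      ContMDiffOn (𝓡 n) 𝓘(ℝ, ℝ) ∞ f Ω → Cplt Ω (mdist Ω (cmul f g)) → ScalGe Ω (cmul f g) →
      Width Ω (mdist Ω (cmul f g)) (n - 2) C := by
  obtain ⟨m, rfl⟩ : ∃ m, n = m + 2 := ⟨n - 2, by omega⟩
  obtain ⟨N, ι, K, s, L, h⟩ := exists_good hg
  have hX := h.toEmb
  obtain ⟨A, τ₀, hA, hτ, hsm⟩ := morrey_small hn h.K1 h.s0 L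
  obtain ⟨A', hA', hla⟩ := morrey_large hn hX.cpt hA hτ
  obtain ⟨C, hC⟩ := core2 m (by omega) hX hA'.le
  have c0 : 0 < L * K := mul_pos h.L0 (by linarith [h.K1])
  refine ⟨L * K * C, fun Ω f hΩ hc hf hco hS => ?_⟩
  obtain ⟨F, hF⟩ : ∃ F : E N → ℝ, ∀ x, F (ι x) = f x :=
    ⟨Function.extend ι f 0, fun x => h.emb.injective.extend_apply f 0 x⟩
  have hFc := cont_pull h.emb hf.continuousOn hF
  have hO := open_pull h.emb hΩ
  have hw : ∀ x, Real.exp (F (ι x)) = Real.exp (f x) := fun x => by rw [hF]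
  have hD : Dom2 (range ι) (ι '' Ω) fun x => Real.exp (F x) :=
    ⟨hO, hFc.rexp, fun x _ => Real.exp_pos _⟩
  have r1 := cmp_f (w := fun x => Real.exp (F x)) hg h hf.continuousOn hw
  have r2 := cmp_b (w := fun x => Real.exp (F x)) hg h hf.continuousOn hw hFc.rexp
  have hP := proper_of_complete2 hX hD (cplt_pull c0 r1 r2 hco)
  have h1 := hla _ _ (fun x => Real.exp (F x / 4)) hD.sub (hsm N _ _ F hX hD hFc hP
    (hc.isPreconnected.image ι h.emb.continuous.continuousOn) (curv_pull hg h hf hS hF))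
  refine width_pull h.emb.continuous c0 r2 ?_
  rw [exp4] at hP ⊢
  exact hC _ _ ⟨hO, (hFc.div_const 4).rexp, fun x _ => Real.exp_pos _⟩ hP h1

end

end Vale.Agent.P210
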