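import Vale.Agent.P210.M.Meas

/-! P210 M/Reg: regularity of the reference measure (helper names end with _Reg). `nu_patch` with `G = 1`. For `p ∈ X`, `r ≤ s`: `X ∩ ball p r ⊆ Φ '' ball (P p) (K r)` (`Patch.right`, `Patch.mapP`) and `Φ '' ball (P p) (r / K) ⊆ ball p r` (`Patch.lip`, `Φ (P p) = p`; `dist < K * (r / K)`); `nu S = nu (S ∩ X)`; `Measure.addHaar_ball_of_pos`.
Finite: cover `X` by finitely many balls `ball p s`. `Up`: a ball `ball x r` that meets `X` at `p` lies in `ball p (2 r)`; if `2 r > s` use the total mass and `1 ≤ (2 r / s) ^ n`. -/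

namespace Vale.Agent.P210

open Set Filter Topology Metric MeasureTheory
open scoped ENNReal

noncomputable section

theorem nu_reg {N n : ℕ} {X : Set (E N)} {K s : ℝ} (hX : Emb n X K s) :
    IsFiniteMeasure (nu n X) ∧ ∃ Q : ℝ, 1 ≤ Q ∧ Up (nu n X) n Q ∧ Lo (nu n X) n X Q s := by
  obtain ⟨κ, hκ, H⟩ := nu_patch n hX.K1
  have hK : 0 < K := one_pos.trans_le hX.K1
  have hs := hX.s0
  have hκ0 : 0 < κ := one_pos.trans_le hκ
  have hb0 : volume (ball (0 : E n) 1) ≠ ∞ := measure_ball_lt_top.ne
  have hb : 0 < (volume (ball (0 : E n) 1)).toReal :=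
    ENNReal.toReal_pos (measure_ball_pos _ _ one_pos).ne' hb0
  set b := (volume (ball (0 : E n) 1)).toReal with hbd
  have vol : ∀ (y : E n) (r : ℝ), 0 < r → volume (ball y r) = ENNReal.ofReal (r ^ n * b) := by
    intro y r hr
    rw [Measure.addHaar_ball_of_pos _ y hr, finrank_euclideanSpace_fin,
      ENNReal.ofReal_mul (by positivity), hbd, ENNReal.ofReal_toReal hb0]
  have res : ∀ S : Set (E N), nu n X S = nu n X (S ∩ X) := fun S => by
    rw [nu, Measure.restrict_apply' hX.cpt.measurableSet,
      Measure.restrict_apply' hX.cpt.measurableSet, inter_assoc, inter_self]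
  have up : ∀ p ∈ X, ∀ r, 0 < r → r ≤ s →
      nu n X (ball p r) ≤ ENNReal.ofReal (κ * ((K * r) ^ n * b)) := by
    intro p hp r hr hrs
    obtain ⟨P, Φ, h⟩ := hX.patch p hp
    have h1 := (H N X s p P Φ hX.cpt h (ball (P p) (K * r)) measurableSet_ball
      (ball_subset_ball (by gcongr)) (fun _ => 1) measurable_const).1
    rw [setLIntegral_one, setLIntegral_one, vol _ _ (by positivity),
      ← ENNReal.ofReal_mul hκ0.le] at h1
    rw [res]
    refine (measure_mono fun z hz => ?_).trans h1
    exact ⟨P z, (h.mapP z p).trans_lt (mul_lt_mul_of_pos_left hz.1 hK),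
      h.right z hz.2 (lt_of_lt_of_le hz.1 hrs)⟩
  have lo : ∀ p ∈ X, ∀ r, 0 < r → r ≤ s →
      ENNReal.ofReal ((r / K) ^ n * b) ≤ ENNReal.ofReal κ * nu n X (ball p r) := by
    intro p hp r hr hrs
    obtain ⟨P, Φ, h⟩ := hX.patch p hp
    have h0 : ball (P p) (r / K) ⊆ ball (P p) (K * s) := ball_subset_ball
      ((div_le_self hr.le hX.K1).trans (hrs.trans (le_mul_of_one_le_left hs.le hX.K1)))
    have h1 := (H N X s p P Φ hX.cpt h (ball (P p) (r / K)) measurableSet_ball h0
      (fun _ => 1) measurable_const).2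
    rw [setLIntegral_one, setLIntegral_one, vol _ _ (by positivity)] at h1
    refine h1.trans (mul_le_mul_right (measure_mono ?_) _)
    rintro _ ⟨y, hy, rfl⟩
    have h2 := h.lip (h0 hy) (mem_ball_self (by positivity))
    rw [h.right p hp (by rwa [dist_self])] at h2
    refine h2.trans_lt ((mul_lt_mul_of_pos_left hy hK).trans_eq ?_)
    field_simp
  have fin : IsFiniteMeasure (nu n X) := by
    obtain ⟨t, ht, hf, hc⟩ := finite_cover_balls_of_compact hX.cpt hs
    refine ⟨?_⟩
    rw [res, univ_inter]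
    exact (measure_mono hc).trans_lt (measure_biUnion_lt_top hf fun p hp =>
      (up p (ht hp) s hs le_rfl).trans_lt ENNReal.ofReal_lt_top)
  have hT : 0 ≤ (nu n X univ).toReal := ENNReal.toReal_nonneg
  set T := (nu n X univ).toReal with hTd
  have q1 : 0 ≤ κ * ((K * 2) ^ n * b) := by positivity
  have q2 : 0 ≤ T * (2 / s) ^ n := by positivity
  have q3 : 0 < κ * K ^ n / b := by positivity
  refine ⟨fin, 1 + κ * ((K * 2) ^ n * b) + T * (2 / s) ^ n + κ * K ^ n / b, by linarith,
    fun x r hr => ?_, fun p hp r hr hrs => ?_⟩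
  · rcases (ball x r ∩ X).eq_empty_or_nonempty with h | ⟨p, hp, hpX⟩
    · rw [res, h, measure_empty]
      exact zero_le
    have hr' : 0 ≤ r ^ n := by positivity
    rcases le_or_gt (2 * r) s with h | h
    · have h1 : ball x r ⊆ ball p (2 * r) := ball_subset_ball' (by
        have := mem_ball'.1 hp
        linarith)
      refine (measure_mono h1).trans ((up p hpX _ (by positivity) h).trans
        (ENNReal.ofReal_le_ofReal ?_))
      rw [← mul_assoc K, mul_pow, mul_right_comm, ← mul_assoc κ]
      exact mul_le_mul_of_nonneg_right (by linarith) hr'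
    · refine (measure_mono (subset_univ _)).trans ?_
      rw [← ENNReal.ofReal_toReal (measure_ne_top (nu n X) univ)]
      refine ENNReal.ofReal_le_ofReal ?_
      have h1 : 1 ≤ (2 / s * r) ^ n := one_le_pow₀ (by
        rw [div_mul_eq_mul_div, one_le_div hs]
        exact h.le)
      refine (le_mul_of_one_le_right hT h1).trans ?_
      rw [mul_pow, ← mul_assoc]
      exact mul_le_mul_of_nonneg_right (by linarith) hr'
  · rw [← ENNReal.mul_le_mul_iff_right (ENNReal.ofReal_pos.2 hκ0).ne' ENNReal.ofReal_ne_top,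
      ← ENNReal.ofReal_mul hκ0.le]
    refine (ENNReal.ofReal_le_ofReal ?_).trans (lo p hp r hr hrs)
    refine (mul_le_mul_of_nonneg_left (div_le_div_of_nonneg_left (by positivity) q3
      (by linarith)) hκ0.le).trans_eq ?_
    rw [div_pow]
    field_simp

end

end Vale.Agent.P210
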