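import Vale.Agent.P210.M.EmbB

/-! P210 M/Spd: comparison of speeds (helper names end with _Spd). Patch at `x`, `y = P (ι x)`, `e = chartAt c`: `ι (e.symm y) = Φ y = ι x` (`Patch.right`), so `e.symm y = x` (injectivity); `obtain rfl`. `D = mfderiv e.symm y` is surjective (`mfderiv_surjective`), `v = D u`;
`Φ = ι ∘ e.symm` near `y`, so `fderiv Φ y u = mfderiv ι x (D u)` (`mfderiv_comp`, `mfderiv_eq_fderiv`, `EventuallyEq.mfderiv_eq`); `P ∘ Φ = id` near `y` gives `u = P (fderiv Φ y u)`; `qf_coef`, `Ell`, `Patch.nP`, `Patch.nD`. -/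

namespace Vale.Agent.P210

open Set Filter Topology Metric MeasureTheory
open scoped ENNReal Manifold ContDiff

noncomputable section

variable {n N : ℕ} {M : Type} [TopologicalSpace M] [ChartedSpace (E n) M]
  [IsManifold (𝓡 n) ∞ M]

theorem Good.speed {g : Form n M} {ι : M → E N} {K s L : ℝ} (h : Good g ι K s L) (x : M)
    (v : TangentSpace (𝓡 n) x) (u : E N) (hu : u = mfderiv (𝓡 n) (𝓡 N) ι x v) :
    √(g x v v) ≤ L * K * ‖u‖ ∧ ‖u‖ ≤ L * K * √(g x v v) := by
  obtain ⟨c, P, Φ, hP, hc⟩ := h.patch x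
  have hK : 0 < K := by linarith [h.K1]
  have hb : ball (P (ι x)) (K * s) ∈ 𝓝 (P (ι x)) := ball_mem_nhds _ (mul_pos hK h.s0)
  have hm := mem_of_mem_nhds hb
  have h1 : Φ (P (ι x)) = ι x := hP.right _ ⟨x, rfl⟩ (by simpa using h.s0)
  have h2 : Φ =ᶠ[𝓝 (P (ι x))] ι ∘ (chartAt (E n) c).symm := by
    filter_upwards [hb] with y hy using (hc y hy).2.1
  have h3 : P ∘ Φ =ᶠ[𝓝 (P (ι x))] id := by
    filter_upwards [hb] with y hy using hP.left y hy
  have h4 := hP.nD _ hm
  obtain ⟨h5, h6, h7, -⟩ := hc _ hm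
  have h8 : (chartAt (E n) c).symm (P (ι x)) = x := h.emb.injective (h6.symm.trans h1)
  generalize P (ι x) = y at h2 h3 h4 h5 h7 h8
  subst h8
  have hd := (mdifferentiable_chart (I := 𝓡 n) c).symm
  obtain ⟨w, rfl⟩ := hd.mfderiv_surjective h5 v
  have h9 : fderiv ℝ Φ y w = u := by
    rw [hu, ← mfderiv_eq_fderiv, h2.mfderiv_eq,
      mfderiv_comp y (h.sm.mdifferentiableAt (by simp)) (hd.mdifferentiableAt h5)]
    rfl
  have h10 : P u = w := by
    have h11 := h3.fderiv_eq (𝕜 := ℝ)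
    rw [fderiv_comp y P.differentiableAt (hP.sm.differentiable one_ne_zero y), P.fderiv,
      fderiv_id] at h11
    rw [← h9]
    exact congrArg (fun T : E n →L[ℝ] E n => T w) h11
  rw [← qf_coef g c y w]
  constructor
  · refine (h7.hi w).trans ?_
    rw [mul_assoc, ← h10]
    exact mul_le_mul_of_nonneg_left (hP.nP u) h.L0.le
  · rw [← h9, mul_comm L, mul_assoc]
    exact ((fderiv ℝ Φ y).le_opNorm w).trans (mul_le_mul h4 (h7.lo w) (norm_nonneg _) hK.le)

theorem Good.toEmb [CompactSpace M] [ConnectedSpace M] {g : Form n M} {ι : M → E N} {K s L : ℝ}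
    (h : Good g ι K s L) : Emb n (range ι) K s := by
  refine ⟨isCompact_range h.emb.continuous, isPreconnected_range h.emb.continuous, h.K1, h.s0, ?_⟩
  rintro _ ⟨x, rfl⟩
  obtain ⟨c, P, Φ, hP, -⟩ := h.patch x
  exact ⟨P, Φ, hP⟩

end

end Vale.Agent.P210
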